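import Vale.Agent.Lib.P328B.Defs

/-!
P328 (binary), module CYC: if two tables differ by more than `M` in a cell, where `2 M` bounds the l1
distance of their margins, then the integer flow `y - y'` contains a conformal cycle, so that `y` can be
moved inside the box spanned by `y` and `y'`.
-/

namespace Vale.Agent.P328B

open Finset

variable {m n : ℕ}

/-- the cut bound: if an edge carries more than `M`, it lies on a directed closed walk -/
theorem CYC_cut {ν : Type} [Fintype ν] [DecidableEq ν] (φ : ν → ν → ℤ)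
    (hφ : ∀ u v, φ u v = -φ v u) (M : ℕ) (hM : ∑ v, (∑ u, φ u v).natAbs ≤ 2 * M) (s t : ν)
    (hst : (M : ℤ) < φ s t) : Relation.ReflTransGen (fun u v => 0 < φ u v) t s := by
  classical
  by_contra hns
  set S : Finset ν := univ.filter
    (fun v => Relation.ReflTransGen (fun u v => 0 < φ u v) t v) with hS
  have ht : t ∈ S := by
    rw [hS, mem_filter]
    exact ⟨mem_univ t, Relation.ReflTransGen.refl⟩
  have hs : s ∉ S := by
    rw [hS, mem_filter]
    exact fun h => hns h.2
  have hcross : ∀ v ∈ S, ∀ u ∈ Sᶜ, 0 ≤ φ u v := by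
    intro v hv u hu
    by_contra hneg
    rw [mem_compl] at hu
    apply hu
    rw [hS, mem_filter] at hv ⊢
    refine ⟨mem_univ u, hv.2.tail ?_⟩
    have := hφ v u
    omega
  have hanti : ∀ A : Finset ν, ∑ v ∈ A, ∑ u ∈ A, φ u v = 0 := by
    intro A
    have h1 : ∑ v ∈ A, ∑ u ∈ A, φ u v = ∑ v ∈ A, ∑ u ∈ A, φ v u := Finset.sum_comm
    have h2 : ∑ v ∈ A, ∑ u ∈ A, φ v u = -∑ v ∈ A, ∑ u ∈ A, φ u v := by
      rw [← Finset.sum_neg_distrib]
      refine Finset.sum_congr rfl fun v _ => ?_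
      rw [← Finset.sum_neg_distrib]
      exact Finset.sum_congr rfl fun u _ => hφ v u
    omega
  have h1 : ∑ v ∈ S, ∑ u, φ u v = ∑ v ∈ S, ∑ u ∈ Sᶜ, φ u v := by
    have h2 : ∑ v ∈ S, ∑ u, φ u v = ∑ v ∈ S, (∑ u ∈ S, φ u v + ∑ u ∈ Sᶜ, φ u v) :=
      Finset.sum_congr rfl fun v _ => (Finset.sum_add_sum_compl S _).symm
    rw [h2, Finset.sum_add_distrib, hanti S]
    ring
  have h2 : φ s t ≤ ∑ v ∈ S, ∑ u ∈ Sᶜ, φ u v := by
    have h3 : φ s t ≤ ∑ u ∈ Sᶜ, φ u t :=
      Finset.single_le_sum (f := fun u => φ u t) (fun u hu => hcross t ht u hu)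
        (mem_compl.mpr hs)
    exact h3.trans (Finset.single_le_sum (f := fun v => ∑ u ∈ Sᶜ, φ u v)
      (fun v hv => Finset.sum_nonneg fun u hu => hcross v hv u hu) ht)
  have h3 : ∑ v, ∑ u, φ u v = 0 := hanti univ
  have h4 : ∑ v ∈ S, ∑ u, φ u v + ∑ v ∈ Sᶜ, ∑ u, φ u v = 0 := by
    rw [Finset.sum_add_sum_compl]; exact h3
  have h5 : ∑ v ∈ S, ∑ u, φ u v ≤ ∑ v ∈ S, ((∑ u, φ u v).natAbs : ℤ) :=
    Finset.sum_le_sum fun v _ => Int.le_natAbs
  have h6 : -∑ v ∈ Sᶜ, ∑ u, φ u v ≤ ∑ v ∈ Sᶜ, ((∑ u, φ u v).natAbs : ℤ) := by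
    rw [← Finset.sum_neg_distrib]
    refine Finset.sum_le_sum fun v _ => ?_
    omega
  have h7 : ∑ v ∈ S, ((∑ u, φ u v).natAbs : ℤ) + ∑ v ∈ Sᶜ, ((∑ u, φ u v).natAbs : ℤ) =
      ∑ v, ((∑ u, φ u v).natAbs : ℤ) := Finset.sum_add_sum_compl S _
  have h8 : ∑ v, ((∑ u, φ u v).natAbs : ℤ) ≤ 2 * M := by exact_mod_cast hM
  omega

/-- a closed walk gives a set of vertices permuted by a successor map -/
theorem CYC_perm {ν : Type} [Fintype ν] [DecidableEq ν] (E : ν → ν → Prop) (s t : ν) (hst : E s t)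
    (h : Relation.ReflTransGen E t s) :
    ∃ (P : Finset ν) (f : ν → ν), P.Nonempty ∧ (∀ v ∈ P, E v (f v)) ∧ P.image f = P ∧
      Set.InjOn f P := by
  classical
  set T : Finset ν := univ.filter
    (fun v => Relation.ReflTransGen E t v ∧ Relation.ReflTransGen E v s) with hT
  have hmem : ∀ v, v ∈ T ↔ Relation.ReflTransGen E t v ∧ Relation.ReflTransGen E v s := by
    intro v
    rw [hT, mem_filter]
    exact ⟨fun h => h.2, fun h => ⟨mem_univ v, h⟩⟩
  have htT : t ∈ T := (hmem t).2 ⟨Relation.ReflTransGen.refl, h⟩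
  have hnext : ∀ v, ∃ w, v ∈ T → (E v w ∧ w ∈ T) := by
    intro v
    by_cases hv : v ∈ T
    · rw [hmem] at hv
      rcases Relation.ReflTransGen.cases_head hv.2 with hvs | ⟨w, hvw, hws⟩
      · exact ⟨t, fun _ => ⟨hvs ▸ hst, htT⟩⟩
      · exact ⟨w, fun _ => ⟨hvw, (hmem w).2 ⟨hv.1.tail hvw, hws⟩⟩⟩
    · exact ⟨v, fun hc => absurd hc hv⟩
  choose f hf using hnext
  -- minimal nonempty closed subset
  let Q : Finset ν → Prop := fun P => P.Nonempty ∧ P ⊆ T ∧ ∀ v ∈ P, f v ∈ P
  have hQT : Q T := ⟨⟨t, htT⟩, Finset.Subset.refl T, fun v hv => (hf v hv).2⟩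
  obtain ⟨P, hP, hmin⟩ : ∃ P, Q P ∧ ∀ P', Q P' → P.card ≤ P'.card := by
    have hne : ∃ k, ∃ P, Q P ∧ P.card = k := ⟨_, T, hQT, rfl⟩
    obtain ⟨P, hP, hc⟩ := Nat.find_spec hne
    exact ⟨P, hP, fun P' hP' => by rw [hc]; exact Nat.find_min' hne ⟨P', hP', rfl⟩⟩
  have himg : Q (P.image f) := by
    refine ⟨hP.1.image f, ?_, ?_⟩
    · intro w hw
      rw [mem_image] at hw
      obtain ⟨v, hv, rfl⟩ := hw
      exact (hf v (hP.2.1 hv)).2
    · intro w hw
      rw [mem_image] at hw ⊢
      obtain ⟨v, hv, rfl⟩ := hw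
      exact ⟨f v, hP.2.2 v hv, rfl⟩
  have hsub : P.image f ⊆ P := by
    intro w hw
    rw [mem_image] at hw
    obtain ⟨v, hv, rfl⟩ := hw
    exact hP.2.2 v hv
  have heq : P.image f = P := Finset.eq_of_subset_of_card_le hsub (hmin _ himg)
  refine ⟨P, f, hP.1, fun v hv => (hf v (hP.2.1 hv)).1, heq, ?_⟩
  apply Finset.card_image_iff.mp
  rw [heq]

/-- the flow between rows and columns -/
def CYC_fl (y y' : Fin m → Fin n → ℕ) : Fin m ⊕ Fin n → Fin m ⊕ Fin n → ℤ
  | Sum.inl i, Sum.inr a => (y i a : ℤ) - y' i a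
  | Sum.inr a, Sum.inl i => (y' i a : ℤ) - y i a
  | Sum.inl _, Sum.inl _ => 0
  | Sum.inr _, Sum.inr _ => 0

/-- moving `y` along a permuted set of vertices -/
theorem CYC_move {R : Fin m → ℕ} {C : Fin n → ℕ} {y y' : Fin m → Fin n → ℕ} (hy : y ∈ Tb R C)
    (P : Finset (Fin m ⊕ Fin n)) (f : Fin m ⊕ Fin n → Fin m ⊕ Fin n) (hne : P.Nonempty)
    (hE : ∀ v ∈ P, 0 < CYC_fl y y' v (f v)) (himg : P.image f = P) (hinj : Set.InjOn f P) :
    ∃ z ∈ Tb R C, z ≠ y ∧ ∀ i a, min (y i a) (y' i a) ≤ z i a ∧ z i a ≤ max (y i a) (y' i a) := by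
  classical
  set A : Fin m → Fin n → ℕ := fun i a => if Sum.inl i ∈ P ∧ f (Sum.inl i) = Sum.inr a then 1 else 0
    with hA
  set B : Fin m → Fin n → ℕ := fun i a => if Sum.inr a ∈ P ∧ f (Sum.inr a) = Sum.inl i then 1 else 0
    with hB
  have hA1 : ∀ i a, Sum.inl i ∈ P ∧ f (Sum.inl i) = Sum.inr a → y' i a < y i a := by
    rintro i a ⟨h1, h2⟩
    have h3 := hE _ h1
    rw [h2] at h3
    simp only [CYC_fl] at h3
    omega
  have hB1 : ∀ i a, Sum.inr a ∈ P ∧ f (Sum.inr a) = Sum.inl i → y i a < y' i a := by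
    rintro i a ⟨h1, h2⟩
    have h3 := hE _ h1
    rw [h2] at h3
    simp only [CYC_fl] at h3
    omega
  have hout : ∀ i, Sum.inl i ∈ P → ∃ a, f (Sum.inl i) = Sum.inr a := by
    intro i hi
    have h3 := hE _ hi
    rcases hf : f (Sum.inl i) with j | a
    · rw [hf] at h3
      simp [CYC_fl] at h3
    · exact ⟨a, rfl⟩
  have hout' : ∀ a, Sum.inr a ∈ P → ∃ i, f (Sum.inr a) = Sum.inl i := by
    intro a ha
    have h3 := hE _ ha
    rcases hf : f (Sum.inr a) with j | b
    · exact ⟨j, rfl⟩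
    · rw [hf] at h3
      simp [CYC_fl] at h3
  have hin : ∀ i, Sum.inl i ∈ P → ∃ a, Sum.inr a ∈ P ∧ f (Sum.inr a) = Sum.inl i := by
    intro i hi
    rw [← himg, mem_image] at hi
    obtain ⟨v, hv, hfv⟩ := hi
    rcases v with j | a
    · obtain ⟨a, ha⟩ := hout j hv
      rw [ha] at hfv
      exact absurd hfv (by simp)
    · exact ⟨a, hv, hfv⟩
  have hin' : ∀ a, Sum.inr a ∈ P → ∃ i, Sum.inl i ∈ P ∧ f (Sum.inl i) = Sum.inr a := by
    intro a ha
    rw [← himg, mem_image] at ha
    obtain ⟨v, hv, hfv⟩ := ha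
    rcases v with j | b
    · exact ⟨j, hv, hfv⟩
    · obtain ⟨i, hi⟩ := hout' b hv
      rw [hi] at hfv
      exact absurd hfv (by simp)
  have hclosed : ∀ v ∈ P, f v ∈ P := by
    intro v hv
    rw [← himg]
    exact mem_image_of_mem f hv
  -- the four sums
  have sA1 : ∀ i, ∑ a, A i a = if Sum.inl i ∈ P then 1 else 0 := by
    intro i
    by_cases hi : Sum.inl i ∈ P
    · obtain ⟨a, ha⟩ := hout i hi
      rw [if_pos hi, Finset.sum_eq_single a]
      · simp [hA, hi, ha]
      · intro b _ hb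
        simp only [hA]
        rw [if_neg]
        rintro ⟨-, h2⟩
        rw [ha] at h2
        exact hb (Sum.inr_injective h2).symm
      · intro h; exact absurd (mem_univ a) h
    · rw [if_neg hi]
      exact Finset.sum_eq_zero fun a _ => by simp [hA, hi]
  have sB1 : ∀ i, ∑ a, B i a = if Sum.inl i ∈ P then 1 else 0 := by
    intro i
    by_cases hi : Sum.inl i ∈ P
    · obtain ⟨a, haP, ha⟩ := hin i hi
      rw [if_pos hi, Finset.sum_eq_single a]
      · simp [hB, haP, ha]
      · intro b _ hb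
        simp only [hB]
        rw [if_neg]
        rintro ⟨h1, h2⟩
        exact hb (Sum.inr_injective (hinj (mem_coe.mpr h1) (mem_coe.mpr haP) (h2.trans ha.symm)))
      · intro h; exact absurd (mem_univ a) h
    · rw [if_neg hi]
      refine Finset.sum_eq_zero fun a _ => ?_
      simp only [hB]
      rw [if_neg]
      rintro ⟨h1, h2⟩
      exact hi (h2 ▸ hclosed _ h1)
  have sA2 : ∀ a, ∑ i, A i a = if Sum.inr a ∈ P then 1 else 0 := by
    intro a
    by_cases ha : Sum.inr a ∈ P
    · obtain ⟨i, hiP, hi⟩ := hin' a ha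
      rw [if_pos ha, Finset.sum_eq_single i]
      · simp [hA, hiP, hi]
      · intro j _ hj
        simp only [hA]
        rw [if_neg]
        rintro ⟨h1, h2⟩
        exact hj (Sum.inl_injective (hinj (mem_coe.mpr h1) (mem_coe.mpr hiP) (h2.trans hi.symm)))
      · intro h; exact absurd (mem_univ i) h
    · rw [if_neg ha]
      refine Finset.sum_eq_zero fun i _ => ?_
      simp only [hA]
      rw [if_neg]
      rintro ⟨h1, h2⟩
      exact ha (h2 ▸ hclosed _ h1)
  have sB2 : ∀ a, ∑ i, B i a = if Sum.inr a ∈ P then 1 else 0 := by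
    intro a
    by_cases ha : Sum.inr a ∈ P
    · obtain ⟨i, hi⟩ := hout' a ha
      rw [if_pos ha, Finset.sum_eq_single i]
      · simp [hB, ha, hi]
      · intro j _ hj
        simp only [hB]
        rw [if_neg]
        rintro ⟨-, h2⟩
        rw [hi] at h2
        exact hj (Sum.inl_injective h2).symm
      · intro h; exact absurd (mem_univ i) h
    · rw [if_neg ha]
      exact Finset.sum_eq_zero fun i _ => by simp [hB, ha]
  -- the new table
  have hz : ∀ i a, (y i a + B i a - A i a) + A i a = y i a + B i a := by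
    intro i a
    have : A i a ≤ y i a + B i a := by
      simp only [hA]
      split_ifs with h
      · have := hA1 i a h; omega
      · omega
    omega
  refine ⟨fun i a => y i a + B i a - A i a, ?_, ?_, ?_⟩
  · rw [mem_Tb]
    constructor
    · intro i
      have h1 : ∑ a, ((y i a + B i a - A i a) + A i a) = ∑ a, (y i a + B i a) :=
        Finset.sum_congr rfl fun a _ => hz i a
      rw [Finset.sum_add_distrib, Finset.sum_add_distrib, sA1, sB1, row_sum hy] at h1
      omega
    · intro a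
      have h1 : ∑ i, ((y i a + B i a - A i a) + A i a) = ∑ i, (y i a + B i a) :=
        Finset.sum_congr rfl fun i _ => hz i a
      rw [Finset.sum_add_distrib, Finset.sum_add_distrib, sA2, sB2, col_sum hy] at h1
      omega
  · intro heq
    obtain ⟨v, hv⟩ := hne
    rcases v with i | a
    · obtain ⟨a, ha⟩ := hout i hv
      have h1 : A i a = 1 := by simp [hA, hv, ha]
      have h2 : B i a = 0 := by
        simp only [hB]
        rw [if_neg]
        intro h
        have := hB1 i a h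
        have := hA1 i a ⟨hv, ha⟩
        omega
      have h3 := congrFun (congrFun heq i) a
      have h4 := hA1 i a ⟨hv, ha⟩
      simp only [h1, h2] at h3
      omega
    · obtain ⟨i, hi⟩ := hout' a hv
      have h1 : B i a = 1 := by simp [hB, hv, hi]
      have h2 : A i a = 0 := by
        simp only [hA]
        rw [if_neg]
        intro h
        have := hA1 i a h
        have := hB1 i a ⟨hv, hi⟩
        omega
      have h3 := congrFun (congrFun heq i) a
      simp only [h1, h2] at h3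
      omega
  · intro i a
    by_cases hAc : Sum.inl i ∈ P ∧ f (Sum.inl i) = Sum.inr a
    · have h1 : A i a = 1 := by simp [hA, hAc]
      have h4 := hA1 i a hAc
      have h2 : B i a = 0 := by
        simp only [hB]
        rw [if_neg]
        intro h
        have := hB1 i a h
        omega
      simp only [h1, h2]
      omega
    · have h1 : A i a = 0 := by
        simp only [hA]
        rw [if_neg hAc]
      by_cases hBc : Sum.inr a ∈ P ∧ f (Sum.inr a) = Sum.inl i
      · have h2 : B i a = 1 := by simp [hB, hBc]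
        have h4 := hB1 i a hBc
        simp only [h1, h2]
        omega
      · have h2 : B i a = 0 := by
          simp only [hB]
          rw [if_neg hBc]
        simp only [h1, h2]
        omega

/-- CYC -/
theorem box_cycle {R R' : Fin m → ℕ} {C C' : Fin n → ℕ} {y y' : Fin m → Fin n → ℕ}
    (hy : y ∈ Tb R C) (hy' : y' ∈ Tb R' C') (M : ℕ)
    (hM : ∑ i, ((R i : ℤ) - R' i).natAbs + ∑ a, ((C a : ℤ) - C' a).natAbs ≤ 2 * M)
    {i0 : Fin m} {a0 : Fin n} (hbig : M < ((y i0 a0 : ℤ) - y' i0 a0).natAbs) :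
    ∃ z ∈ Tb R C, z ≠ y ∧ ∀ i a, min (y i a) (y' i a) ≤ z i a ∧ z i a ≤ max (y i a) (y' i a) := by
  have hanti : ∀ u v, CYC_fl y y' u v = -CYC_fl y y' v u := by
    intro u v
    rcases u with i | a <;> rcases v with j | b <;> simp only [CYC_fl] <;> ring
  have hnet : ∑ v, (∑ u, CYC_fl y y' u v).natAbs ≤ 2 * M := by
    refine le_trans (le_of_eq ?_) hM
    rw [Fintype.sum_sum_type]
    congr 1
    · refine Finset.sum_congr rfl fun i _ => ?_
      rw [Fintype.sum_sum_type]
      simp only [CYC_fl, Finset.sum_const_zero, zero_add, Finset.sum_sub_distrib]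
      have h1 := row_sum hy i
      have h2 := row_sum hy' i
      have h3 : ∑ a, (y i a : ℤ) = R i := by exact_mod_cast h1
      have h4 : ∑ a, (y' i a : ℤ) = R' i := by exact_mod_cast h2
      rw [h3, h4]
      omega
    · refine Finset.sum_congr rfl fun a _ => ?_
      rw [Fintype.sum_sum_type]
      simp only [CYC_fl, Finset.sum_const_zero, add_zero, Finset.sum_sub_distrib]
      have h1 := col_sum hy a
      have h2 := col_sum hy' a
      have h3 : ∑ i, (y i a : ℤ) = C a := by exact_mod_cast h1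
      have h4 : ∑ i, (y' i a : ℤ) = C' a := by exact_mod_cast h2
      rw [h3, h4]
  have hedge : ∃ s t, (M : ℤ) < CYC_fl y y' s t := by
    by_cases h : (0 : ℤ) ≤ (y i0 a0 : ℤ) - y' i0 a0
    · refine ⟨Sum.inl i0, Sum.inr a0, ?_⟩
      simp only [CYC_fl]
      omega
    · refine ⟨Sum.inr a0, Sum.inl i0, ?_⟩
      simp only [CYC_fl]
      omega
  obtain ⟨s, t, hst⟩ := hedge
  have hreach := CYC_cut (CYC_fl y y') hanti M hnet s t hst
  have hpos : 0 < CYC_fl y y' s t := by omega
  obtain ⟨P, f, hne, hE, himg, hinj⟩ := CYC_perm (fun u v => 0 < CYC_fl y y' u v) s t hpos hreach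
  exact CYC_move hy P f hne hE himg hinj

end Vale.Agent.P328B
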