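import Mathlib

/-!
P328 (contingency tables), binary margins. Definitions.

`Tb r c` : tables with margins `r`, `c`. `ln r c i k a b x` : the tables which agree with `x` outside the
2x2 block (rows `i, k`, columns `a, b`). `En` : the 2x2 heat-bath energy. `UE` : the energy of unit switches.
-/

namespace Vale.Agent.P328B

open Finset

variable {m n : ℕ}

/-- `t` units in the cell `(p, q)` -/
def Et (t : ℕ) (p : Fin m) (q : Fin n) : Fin m → Fin n → ℕ := fun i a => if i = p ∧ a = q then t else 0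

/-- `t` units at `p` -/
def e1 {k : ℕ} (t : ℕ) (p : Fin k) : Fin k → ℕ := fun i => if i = p then t else 0

/-- contingency tables with row sums `r` and column sums `c` -/
def Tb (r : Fin m → ℕ) (c : Fin n → ℕ) : Finset (Fin m → Fin n → ℕ) :=
  (Fintype.piFinset fun _ => Fintype.piFinset fun a => Finset.range (c a + 1)).filter
    fun x => (∀ i, ∑ a, x i a = r i) ∧ ∀ a, ∑ i, x i a = c a

theorem mem_Tb {r : Fin m → ℕ} {c : Fin n → ℕ} {x : Fin m → Fin n → ℕ} :
    x ∈ Tb r c ↔ (∀ i, ∑ a, x i a = r i) ∧ ∀ a, ∑ i, x i a = c a := by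
  unfold Tb
  simp only [mem_filter, Fintype.mem_piFinset, mem_range, and_iff_right_iff_imp]
  rintro ⟨_, h2⟩ i a
  rw [Nat.lt_succ_iff, ← h2 a]
  exact single_le_sum (f := fun i => x i a) (fun _ _ => Nat.zero_le _) (mem_univ i)

theorem row_sum {r : Fin m → ℕ} {c : Fin n → ℕ} {x : Fin m → Fin n → ℕ} (h : x ∈ Tb r c) (i : Fin m) :
    ∑ a, x i a = r i := (mem_Tb.mp h).1 i

theorem col_sum {r : Fin m → ℕ} {c : Fin n → ℕ} {x : Fin m → Fin n → ℕ} (h : x ∈ Tb r c) (a : Fin n) :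
    ∑ i, x i a = c a := (mem_Tb.mp h).2 a

theorem le_row {r : Fin m → ℕ} {c : Fin n → ℕ} {x : Fin m → Fin n → ℕ} (h : x ∈ Tb r c) (i : Fin m)
    (a : Fin n) : x i a ≤ r i := by
  rw [← row_sum h i]
  exact single_le_sum (f := fun a => x i a) (fun _ _ => Nat.zero_le _) (mem_univ a)

theorem le_col {r : Fin m → ℕ} {c : Fin n → ℕ} {x : Fin m → Fin n → ℕ} (h : x ∈ Tb r c) (i : Fin m)
    (a : Fin n) : x i a ≤ c a := by
  rw [← col_sum h a]
  exact single_le_sum (f := fun i => x i a) (fun _ _ => Nat.zero_le _) (mem_univ i)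

/-- the entries outside the block (rows `i, k`, columns `a, b`) agree -/
def Off (i k : Fin m) (a b : Fin n) (x y : Fin m → Fin n → ℕ) : Prop :=
  ∀ p q, ¬ ((p = i ∨ p = k) ∧ (q = a ∨ q = b)) → x p q = y p q

instance (i k : Fin m) (a b : Fin n) : DecidableRel (Off i k a b) := by
  intro x y; unfold Off; infer_instance

/-- the 2x2 line of `x` -/
def ln (r : Fin m → ℕ) (c : Fin n → ℕ) (i k : Fin m) (a b : Fin n) (x : Fin m → Fin n → ℕ) :
    Finset (Fin m → Fin n → ℕ) := (Tb r c).filter (fun y => Off i k a b x y)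

/-- mean over a finite set -/
noncomputable def mean {α : Type} (S : Finset α) (f : α → ℝ) : ℝ := (∑ y ∈ S, f y) / (S.card : ℝ)

/-- mean over the 2x2 line -/
noncomputable def lm (r : Fin m → ℕ) (c : Fin n → ℕ) (i k : Fin m) (a b : Fin n)
    (f : (Fin m → Fin n → ℕ) → ℝ) (x : Fin m → Fin n → ℕ) : ℝ := mean (ln r c i k a b x) f

/-- energy of a block -/
noncomputable def EB (r : Fin m → ℕ) (c : Fin n → ℕ) (i k : Fin m) (a b : Fin n)
    (f : (Fin m → Fin n → ℕ) → ℝ) : ℝ := ∑ x ∈ Tb r c, (f x - lm r c i k a b f x) ^ 2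

/-- the 2x2 heat-bath energy -/
noncomputable def En (r : Fin m → ℕ) (c : Fin n → ℕ) (f : (Fin m → Fin n → ℕ) → ℝ) : ℝ :=
  ∑ i : Fin m, ∑ k : Fin m, ∑ a : Fin n, ∑ b : Fin n, if i ≠ k ∧ a ≠ b then EB r c i k a b f else 0

/-- squared norm -/
noncomputable def sq (r : Fin m → ℕ) (c : Fin n → ℕ) (f : (Fin m → Fin n → ℕ) → ℝ) : ℝ :=
  ∑ x ∈ Tb r c, f x ^ 2

/-- the switch by `t`: `t` units are added in the cells `(i,a)`, `(k,b)` and removed in `(i,b)`, `(k,a)` -/
def Sw (t : ℕ) (i k : Fin m) (a b : Fin n) (x : Fin m → Fin n → ℕ) : Fin m → Fin n → ℕ :=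
  x + Et t i a + Et t k b - Et t i b - Et t k a

/-- energy of the unit switches -/
noncomputable def UE (r : Fin m → ℕ) (c : Fin n → ℕ) (f : (Fin m → Fin n → ℕ) → ℝ) : ℝ :=
  ∑ x ∈ Tb r c, ∑ i : Fin m, ∑ k : Fin m, ∑ a : Fin n, ∑ b : Fin n,
    if i ≠ k ∧ a ≠ b ∧ 1 ≤ x i b ∧ 1 ≤ x k a then (f (Sw 1 i k a b x) - f x) ^ 2 else 0

/-- the unary theorem with constants `κ N` -/
def Unary (m n : ℕ) (κ : ℕ → ℝ) : Prop := ∀ (r : Fin m → ℕ) (c : Fin n → ℕ)
  (f : (Fin m → Fin n → ℕ) → ℝ), ∑ x ∈ Tb r c, f x = 0 → sq r c f ≤ κ (∑ i, r i) * UE r c f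

theorem EB_nonneg (r : Fin m → ℕ) (c : Fin n → ℕ) (i k : Fin m) (a b : Fin n)
    (f : (Fin m → Fin n → ℕ) → ℝ) : 0 ≤ EB r c i k a b f := sum_nonneg fun _ _ => sq_nonneg _

theorem En_nonneg (r : Fin m → ℕ) (c : Fin n → ℕ) (f : (Fin m → Fin n → ℕ) → ℝ) :
    0 ≤ En r c f := by
  unfold En
  refine sum_nonneg fun i _ => sum_nonneg fun k _ => sum_nonneg fun a _ => sum_nonneg fun b _ => ?_
  split_ifs
  · exact EB_nonneg r c i k a b f
  · exact le_refl _

theorem sq_nonneg' (r : Fin m → ℕ) (c : Fin n → ℕ) (f : (Fin m → Fin n → ℕ) → ℝ) :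
    0 ≤ sq r c f := sum_nonneg fun _ _ => sq_nonneg _

theorem EB_le_En (r : Fin m → ℕ) (c : Fin n → ℕ) {i k : Fin m} {a b : Fin n} (hik : i ≠ k)
    (hab : a ≠ b) (f : (Fin m → Fin n → ℕ) → ℝ) : EB r c i k a b f ≤ En r c f := by
  have hn : ∀ i k a b, 0 ≤ (if i ≠ k ∧ a ≠ b then EB r c i k a b f else 0) := by
    intro i k a b
    split_ifs
    · exact EB_nonneg r c i k a b f
    · exact le_refl _
  have h1 : EB r c i k a b f = if i ≠ k ∧ a ≠ b then EB r c i k a b f else 0 := by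
    rw [if_pos ⟨hik, hab⟩]
  rw [h1]
  unfold En
  have s4 := single_le_sum (f := fun b => if i ≠ k ∧ a ≠ b then EB r c i k a b f else 0)
    (fun b _ => hn i k a b) (mem_univ b)
  have s3 := single_le_sum
    (f := fun a => ∑ b : Fin n, if i ≠ k ∧ a ≠ b then EB r c i k a b f else 0)
    (fun a _ => sum_nonneg fun b _ => hn i k a b) (mem_univ a)
  have s2 := single_le_sum
    (f := fun k => ∑ a : Fin n, ∑ b : Fin n, if i ≠ k ∧ a ≠ b then EB r c i k a b f else 0)
    (fun k _ => sum_nonneg fun a _ => sum_nonneg fun b _ => hn i k a b) (mem_univ k)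
  have s1 := single_le_sum
    (f := fun i => ∑ k : Fin m, ∑ a : Fin n, ∑ b : Fin n,
      if i ≠ k ∧ a ≠ b then EB r c i k a b f else 0)
    (fun i _ => sum_nonneg fun k _ => sum_nonneg fun a _ => sum_nonneg fun b _ => hn i k a b)
    (mem_univ i)
  exact s4.trans (s3.trans (s2.trans s1))

/-- the variance is at most the second moment around any number -/
theorem sum_sub_mean_sq_le {α : Type} (S : Finset α) (f : α → ℝ) (t : ℝ) :
    ∑ x ∈ S, (f x - mean S f) ^ 2 ≤ ∑ x ∈ S, (f x - t) ^ 2 := by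
  rcases S.eq_empty_or_nonempty with rfl | h
  · simp
  have hc : (0 : ℝ) < S.card := by exact_mod_cast h.card_pos
  have e : ∑ x ∈ S, (f x - t) ^ 2 = ∑ x ∈ S, (f x - mean S f) ^ 2 + S.card * (mean S f - t) ^ 2 := by
    have e1 : ∑ x ∈ S, f x = S.card * mean S f := by unfold mean; field_simp
    have e2 : ∀ x ∈ S, (f x - t) ^ 2 = (f x - mean S f) ^ 2 + (2 * (mean S f - t) * f x +
        (t ^ 2 - mean S f ^ 2)) := by intro x _; ring
    rw [sum_congr rfl e2, sum_add_distrib, sum_add_distrib, ← mul_sum, e1, sum_const, nsmul_eq_mul]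
    ring
  rw [e]
  have : 0 ≤ (S.card : ℝ) * (mean S f - t) ^ 2 := by positivity
  linarith

/-- `|S| (mean)^2` plus the variance is the second moment -/
theorem sum_sq_eq {α : Type} (S : Finset α) (f : α → ℝ) :
    ∑ x ∈ S, f x ^ 2 = ∑ x ∈ S, (f x - mean S f) ^ 2 + S.card * mean S f ^ 2 := by
  rcases S.eq_empty_or_nonempty with rfl | h
  · simp
  have hc : (0 : ℝ) < S.card := by exact_mod_cast h.card_pos
  have e1 : ∑ x ∈ S, f x = S.card * mean S f := by unfold mean; field_simp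
  have e2 : ∀ x ∈ S, (f x) ^ 2 = (f x - mean S f) ^ 2 + (2 * mean S f * f x - mean S f ^ 2) := by
    intro x _; ring
  rw [sum_congr rfl e2, sum_add_distrib, sum_sub_distrib, ← mul_sum, e1, sum_const, nsmul_eq_mul]
  ring

/-- the set of tables with the same residues modulo `s` -/
def rs (r : Fin m → ℕ) (c : Fin n → ℕ) (s : ℕ) (x : Fin m → Fin n → ℕ) :
    Finset (Fin m → Fin n → ℕ) := (Tb r c).filter (fun y => ∀ i a, y i a % s = x i a % s)

/-- the set of tables with the same entry in the cell `(i, a)` -/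
def cs (r : Fin m → ℕ) (c : Fin n → ℕ) (i : Fin m) (a : Fin n) (x : Fin m → Fin n → ℕ) :
    Finset (Fin m → Fin n → ℕ) := (Tb r c).filter (fun y => y i a = x i a)

/-- conditional expectation given the entry in the cell `(i, a)` -/
noncomputable def gc (r : Fin m → ℕ) (c : Fin n → ℕ) (i : Fin m) (a : Fin n)
    (f : (Fin m → Fin n → ℕ) → ℝ) (x : Fin m → Fin n → ℕ) : ℝ := mean (cs r c i a x) f

/-- average of `φ` over the window `[s + s0, s + 2 s0)` -/
noncomputable def pb (s0 : ℕ) (φ : ℕ → ℝ) (s : ℕ) : ℝ := (∑ u ∈ Ico s0 (2 * s0), φ (s + u)) / s0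

/-- cutoff: `0` up to `3 s0`, `1` from `4 s0` on -/
noncomputable def chi (s0 t : ℕ) : ℝ := max 0 (min 1 (((t : ℝ) - 3 * s0) / s0))

/-- the smoothed and cut off function of a cell -/
noncomputable def Ph (s0 : ℕ) (i k : Fin m) (a b : Fin n) (φ : ℕ → ℝ)
    (x : Fin m → Fin n → ℕ) : ℝ := chi s0 (x i b) * chi s0 (x k a) * pb s0 φ (x i a)

end Vale.Agent.P328B
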