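import Vale.Agent.Lib.P328B.BoxInd
import Vale.Agent.Lib.P328B.Cyc
import Vale.Agent.Lib.P328B.Defs

/-!
P328, module BOX: box coupling. The uniform laws on two sets of contingency tables whose margins
differ by at most `2 M` in total can be compared at sup-distance `M`.
-/

namespace Vale.Agent.P328B

open Finset

variable {m n : ℕ}

/-- row sums and column sums of an integer matrix -/
def BOX_marg (m n : ℕ) : (Fin m → Fin n → ℤ) →+ (Fin m → ℤ) × (Fin n → ℤ) where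
  toFun y := (fun i => ∑ a, y i a, fun a => ∑ i, y i a)
  map_zero' := by
    simp only [Pi.zero_apply, sum_const_zero]
    rfl
  map_add' y z := by
    simp only [Pi.add_apply, sum_add_distrib]
    rfl

theorem BOX_marg_eq {y : Fin m → Fin n → ℤ} {r : Fin m → ℤ} {c : Fin n → ℤ} :
    BOX_marg m n y = (r, c) ↔ (∀ i, ∑ a, y i a = r i) ∧ ∀ a, ∑ i, y i a = c a := by
  unfold BOX_marg
  simp only [AddMonoidHom.coe_mk, ZeroHom.coe_mk, Prod.mk.injEq, funext_iff]

/-- tables as integer tables -/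
theorem BOX_sum_Tab (r : Fin m → ℕ) (c : Fin n → ℕ) (hi : Fin m → Fin n → ℤ)
    (hhi : ∀ i a, (c a : ℤ) ≤ hi i a) (g : (Fin m → Fin n → ℕ) → ℝ) :
    ∑ y ∈ BOX_Bx (BOX_marg m n) ((fun i => (r i : ℤ)), (fun a => (c a : ℤ))) 0 hi,
      g (fun i a => (y i a).toNat) = ∑ y ∈ Tb r c, g y := by
  symm
  refine sum_bij (fun y _ => fun i a => (y i a : ℤ)) ?_ ?_ ?_ ?_
  · intro y hy
    rw [mem_Tb] at hy
    rw [BOX_mem_Bx, BOX_marg_eq]
    refine ⟨⟨fun i a => by simp, fun i a => ?_⟩, fun i => ?_, fun a => ?_⟩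
    · refine le_trans ?_ (hhi i a)
      change (y i a : ℤ) ≤ (c a : ℤ)
      have : y i a ≤ c a := by
        rw [← hy.2 a]
        exact single_le_sum (f := fun i => y i a) (fun _ _ => Nat.zero_le _) (mem_univ i)
      exact_mod_cast this
    · exact_mod_cast hy.1 i
    · exact_mod_cast hy.2 a
  · intro y _ z _ h
    funext i a
    have := congrFun (congrFun h i) a
    exact_mod_cast this
  · intro z hz
    rw [BOX_mem_Bx, BOX_marg_eq] at hz
    obtain ⟨⟨h1, _⟩, h2, h3⟩ := hz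
    have e : ∀ i a, (((z i a).toNat : ℕ) : ℤ) = z i a := fun i a => Int.toNat_of_nonneg (h1 i a)
    refine ⟨fun i a => (z i a).toNat, ?_, ?_⟩
    · rw [mem_Tb]
      refine ⟨fun i => ?_, fun a => ?_⟩
      · have := h2 i
        have h4 : ∑ a, (((z i a).toNat : ℕ) : ℤ) = r i := by
          rw [← this]
          exact sum_congr rfl fun a _ => e i a
        exact_mod_cast h4
      · have := h3 a
        have h4 : ∑ i, (((z i a).toNat : ℕ) : ℤ) = c a := by
          rw [← this]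
          exact sum_congr rfl fun i _ => e i a
        exact_mod_cast h4
    · funext i a
      exact e i a
  · intro y _
    simp

theorem BOX_card_Tab_int (r : Fin m → ℕ) (c : Fin n → ℕ) (hi : Fin m → Fin n → ℤ)
    (hhi : ∀ i a, (c a : ℤ) ≤ hi i a) :
    ((BOX_Bx (BOX_marg m n) ((fun i => (r i : ℤ)), (fun a => (c a : ℤ))) 0 hi).card : ℝ) =
      ((Tb r c).card : ℝ) := by
  have h := BOX_sum_Tab r c hi hhi (fun _ => 1)
  simpa using h


/-- the nonnegative integer tables -/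
theorem BOX_toNat_mem {r : Fin m → ℕ} {c : Fin n → ℕ} {y : Fin m → Fin n → ℤ} (h0 : 0 ≤ y)
    (hm : BOX_marg m n y = ((fun i => (r i : ℤ)), (fun a => (c a : ℤ)))) :
    (fun i a => (y i a).toNat) ∈ Tb r c := by
  rw [BOX_marg_eq] at hm
  have e : ∀ i a, (((y i a).toNat : ℕ) : ℤ) = y i a := fun i a => Int.toNat_of_nonneg (h0 i a)
  rw [mem_Tb]
  refine ⟨fun i => ?_, fun a => ?_⟩
  · have h4 : ∑ a, (((y i a).toNat : ℕ) : ℤ) = r i := by
      rw [← hm.1 i]
      exact sum_congr rfl fun a _ => e i a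
    exact_mod_cast h4
  · have h4 : ∑ i, (((y i a).toNat : ℕ) : ℤ) = c a := by
      rw [← hm.2 a]
      exact sum_congr rfl fun i _ => e i a
    exact_mod_cast h4

/-- the unique points of a box are close -/
theorem BOX_base_close {R R' : Fin m → ℕ} {C C' : Fin n → ℕ} (M : ℕ)
    (hM : ∑ i, ((R i : ℤ) - R' i).natAbs + ∑ a, ((C a : ℤ) - C' a).natAbs ≤ 2 * M)
    {lo hi y y' : Fin m → Fin n → ℤ} (hlo : 0 ≤ lo)
    (hy : BOX_Bx (BOX_marg m n) ((fun i => (R i : ℤ)), (fun a => (C a : ℤ))) lo hi = {y})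
    (hy' : y' ∈ BOX_Bx (BOX_marg m n) ((fun i => (R' i : ℤ)), (fun a => (C' a : ℤ))) lo hi)
    (i : Fin m) (a : Fin n) :
    ((((y i a).toNat : ℕ) : ℤ) - ((y' i a).toNat : ℕ)).natAbs ≤ M := by
  have hyB : y ∈ BOX_Bx (BOX_marg m n) ((fun i => (R i : ℤ)), (fun a => (C a : ℤ))) lo hi := by
    rw [hy]
    exact mem_singleton_self _
  rw [BOX_mem_Bx] at hyB hy'
  by_contra hcon
  push Not at hcon
  have h0 : 0 ≤ y := hlo.trans hyB.1.1
  have h0' : 0 ≤ y' := hlo.trans hy'.1.1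
  obtain ⟨z, hz, hzy, hbd⟩ := box_cycle (BOX_toNat_mem h0 hyB.2) (BOX_toNat_mem h0' hy'.2) M hM hcon
  have hzB : (fun i a => (z i a : ℤ)) ∈
      BOX_Bx (BOX_marg m n) ((fun i => (R i : ℤ)), (fun a => (C a : ℤ))) lo hi := by
    rw [BOX_mem_Bx, BOX_marg_eq]
    rw [mem_Tb] at hz
    refine ⟨⟨?_, ?_⟩, ?_, ?_⟩
    · intro j b
      have g1 : lo j b ≤ y j b := hyB.1.1 j b
      have g2 : lo j b ≤ y' j b := hy'.1.1 j b
      have g3 := (hbd j b).1
      have g4 : 0 ≤ y j b := h0 j b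
      have g5 : 0 ≤ y' j b := h0' j b
      change lo j b ≤ (z j b : ℤ)
      omega
    · intro j b
      have g1 : y j b ≤ hi j b := hyB.1.2 j b
      have g2 : y' j b ≤ hi j b := hy'.1.2 j b
      have g3 := (hbd j b).2
      have g4 : 0 ≤ y j b := h0 j b
      have g5 : 0 ≤ y' j b := h0' j b
      change (z j b : ℤ) ≤ hi j b
      omega
    · intro j
      exact_mod_cast hz.1 j
    · intro b
      exact_mod_cast hz.2 b
  rw [hy, mem_singleton] at hzB
  apply hzy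
  funext j b
  have h5 := congrFun (congrFun hzB j) b
  rw [← h5]
  simp

/-- BOX -/
theorem box_mean {R R' : Fin m → ℕ} {C C' : Fin n → ℕ} (h : (Tb R C).Nonempty)
    (h' : (Tb R' C').Nonempty) (M : ℕ)
    (hM : ∑ i, ((R i : ℤ) - R' i).natAbs + ∑ a, ((C a : ℤ) - C' a).natAbs ≤ 2 * M)
    (ψ ψ' : (Fin m → Fin n → ℕ) → ℝ)
    (hψ : ∀ y ∈ Tb R C, ∀ y' ∈ Tb R' C', (∀ i a, ((y i a : ℤ) - y' i a).natAbs ≤ M) → ψ y ≤ ψ' y') :
    mean (Tb R C) ψ ≤ mean (Tb R' C') ψ' := by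
  have key := BOX_box_induction (BOX_marg m n) ((fun i => (R i : ℤ)), (fun a => (C a : ℤ)))
    ((fun i => (R' i : ℤ)), (fun a => (C' a : ℤ))) (fun y => ψ (fun i a => (y i a).toNat))
    (fun y => ψ' (fun i a => (y i a).toNat)) 0 ?_
    (Icc 0 (fun _ a => (C a : ℤ) + C' a)).card 0 (fun _ a => (C a : ℤ) + C' a) le_rfl le_rfl
  · rw [BOX_Dl_eq, BOX_sum_Tab R C _ (fun i a => by simp), BOX_sum_Tab R' C' _ (fun i a => by simp),
      BOX_card_Tab_int R C _ (fun i a => by simp), BOX_card_Tab_int R' C' _ (fun i a => by simp)] at key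
    have h1 : (0 : ℝ) < ((Tb R C).card : ℝ) := by exact_mod_cast card_pos.2 h
    have h2 : (0 : ℝ) < ((Tb R' C').card : ℝ) := by exact_mod_cast card_pos.2 h'
    unfold mean
    rw [div_le_div_iff₀ h1 h2]
    linarith
  · intro lo hi y y' hlo hy hy'
    have hyB : y ∈ BOX_Bx (BOX_marg m n) ((fun i => (R i : ℤ)), (fun a => (C a : ℤ))) lo hi := by
      rw [hy]
      exact mem_singleton_self _
    have hyB' : y' ∈ BOX_Bx (BOX_marg m n) ((fun i => (R' i : ℤ)), (fun a => (C' a : ℤ))) lo hi := by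
      rw [hy']
      exact mem_singleton_self _
    have g1 := BOX_mem_Bx.1 hyB
    have g2 := BOX_mem_Bx.1 hyB'
    exact hψ _ (BOX_toNat_mem (hlo.trans g1.1.1) g1.2) _ (BOX_toNat_mem (hlo.trans g2.1.1) g2.2)
      fun i a => BOX_base_close M hM hlo hy hyB' i a

end Vale.Agent.P328B
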