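import Mathlib

/-!
P328, module BOX: the box induction (two copies trick) for the uniform laws on two fibres of an
additive map inside a box of a lattice ordered group.
-/

namespace Vale.Agent.P328B

open Finset

section box

variable {G H : Type*} [AddCommGroup G] [Lattice G] [IsOrderedAddMonoid G] [LocallyFiniteOrder G]
  [AddCommGroup H] [DecidableEq G] [DecidableEq H]

/-- points of the box with value `α` -/
def BOX_Bx (f : G →+ H) (α : H) (lo hi : G) : Finset G := (Icc lo hi).filter (fun y => f y = α)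

omit [IsOrderedAddMonoid G] [DecidableEq G] in
theorem BOX_mem_Bx {f : G →+ H} {α : H} {lo hi y : G} :
    y ∈ BOX_Bx f α lo hi ↔ (lo ≤ y ∧ y ≤ hi) ∧ f y = α := by
  simp [BOX_Bx]

/-- the pairs with sum `s` -/
theorem BOX_pairs_sum (f : G →+ H) (α α' : H) (lo hi s : G) (hs : f s = α + α') (y : G) :
    (y ∈ BOX_Bx f α lo hi ∧ s - y ∈ BOX_Bx f α' lo hi) ↔
      y ∈ BOX_Bx f α (lo ⊔ (s - hi)) (hi ⊓ (s - lo)) := by
  rw [BOX_mem_Bx, BOX_mem_Bx, BOX_mem_Bx, map_sub, hs, sup_le_iff, le_inf_iff]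
  constructor
  · rintro ⟨⟨⟨h1, h2⟩, h3⟩, ⟨h4, h5⟩, _⟩
    refine ⟨⟨⟨h1, ?_⟩, h2, ?_⟩, h3⟩
    · rw [sub_le_comm]
      exact h5
    · rw [le_sub_comm]
      exact h4
  · rintro ⟨⟨⟨h1, h2⟩, h3, h4⟩, h5⟩
    refine ⟨⟨⟨h1, h3⟩, h5⟩, ⟨?_, ?_⟩, ?_⟩
    · rw [le_sub_comm]
      exact h4
    · rw [sub_le_comm]
      exact h2
    · rw [h5]
      abel

theorem BOX_pairs_sum' (f : G →+ H) (α α' : H) (lo hi s : G) (hs : f s = α + α') (y : G) :
    (s - y ∈ BOX_Bx f α lo hi ∧ y ∈ BOX_Bx f α' lo hi) ↔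
      y ∈ BOX_Bx f α' (lo ⊔ (s - hi)) (hi ⊓ (s - lo)) := by
  have h := BOX_pairs_sum f α' α lo hi s (by rw [hs, add_comm]) y
  rw [← h, and_comm]

/-- difference of the two means, cross-multiplied -/
def BOX_Dl (f : G →+ H) (α α' : H) (ψ ψ' : G → ℝ) (lo hi : G) : ℝ :=
  ∑ y ∈ BOX_Bx f α lo hi, ∑ y' ∈ BOX_Bx f α' lo hi, (ψ y - ψ' y')

omit [IsOrderedAddMonoid G] [DecidableEq G] in
theorem BOX_Dl_eq (f : G →+ H) (α α' : H) (ψ ψ' : G → ℝ) (lo hi : G) :
    BOX_Dl f α α' ψ ψ' lo hi = ((BOX_Bx f α' lo hi).card : ℝ) * ∑ y ∈ BOX_Bx f α lo hi, ψ y -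
      ((BOX_Bx f α lo hi).card : ℝ) * ∑ y' ∈ BOX_Bx f α' lo hi, ψ' y' := by
  unfold BOX_Dl
  simp only [sum_sub_distrib, sum_const, nsmul_eq_mul]
  rw [← mul_sum]

/-- the part of the double sum with `y + y' = s` -/
def BOX_Ds (f : G →+ H) (α : H) (ψ ψ' : G → ℝ) (lo hi s : G) : ℝ :=
  ∑ y ∈ BOX_Bx f α (lo ⊔ (s - hi)) (hi ⊓ (s - lo)), (ψ y - ψ' (s - y))

theorem BOX_card_refl (f : G →+ H) (α α' : H) (lo hi s : G) (hs : f s = α + α') :
    (BOX_Bx f α (lo ⊔ (s - hi)) (hi ⊓ (s - lo))).card =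
      (BOX_Bx f α' (lo ⊔ (s - hi)) (hi ⊓ (s - lo))).card := by
  refine card_bij (fun y _ => s - y) ?_ ?_ ?_
  · intro y hy
    rw [← BOX_pairs_sum' f α α' lo hi s hs, sub_sub_cancel]
    exact (BOX_pairs_sum f α α' lo hi s hs y).2 hy
  · intro y _ z _ h
    exact sub_right_injective h
  · intro y hy
    refine ⟨s - y, ?_, by rw [sub_sub_cancel]⟩
    rw [← BOX_pairs_sum f α α' lo hi s hs, sub_sub_cancel]
    exact (BOX_pairs_sum' f α α' lo hi s hs y).2 hy

theorem BOX_sum_refl (f : G →+ H) (α α' : H) (ψ' : G → ℝ) (lo hi s : G) (hs : f s = α + α') :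
    ∑ y ∈ BOX_Bx f α (lo ⊔ (s - hi)) (hi ⊓ (s - lo)), ψ' (s - y) =
      ∑ y ∈ BOX_Bx f α' (lo ⊔ (s - hi)) (hi ⊓ (s - lo)), ψ' y := by
  refine sum_bij (fun y _ => s - y) ?_ ?_ ?_ ?_
  · intro y hy
    rw [← BOX_pairs_sum' f α α' lo hi s hs, sub_sub_cancel]
    exact (BOX_pairs_sum f α α' lo hi s hs y).2 hy
  · intro y _ z _ h
    exact sub_right_injective h
  · intro y hy
    refine ⟨s - y, ?_, by rw [sub_sub_cancel]⟩
    rw [← BOX_pairs_sum f α α' lo hi s hs, sub_sub_cancel]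
    exact (BOX_pairs_sum' f α α' lo hi s hs y).2 hy
  · intro y _
    rfl

/-- relation between the part with sum `s` and the smaller box -/
theorem BOX_Dl_small (f : G →+ H) (α α' : H) (ψ ψ' : G → ℝ) (lo hi s : G) (hs : f s = α + α') :
    BOX_Dl f α α' ψ ψ' (lo ⊔ (s - hi)) (hi ⊓ (s - lo)) =
      ((BOX_Bx f α (lo ⊔ (s - hi)) (hi ⊓ (s - lo))).card : ℝ) * BOX_Ds f α ψ ψ' lo hi s := by
  rw [BOX_Dl_eq, BOX_Ds, sum_sub_distrib, BOX_sum_refl f α α' ψ' lo hi s hs, ← BOX_card_refl f α α' lo hi s hs]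
  ring

/-- splitting of the double sum -/
theorem BOX_Dl_split (f : G →+ H) (α α' : H) (ψ ψ' : G → ℝ) (lo hi : G) :
    BOX_Dl f α α' ψ ψ' lo hi =
      ∑ s ∈ (BOX_Bx f α lo hi ×ˢ BOX_Bx f α' lo hi).image (fun p => p.1 + p.2),
        BOX_Ds f α ψ ψ' lo hi s := by
  unfold BOX_Dl
  rw [← sum_product', ← sum_fiberwise_of_maps_to
    (g := fun p : G × G => p.1 + p.2) (t := (BOX_Bx f α lo hi ×ˢ BOX_Bx f α' lo hi).image
      (fun p => p.1 + p.2)) (fun p hp => mem_image_of_mem _ hp)]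
  refine sum_congr rfl fun s hs => ?_
  obtain ⟨p, hp, rfl⟩ := mem_image.1 hs
  rw [mem_product, BOX_mem_Bx, BOX_mem_Bx] at hp
  have hfs : f (p.1 + p.2) = α + α' := by rw [map_add, hp.1.2, hp.2.2]
  unfold BOX_Ds
  refine sum_bij (fun q _ => q.1) ?_ ?_ ?_ ?_
  · intro q hq
    rw [mem_filter, mem_product] at hq
    rw [← BOX_pairs_sum f α α' lo hi _ hfs, ← hq.2, add_sub_cancel_left]
    exact hq.1
  · intro q hq q' hq' h
    rw [mem_filter] at hq hq'
    have h2 : q.1 + q.2 = q'.1 + q'.2 := by rw [hq.2, hq'.2]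
    rw [h] at h2
    exact Prod.ext h (add_left_cancel h2)
  · intro y hy
    rw [← BOX_pairs_sum f α α' lo hi _ hfs] at hy
    refine ⟨(y, p.1 + p.2 - y), ?_, rfl⟩
    rw [mem_filter, mem_product]
    refine ⟨hy, ?_⟩
    simp
  · intro q hq
    rw [mem_filter] at hq
    rw [← hq.2, add_sub_cancel_left]

/-- the box induction -/
theorem BOX_box_induction (f : G →+ H) (α α' : H) (ψ ψ' : G → ℝ) (lo0 : G)
    (base : ∀ lo hi y y', lo0 ≤ lo → BOX_Bx f α lo hi = {y} → BOX_Bx f α' lo hi = {y'} → ψ y ≤ ψ' y')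
    (k : ℕ) :
    ∀ lo hi, lo0 ≤ lo → (Icc lo hi).card ≤ k → BOX_Dl f α α' ψ ψ' lo hi ≤ 0 := by
  induction k with
  | zero =>
    intro lo hi _ hk
    have h1 : Icc lo hi = ∅ := card_eq_zero.1 (by omega)
    simp [BOX_Dl, BOX_Bx, h1]
  | succ k ih =>
    intro lo hi hlo0 hk
    by_cases hle : lo ≤ hi
    swap
    · have h1 : Icc lo hi = ∅ := Icc_eq_empty hle
      simp [BOX_Dl, BOX_Bx, h1]
    -- all parts other than s = lo + hi are nonpositive
    have hpart : ∀ s ∈ (BOX_Bx f α lo hi ×ˢ BOX_Bx f α' lo hi).image (fun p => p.1 + p.2),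
        s ≠ lo + hi → BOX_Ds f α ψ ψ' lo hi s ≤ 0 := by
      intro s hs hne
      obtain ⟨p, hp, hps⟩ := mem_image.1 hs
      rw [mem_product] at hp
      have hfs : f s = α + α' := by
        rw [← hps, map_add, (BOX_mem_Bx.1 hp.1).2, (BOX_mem_Bx.1 hp.2).2]
      have hsub : Icc (lo ⊔ (s - hi)) (hi ⊓ (s - lo)) ⊆ Icc lo hi := by
        intro y hy
        rw [mem_Icc] at hy ⊢
        exact ⟨le_sup_left.trans hy.1, hy.2.trans inf_le_left⟩
      have hss : Icc (lo ⊔ (s - hi)) (hi ⊓ (s - lo)) ≠ Icc lo hi := by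
        intro heq
        have h1 : lo ∈ Icc (lo ⊔ (s - hi)) (hi ⊓ (s - lo)) := by
          rw [heq]
          exact left_mem_Icc.2 hle
        have h2 : hi ∈ Icc (lo ⊔ (s - hi)) (hi ⊓ (s - lo)) := by
          rw [heq]
          exact right_mem_Icc.2 hle
        rw [mem_Icc, sup_le_iff, le_inf_iff] at h1 h2
        apply hne
        refine le_antisymm ?_ ?_
        · exact sub_le_iff_le_add.1 h1.1.2
        · have h3 := h2.2.2
          rw [le_sub_iff_add_le] at h3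
          rw [add_comm]
          exact h3
      have hcard := card_lt_card (hsub.ssubset_of_ne hss)
      have h4 := ih (lo ⊔ (s - hi)) (hi ⊓ (s - lo)) (hlo0.trans le_sup_left) (by omega)
      rw [BOX_Dl_small f α α' ψ ψ' lo hi s hfs] at h4
      have h5 : p.1 ∈ BOX_Bx f α (lo ⊔ (s - hi)) (hi ⊓ (s - lo)) := by
        rw [← BOX_pairs_sum f α α' lo hi s hfs, ← hps, add_sub_cancel_left]
        exact hp
      have h6 : (0 : ℝ) < ((BOX_Bx f α (lo ⊔ (s - hi)) (hi ⊓ (s - lo))).card : ℝ) := by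
        exact_mod_cast card_pos.2 ⟨_, h5⟩
      exact nonpos_of_mul_nonpos_right h4 h6
    by_cases hmem : lo + hi ∈ (BOX_Bx f α lo hi ×ˢ BOX_Bx f α' lo hi).image (fun p => p.1 + p.2)
    · -- the part s = lo + hi is the whole box again
      have hself1 : lo ⊔ (lo + hi - hi) = lo := by simp
      have hself2 : hi ⊓ (lo + hi - lo) = hi := by simp
      obtain ⟨p, hp, hps⟩ := mem_image.1 hmem
      rw [mem_product] at hp
      have hfs : f (lo + hi) = α + α' := by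
        rw [← hps, map_add, (BOX_mem_Bx.1 hp.1).2, (BOX_mem_Bx.1 hp.2).2]
      have hc := BOX_card_refl f α α' lo hi (lo + hi) hfs
      have hd := BOX_Dl_small f α α' ψ ψ' lo hi (lo + hi) hfs
      rw [hself1, hself2] at hc hd
      have hsplit := BOX_Dl_split f α α' ψ ψ' lo hi
      rw [← add_sum_erase _ _ hmem] at hsplit
      have hrest : ∑ s ∈ ((BOX_Bx f α lo hi ×ˢ BOX_Bx f α' lo hi).image (fun p => p.1 + p.2)).erase
          (lo + hi), BOX_Ds f α ψ ψ' lo hi s ≤ 0 := by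
        refine sum_nonpos fun s hs => ?_
        exact hpart s (mem_of_mem_erase hs) (ne_of_mem_erase hs)
      have hpos : 0 < (BOX_Bx f α lo hi).card := card_pos.2 ⟨_, hp.1⟩
      rcases Nat.lt_or_ge 1 (BOX_Bx f α lo hi).card with h2 | h2
      · have h3 : (2 : ℝ) ≤ ((BOX_Bx f α lo hi).card : ℝ) := by exact_mod_cast h2
        set N := ((BOX_Bx f α lo hi).card : ℝ)
        set D := BOX_Dl f α α' ψ ψ' lo hi
        set d := BOX_Ds f α ψ ψ' lo hi (lo + hi)
        by_contra hcon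
        push Not at hcon
        have h4 : 0 < d := by
          by_contra hd0
          push Not at hd0
          nlinarith
        nlinarith
      · have h3 : (BOX_Bx f α lo hi).card = 1 := by omega
        obtain ⟨y, hy⟩ := card_eq_one.1 h3
        obtain ⟨y', hy'⟩ := card_eq_one.1 (hc ▸ h3)
        have h4 := base lo hi y y' hlo0 hy hy'
        unfold BOX_Dl
        rw [hy, hy', sum_singleton, sum_singleton]
        linarith
    · rw [BOX_Dl_split f α α' ψ ψ' lo hi]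
      refine sum_nonpos fun s hs => ?_
      refine hpart s hs ?_
      rintro rfl
      exact hmem hs

end box

end Vale.Agent.P328B
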