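import Vale.Agent.Lib.P328B.Cm
import Vale.Agent.Lib.P328.HBDefs
import Vale.Agent.Lib.P328.M9D

/-!
P328: the Dirichlet form of the heat-bath chain, and the step from the energy `En` to that form.
-/

namespace Vale.Agent.P328B

open Finset

/-- the Dirichlet form of averaging over classes -/
theorem cm_dirichlet {α : Type} {S : Finset α} {R : α → α → Prop} [DecidableRel R]
    (hR : Equivalence R) (f : α → ℝ) :
    ∑ x ∈ S, ∑ y ∈ S, (if R x y then 1 / ((S.filter fun z => R x z).card : ℝ) else 0) *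
      (f x - f y) ^ 2 / 2 = ∑ x ∈ S, (f x - cm S R f x) ^ 2 := by
  have h1 : ∀ x ∈ S, ∑ y ∈ S, (if R x y then 1 / ((S.filter fun z => R x z).card : ℝ) else 0) *
      (f x - f y) ^ 2 / 2 = f x ^ 2 / 2 - f x * cm S R f x + cm S R (fun y => f y ^ 2) x / 2 := by
    intro x hx
    have hc : (0 : ℝ) < (S.filter fun z => R x z).card := by
      exact_mod_cast (class_nonempty hR hx).card_pos
    have e : ∀ y ∈ S, (if R x y then 1 / ((S.filter fun z => R x z).card : ℝ) else 0) *
        (f x - f y) ^ 2 / 2 = if R x y then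
          1 / ((S.filter fun z => R x z).card : ℝ) * (f x - f y) ^ 2 / 2 else 0 := by
      intro y _
      split_ifs <;> simp
    rw [sum_congr rfl e, ← sum_filter]
    unfold cm mean
    have e2 : ∀ y ∈ S.filter (fun z => R x z),
        1 / ((S.filter fun z => R x z).card : ℝ) * (f x - f y) ^ 2 / 2 =
        (f x ^ 2 / 2 / ((S.filter fun z => R x z).card : ℝ) -
          f x / ((S.filter fun z => R x z).card : ℝ) * f y) +
          1 / (2 * ((S.filter fun z => R x z).card : ℝ)) * f y ^ 2 := by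
      intro y _
      field_simp
      ring
    rw [sum_congr rfl e2, sum_add_distrib, sum_sub_distrib, sum_const, nsmul_eq_mul, ← mul_sum,
      ← mul_sum]
    field_simp
  rw [sum_congr rfl h1, sum_add_distrib, sum_sub_distrib, ← sum_div, ← sum_div, sum_cm hR]
  have h2 := cm_pyth (S := S) hR f
  have h3 := cm_mul_cm (S := S) hR f f
  have h4 : ∑ x ∈ S, cm S R f x ^ 2 = ∑ x ∈ S, cm S R f x * cm S R f x :=
    sum_congr rfl fun _ _ => by ring
  have h5 : ∑ x ∈ S, f x * cm S R f x = ∑ x ∈ S, cm S R f x * f x :=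
    sum_congr rfl fun _ _ => mul_comm _ _
  linarith

variable {m n : ℕ} {r : Fin m → ℕ} {c : Fin n → ℕ}

theorem agreeOff_equiv (i k : Fin m) (a b : Fin n) :
    Equivalence (P328.agreeOff (r := r) (c := c) i k a b) where
  refl := fun _ _ _ _ => rfl
  symm := fun h p q hpq => (h p q hpq).symm
  trans := fun h h' p q hpq => (h p q hpq).trans (h' p q hpq)

theorem Tb_eq_TabF (r : Fin m → ℕ) (c : Fin n → ℕ) : Tb r c = P328.TabF r c := rfl

theorem sum_Tb (F : (Fin m → Fin n → ℕ) → ℝ) :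
    ∑ T ∈ Tb r c, F T = ∑ X : P328.Tab r c, F X.1 := P328.M9_sum_sub F

open Classical in
theorem mean_agree (i k : Fin m) (a b : Fin n) (f : P328.Tab r c → ℝ) (X : P328.Tab r c) :
    mean (univ.filter fun Z : P328.Tab r c => P328.agreeOff i k a b X Z) f =
      lm r c i k a b (P328.M9_ext f) X.1 := by
  unfold lm mean ln
  have h1 : ∑ y ∈ univ.filter (fun Z : P328.Tab r c => P328.agreeOff i k a b X Z), f y =
      ∑ y ∈ (Tb r c).filter (fun y => Off i k a b X.1 y), P328.M9_ext f y := by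
    rw [sum_filter, sum_filter, sum_Tb]
    refine sum_congr rfl fun Z _ => ?_
    rw [P328.M9_ext_val]
    by_cases h : Off i k a b X.1 Z.1
    · rw [if_pos h, if_pos (show P328.agreeOff i k a b X Z from h)]
    · rw [if_neg h, if_neg (show ¬ P328.agreeOff i k a b X Z from h)]
  have h2 : ((univ.filter fun Z : P328.Tab r c => P328.agreeOff i k a b X Z).card : ℝ) =
      (((Tb r c).filter (fun y => Off i k a b X.1 y)).card : ℝ) := by
    rw [card_filter, card_filter, Nat.cast_sum, Nat.cast_sum, sum_Tb]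
    refine sum_congr rfl fun Z _ => ?_
    by_cases h : Off i k a b X.1 Z.1
    · rw [if_pos h, if_pos (show P328.agreeOff i k a b X Z from h)]
    · rw [if_neg h, if_neg (show ¬ P328.agreeOff i k a b X Z from h)]
  rw [h1, h2]

open Classical in
/-- the Dirichlet form of one block -/
theorem block_dirichlet (i k : Fin m) (a b : Fin n) (f : P328.Tab r c → ℝ) :
    ∑ X : P328.Tab r c, ∑ Y : P328.Tab r c, (if P328.agreeOff i k a b X Y then
      1 / ((univ.filter fun Z : P328.Tab r c => P328.agreeOff i k a b X Z).card : ℝ) else 0) *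
      (f X - f Y) ^ 2 / 2 = EB r c i k a b (P328.M9_ext f) := by
  rw [cm_dirichlet (agreeOff_equiv i k a b) f]
  unfold EB
  rw [sum_Tb]
  refine sum_congr rfl fun X _ => ?_
  rw [P328.M9_ext_val, ← mean_agree]
  rfl

/-- the Dirichlet form of the heat-bath chain -/
theorem HB_dirichlet (f : P328.Tab r c → ℝ) :
    ∑ X : P328.Tab r c, ∑ Y : P328.Tab r c, P328.HB r c X Y * (f X - f Y) ^ 2 / 2 =
      (∑ i : Fin m, ∑ k : Fin m, ∑ a : Fin n, ∑ b : Fin n, EB r c i k a b (P328.M9_ext f)) /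
        (2 * ((m : ℝ) ^ 2 * (n : ℝ) ^ 2)) := by
  classical
  have h1 : ∀ X Y : P328.Tab r c, P328.HB r c X Y * (f X - f Y) ^ 2 / 2 =
      (1 / 2) * (1 / ((m : ℝ) ^ 2 * (n : ℝ) ^ 2)) *
      ∑ i : Fin m, ∑ k : Fin m, ∑ a : Fin n, ∑ b : Fin n,
        (if P328.agreeOff i k a b X Y then
        1 / ((univ.filter fun Z : P328.Tab r c => P328.agreeOff i k a b X Z).card : ℝ) else 0) *
      (f X - f Y) ^ 2 / 2 := by
    intro X Y
    have e : ∑ i : Fin m, ∑ k : Fin m, ∑ a : Fin n, ∑ b : Fin n,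
        (if P328.agreeOff i k a b X Y then
        1 / ((univ.filter fun Z : P328.Tab r c => P328.agreeOff i k a b X Z).card : ℝ) else 0) *
      (f X - f Y) ^ 2 / 2 = (∑ i : Fin m, ∑ k : Fin m, ∑ a : Fin n, ∑ b : Fin n,
        (if P328.agreeOff i k a b X Y then
        1 / ((univ.filter fun Z : P328.Tab r c => P328.agreeOff i k a b X Z).card : ℝ) else 0)) *
      (f X - f Y) ^ 2 / 2 := by
      simp only [sum_mul, sum_div]
    rw [e]
    unfold P328.HB
    by_cases hXY : X = Y
    · subst hXY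
      simp
    · rw [if_neg hXY]
      ring
  simp only [h1]
  simp only [← mul_sum]
  have h2 : ∑ X : P328.Tab r c, ∑ Y : P328.Tab r c,
      ∑ i : Fin m, ∑ k : Fin m, ∑ a : Fin n, ∑ b : Fin n,
        (if P328.agreeOff i k a b X Y then
        1 / ((univ.filter fun Z : P328.Tab r c => P328.agreeOff i k a b X Z).card : ℝ) else 0) *
      (f X - f Y) ^ 2 / 2 =
      ∑ i : Fin m, ∑ k : Fin m, ∑ a : Fin n, ∑ b : Fin n, EB r c i k a b (P328.M9_ext f) := by
    have s1 : ∀ (G : P328.Tab r c → P328.Tab r c → Fin m → Fin m → Fin n → Fin n → ℝ),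
        ∑ X, ∑ Y, ∑ i, ∑ k, ∑ a, ∑ b, G X Y i k a b = ∑ i, ∑ k, ∑ a, ∑ b, ∑ X, ∑ Y,
          G X Y i k a b := by
      intro G
      have t1 : ∀ X, ∑ Y, ∑ i, ∑ k, ∑ a, ∑ b, G X Y i k a b =
          ∑ i, ∑ k, ∑ a, ∑ b, ∑ Y, G X Y i k a b := by
        intro X
        rw [sum_comm]
        refine sum_congr rfl fun i _ => ?_
        rw [sum_comm]
        refine sum_congr rfl fun k _ => ?_
        rw [sum_comm]
        refine sum_congr rfl fun a _ => ?_
        rw [sum_comm]
      simp only [t1]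
      rw [sum_comm]
      refine sum_congr rfl fun i _ => ?_
      rw [sum_comm]
      refine sum_congr rfl fun k _ => ?_
      rw [sum_comm]
      refine sum_congr rfl fun a _ => ?_
      rw [sum_comm]
    rw [s1]
    refine sum_congr rfl fun i _ => sum_congr rfl fun k _ => sum_congr rfl fun a _ =>
      sum_congr rfl fun b _ => ?_
    exact block_dirichlet i k a b f
  rw [h2]
  ring

theorem En_le_sum (f : (Fin m → Fin n → ℕ) → ℝ) :
    En r c f ≤ ∑ i : Fin m, ∑ k : Fin m, ∑ a : Fin n, ∑ b : Fin n, EB r c i k a b f := by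
  unfold En
  refine sum_le_sum fun i _ => sum_le_sum fun k _ => sum_le_sum fun a _ => sum_le_sum fun b _ => ?_
  split_ifs
  · exact le_refl _
  · exact EB_nonneg r c i k a b f

/-- from the Poincaré inequality for `En` to the one for the heat-bath chain -/
theorem bridge (hm : 0 < m) (hn : 0 < n) (K : ℝ) (hK : 0 ≤ K)
    (hb : ∀ g : (Fin m → Fin n → ℕ) → ℝ, ∑ x ∈ Tb r c, g x = 0 → sq r c g ≤ K * En r c g)
    (f : P328.Tab r c → ℝ) (hf : ∑ X, f X = 0) :
    ∑ X, f X ^ 2 ≤ (2 * K * ((m : ℝ) ^ 2 * (n : ℝ) ^ 2)) *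
      ∑ X : P328.Tab r c, ∑ Y : P328.Tab r c, P328.HB r c X Y * (f X - f Y) ^ 2 / 2 := by
  have h1 : (0 : ℝ) < m := by exact_mod_cast hm
  have h2 : (0 : ℝ) < n := by exact_mod_cast hn
  have e1 : ∑ x ∈ Tb r c, P328.M9_ext f x = 0 := by
    rw [sum_Tb, ← hf]
    exact sum_congr rfl fun X _ => P328.M9_ext_val f X
  have e2 : sq r c (P328.M9_ext f) = ∑ X, f X ^ 2 := by
    unfold sq
    rw [sum_Tb]
    exact sum_congr rfl fun X _ => by rw [P328.M9_ext_val]
  have h3 := hb _ e1
  rw [e2] at h3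
  rw [HB_dirichlet]
  refine (h3.trans (mul_le_mul_of_nonneg_left (En_le_sum _) hK)).trans (le_of_eq ?_)
  field_simp

end Vale.Agent.P328B
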