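import Vale.Agent.Lib.P328B.Defs

/-!
P328 BINARY, module C1: little mass near the walls.
-/

namespace Vale.Agent.P328B

open Finset

variable {m n : ℕ}

theorem C1_Et_row (t : ℕ) (p : Fin m) (q : Fin n) (i : Fin m) :
    ∑ a, Et t p q i a = if i = p then t else 0 := by
  unfold Et
  by_cases h : i = p
  · simp [h]
  · simp [h]

theorem C1_Et_col (t : ℕ) (p : Fin m) (q : Fin n) (a : Fin n) :
    ∑ i, Et t p q i a = if a = q then t else 0 := by
  unfold Et
  by_cases h : a = q
  · simp [h]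
  · simp [h]

/-- pointwise balance of a switch -/
theorem C1_bal {i k : Fin m} {a b : Fin n} (hik : i ≠ k) (hab : a ≠ b) (t : ℕ)
    {x : Fin m → Fin n → ℕ} (h1 : t ≤ x i b) (h2 : t ≤ x k a) (i' : Fin m) (a' : Fin n) :
    Sw t i k a b x i' a' + Et t i b i' a' + Et t k a i' a' =
      x i' a' + Et t i a i' a' + Et t k b i' a' := by
  simp only [Sw, Pi.add_apply, Pi.sub_apply, Et]
  by_cases hi : i' = i
  · subst hi
    by_cases ha : a' = a
    · subst ha
      simp [hik, hab]
    · by_cases hb : a' = b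
      · subst hb
        simp [hik, ha]
        omega
      · simp [ha, hb]
  · by_cases hk : i' = k
    · subst hk
      by_cases ha : a' = a
      · subst ha
        simp [hi, hab]
        omega
      · by_cases hb : a' = b
        · subst hb
          simp [hi, ha]
        · simp [ha, hb]
    · simp [hi, hk]

theorem C1_Sw_mem {r : Fin m → ℕ} {c : Fin n → ℕ} {i k : Fin m} {a b : Fin n} (hik : i ≠ k)
    (hab : a ≠ b) (t : ℕ) {x : Fin m → Fin n → ℕ} (hx : x ∈ Tb r c) (h1 : t ≤ x i b)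
    (h2 : t ≤ x k a) : Sw t i k a b x ∈ Tb r c := by
  rw [mem_Tb]
  constructor
  · intro i'
    have h := Finset.sum_congr (s₁ := (univ : Finset (Fin n))) rfl
      (fun a' _ => C1_bal hik hab t h1 h2 i' a')
    simp only [sum_add_distrib, C1_Et_row] at h
    have h3 := row_sum hx i'
    omega
  · intro a'
    have h := Finset.sum_congr (s₁ := (univ : Finset (Fin m))) rfl
      (fun i' _ => C1_bal hik hab t h1 h2 i' a')
    simp only [sum_add_distrib, C1_Et_col] at h
    have h3 := col_sum hx a'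
    omega

theorem C1_Sw_off {i k : Fin m} {a b : Fin n} (t : ℕ) (x : Fin m → Fin n → ℕ) :
    Off i k a b x (Sw t i k a b x) := by
  intro p q h
  simp only [Sw, Pi.add_apply, Pi.sub_apply, Et]
  have e1 : ¬ (p = i ∧ q = a) := fun h' => h ⟨Or.inl h'.1, Or.inl h'.2⟩
  have e2 : ¬ (p = k ∧ q = b) := fun h' => h ⟨Or.inr h'.1, Or.inr h'.2⟩
  have e3 : ¬ (p = i ∧ q = b) := fun h' => h ⟨Or.inl h'.1, Or.inr h'.2⟩
  have e4 : ¬ (p = k ∧ q = a) := fun h' => h ⟨Or.inr h'.1, Or.inl h'.2⟩
  simp [e1, e2, e3, e4]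

theorem C1_Sw_ia {i k : Fin m} {a b : Fin n} (hik : i ≠ k) (hab : a ≠ b) (t : ℕ)
    (x : Fin m → Fin n → ℕ) : Sw t i k a b x i a = x i a + t := by
  simp [Sw, Et, hik, hab]

/-- the line of a table has at least `M + 1` points -/
theorem C1_card {r : Fin m → ℕ} {c : Fin n → ℕ} {i k : Fin m} {a b : Fin n} (hik : i ≠ k)
    (hab : a ≠ b) {x : Fin m → Fin n → ℕ} (hx : x ∈ Tb r c) {M : ℕ} (h1 : M ≤ x i b)
    (h2 : M ≤ x k a) : M + 1 ≤ (ln r c i k a b x).card := by
  have h : ((range (M + 1)).image (fun t => Sw t i k a b x)) ⊆ ln r c i k a b x := by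
    intro y hy
    rw [mem_image] at hy
    obtain ⟨t, ht, rfl⟩ := hy
    rw [mem_range] at ht
    unfold ln
    rw [mem_filter]
    exact ⟨C1_Sw_mem hik hab t hx (by omega) (by omega), C1_Sw_off t x⟩
  have h3 := card_le_card h
  rw [card_image_of_injective] at h3
  · simpa using h3
  · intro t t' ht
    have h4 := congrFun (congrFun ht i) a
    simp only [C1_Sw_ia hik hab] at h4
    omega

/-- a table on a line is determined by one entry -/
theorem C1_inj {r : Fin m → ℕ} {c : Fin n → ℕ} {i k : Fin m} {a b : Fin n} (hik : i ≠ k)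
    (hab : a ≠ b) {x y : Fin m → Fin n → ℕ} (hx : x ∈ Tb r c) (hy : y ∈ Tb r c)
    (ho : Off i k a b x y) (he : x i a = y i a) : x = y := by
  have hib : x i b = y i b := by
    have h1 := row_sum hx i
    have h2 := row_sum hy i
    rw [← add_sum_erase _ _ (mem_univ b)] at h1 h2
    have h3 : ∑ q ∈ univ.erase b, x i q = ∑ q ∈ univ.erase b, y i q := by
      refine sum_congr rfl fun q hq => ?_
      rw [mem_erase] at hq
      by_cases hqa : q = a
      · rw [hqa]; exact he
      · exact ho i q (fun h => by rcases h.2 with h | h; exacts [hqa h, hq.1 h])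
    omega
  have hka : x k a = y k a := by
    have h1 := col_sum hx a
    have h2 := col_sum hy a
    rw [← add_sum_erase _ _ (mem_univ k)] at h1 h2
    have h3 : ∑ p ∈ univ.erase k, x p a = ∑ p ∈ univ.erase k, y p a := by
      refine sum_congr rfl fun p hp => ?_
      rw [mem_erase] at hp
      by_cases hpi : p = i
      · rw [hpi]; exact he
      · exact ho p a (fun h => by rcases h.1 with h | h; exacts [hpi h, hp.1 h])
    omega
  have hkb : x k b = y k b := by
    have h1 := col_sum hx b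
    have h2 := col_sum hy b
    rw [← add_sum_erase _ _ (mem_univ k)] at h1 h2
    have h3 : ∑ p ∈ univ.erase k, x p b = ∑ p ∈ univ.erase k, y p b := by
      refine sum_congr rfl fun p hp => ?_
      rw [mem_erase] at hp
      by_cases hpi : p = i
      · rw [hpi]; exact hib
      · exact ho p b (fun h => by rcases h.1 with h | h; exacts [hpi h, hp.1 h])
    omega
  funext p q
  by_cases h : (p = i ∨ p = k) ∧ (q = a ∨ q = b)
  · rcases h with ⟨rfl | rfl, rfl | rfl⟩
    · exact he
    · exact hib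
    · exact hka
    · exact hkb
  · exact ho p q h

/-- Cauchy-Schwarz for the mean -/
theorem C1_mean_sq {α : Type} (S : Finset α) (f : α → ℝ) (hS : S.Nonempty) :
    mean S f ^ 2 ≤ (∑ y ∈ S, f y ^ 2) / (S.card : ℝ) := by
  have hc : (0 : ℝ) < S.card := by exact_mod_cast hS.card_pos
  unfold mean
  rw [div_pow, div_le_div_iff₀ (by positivity) hc]
  have h := sq_sum_le_card_mul_sum_sq (s := S) (f := f)
  nlinarith

theorem C1_pair {r : Fin m → ℕ} {c : Fin n → ℕ} (p k : Fin m) (q b : Fin n) (hpk : p ≠ k)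
    (hqb : q ≠ b) (ρ u : ℕ) (hρ : 0 < ρ) (f : (Fin m → Fin n → ℕ) → ℝ) :
    ∑ x ∈ Tb r c, (if x p q < u ∧ ρ ≤ 2 * n * x p b ∧ ρ ≤ 2 * m * x k q then f x ^ 2 else 0) ≤
      2 * EB r c p k q b f + 4 * (m : ℝ) * n * (u / ρ) * sq r c f := by
  have hm : 0 < m := p.pos
  have hn : 0 < n := q.pos
  have hρ' : (0 : ℝ) < ρ := by exact_mod_cast hρ
  -- pointwise bound
  have h1 : ∀ x ∈ Tb r c,
      (if x p q < u ∧ ρ ≤ 2 * n * x p b ∧ ρ ≤ 2 * m * x k q then f x ^ 2 else 0) ≤
      2 * (f x - lm r c p k q b f x) ^ 2 +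
        2 * (2 * m * n / ρ) * ∑ y ∈ Tb r c, (if Off p k q b x y ∧ x p q < u then f y ^ 2 else 0) := by
    intro x hx
    have hS0 : 0 ≤ ∑ y ∈ Tb r c, (if Off p k q b x y ∧ x p q < u then f y ^ 2 else 0) := by
      refine sum_nonneg fun y _ => ?_
      split_ifs
      · positivity
      · exact le_refl _
    split_ifs with h
    · obtain ⟨hu, hb, hk⟩ := h
      have hM := C1_card (r := r) (c := c) hpk hqb hx (M := min (x p b) (x k q)) (min_le_left _ _)
        (min_le_right _ _)
      have hcard : (ρ : ℝ) ≤ 2 * m * n * ((ln r c p k q b x).card : ℝ) := by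
        have : ρ ≤ 2 * m * n * (ln r c p k q b x).card := by
          rcases le_total (x p b) (x k q) with hh | hh
          · rw [min_eq_left hh] at hM
            calc ρ ≤ 2 * n * x p b := hb
              _ ≤ 2 * n * (ln r c p k q b x).card := by gcongr; omega
              _ = 2 * 1 * n * (ln r c p k q b x).card := by ring
              _ ≤ 2 * m * n * (ln r c p k q b x).card := by gcongr; omega
          · rw [min_eq_right hh] at hM
            calc ρ ≤ 2 * m * x k q := hk
              _ ≤ 2 * m * (ln r c p k q b x).card := by gcongr; omega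
              _ = 2 * m * 1 * (ln r c p k q b x).card := by ring
              _ ≤ 2 * m * n * (ln r c p k q b x).card := by gcongr; omega
        exact_mod_cast this
      have hne : (ln r c p k q b x).Nonempty := by
        rw [← card_pos]; omega
      have hcp : (0 : ℝ) < (ln r c p k q b x).card := by exact_mod_cast hne.card_pos
      have h2 := C1_mean_sq (ln r c p k q b x) f hne
      have h3 : ∑ y ∈ Tb r c, (if Off p k q b x y ∧ x p q < u then f y ^ 2 else 0) =
          ∑ y ∈ ln r c p k q b x, f y ^ 2 := by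
        unfold ln
        rw [sum_filter]
        refine sum_congr rfl fun y _ => ?_
        by_cases ho : Off p k q b x y
        · simp [ho, hu]
        · simp [ho]
      rw [h3]
      have h4 : (∑ y ∈ ln r c p k q b x, f y ^ 2) / ((ln r c p k q b x).card : ℝ) ≤
          (2 * m * n / ρ) * ∑ y ∈ ln r c p k q b x, f y ^ 2 := by
        have h5 : 0 ≤ ∑ y ∈ ln r c p k q b x, f y ^ 2 := sum_nonneg fun _ _ => sq_nonneg _
        rw [div_le_iff₀ hcp]
        have h6 : (1 : ℝ) ≤ (2 * m * n / ρ) * ((ln r c p k q b x).card : ℝ) := by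
          rw [div_mul_eq_mul_div, le_div_iff₀ hρ']
          linarith
        nlinarith
      have h7 : lm r c p k q b f x ^ 2 ≤ (2 * m * n / ρ) * ∑ y ∈ ln r c p k q b x, f y ^ 2 :=
        h2.trans h4
      nlinarith [sq_nonneg (f x - 2 * lm r c p k q b f x)]
    · have h8 : (0 : ℝ) ≤ 2 * (2 * m * n / ρ) := by positivity
      have h9 := mul_nonneg h8 hS0
      nlinarith [sq_nonneg (f x - lm r c p k q b f x)]
  refine (sum_le_sum h1).trans ?_
  rw [sum_add_distrib, ← mul_sum, ← mul_sum]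
  have h2 : ∑ x ∈ Tb r c, (f x - lm r c p k q b f x) ^ 2 = EB r c p k q b f := rfl
  rw [h2]
  have h3 : ∑ x ∈ Tb r c, ∑ y ∈ Tb r c, (if Off p k q b x y ∧ x p q < u then f y ^ 2 else 0) ≤
      u * sq r c f := by
    rw [sum_comm]
    unfold sq
    rw [mul_sum]
    refine sum_le_sum fun y _ => ?_
    rw [← sum_filter, sum_const, nsmul_eq_mul]
    have h4 : ((Tb r c).filter (fun x => Off p k q b x y ∧ x p q < u)).card ≤ u := by
      have h5 : ((Tb r c).filter (fun x => Off p k q b x y ∧ x p q < u)).card ≤ (range u).card := by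
        refine card_le_card_of_injOn (fun x => x p q) ?_ ?_
        · intro x hx
          have hx' := (mem_filter.mp (mem_coe.mp hx)).2.2
          simpa using hx'
        · intro x hx x' hx' he
          have h6 := mem_filter.mp (mem_coe.mp hx)
          have h7 := mem_filter.mp (mem_coe.mp hx')
          refine C1_inj hpk hqb h6.1 h7.1 ?_ he
          intro i a hia
          rw [h6.2.1 i a hia, h7.2.1 i a hia]
      simpa using h5
    have h6 : ((((Tb r c).filter (fun x => Off p k q b x y ∧ x p q < u)).card : ℕ) : ℝ) ≤ u := by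
      exact_mod_cast h4
    exact mul_le_mul_of_nonneg_right h6 (sq_nonneg _)
  have h4 : 2 * (2 * (m : ℝ) * n / ρ) *
      ∑ x ∈ Tb r c, ∑ y ∈ Tb r c, (if Off p k q b x y ∧ x p q < u then f y ^ 2 else 0) ≤
      2 * (2 * (m : ℝ) * n / ρ) * (u * sq r c f) :=
    mul_le_mul_of_nonneg_left h3 (by positivity)
  have h5 : 2 * (2 * (m : ℝ) * n / ρ) * (u * sq r c f) = 4 * (m : ℝ) * n * (u / ρ) * sq r c f := by
    ring
  linarith

theorem wall_mass {r : Fin m → ℕ} {c : Fin n → ℕ} (p : Fin m) (q : Fin n) (ρ u : ℕ) (hρ : 0 < ρ)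
    (hr : ρ ≤ r p) (hc : ρ ≤ c q) (hu : 2 * u ≤ ρ) (f : (Fin m → Fin n → ℕ) → ℝ) :
    ∑ x ∈ (Tb r c).filter (fun x => x p q < u), f x ^ 2 ≤
      2 * En r c f + 4 * (m : ℝ) ^ 2 * (n : ℝ) ^ 2 * (u / ρ) * sq r c f := by
  have hm : 0 < m := p.pos
  have hn : 0 < n := q.pos
  have hρ' : (0 : ℝ) < ρ := by exact_mod_cast hρ
  -- existence of a good block
  have hex : ∀ x ∈ Tb r c, x p q < u → ∃ k b, p ≠ k ∧ q ≠ b ∧ ρ ≤ 2 * n * x p b ∧
      ρ ≤ 2 * m * x k q := by
    intro x hx hxu
    have hb : ∃ b, q ≠ b ∧ ρ ≤ 2 * n * x p b := by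
      by_contra hcon
      push Not at hcon
      have h1 := row_sum hx p
      rw [← add_sum_erase _ _ (mem_univ q)] at h1
      have h2 : ∑ b ∈ univ.erase q, 2 * n * x p b ≤ ∑ b ∈ univ.erase q, ρ := by
        refine sum_le_sum fun b hb => ?_
        rw [mem_erase] at hb
        exact (hcon b (Ne.symm hb.1)).le
      rw [← mul_sum, sum_const, smul_eq_mul, card_erase_of_mem (mem_univ q), card_univ,
        Fintype.card_fin] at h2
      have h3 : (n - 1) * ρ ≤ n * ρ := Nat.mul_le_mul_right _ (by omega)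
      have h4 : n * (2 * ∑ b ∈ univ.erase q, x p b) ≤ n * ρ := by
        calc n * (2 * ∑ b ∈ univ.erase q, x p b) = 2 * n * ∑ b ∈ univ.erase q, x p b := by ring
          _ ≤ (n - 1) * ρ := h2
          _ ≤ n * ρ := h3
      have h5 := Nat.le_of_mul_le_mul_left h4 hn
      omega
    have hk : ∃ k, p ≠ k ∧ ρ ≤ 2 * m * x k q := by
      by_contra hcon
      push Not at hcon
      have h1 := col_sum hx q
      rw [← add_sum_erase _ _ (mem_univ p)] at h1
      have h2 : ∑ k ∈ univ.erase p, 2 * m * x k q ≤ ∑ k ∈ univ.erase p, ρ := by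
        refine sum_le_sum fun k hk => ?_
        rw [mem_erase] at hk
        exact (hcon k (Ne.symm hk.1)).le
      rw [← mul_sum, sum_const, smul_eq_mul, card_erase_of_mem (mem_univ p), card_univ,
        Fintype.card_fin] at h2
      have h3 : (m - 1) * ρ ≤ m * ρ := Nat.mul_le_mul_right _ (by omega)
      have h4 : m * (2 * ∑ k ∈ univ.erase p, x k q) ≤ m * ρ := by
        calc m * (2 * ∑ k ∈ univ.erase p, x k q) = 2 * m * ∑ k ∈ univ.erase p, x k q := by ring
          _ ≤ (m - 1) * ρ := h2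
          _ ≤ m * ρ := h3
      have h5 := Nat.le_of_mul_le_mul_left h4 hm
      omega
    obtain ⟨b, hb1, hb2⟩ := hb
    obtain ⟨k, hk1, hk2⟩ := hk
    exact ⟨k, b, hk1, hb1, hb2, hk2⟩
  -- pointwise
  have h1 : ∀ x ∈ Tb r c, (if x p q < u then f x ^ 2 else 0) ≤
      ∑ k : Fin m, ∑ b : Fin n, if p ≠ k ∧ q ≠ b then
        (if x p q < u ∧ ρ ≤ 2 * n * x p b ∧ ρ ≤ 2 * m * x k q then f x ^ 2 else 0) else 0 := by
    intro x hx
    have hnn : ∀ k b, 0 ≤ (if p ≠ k ∧ q ≠ b then
        (if x p q < u ∧ ρ ≤ 2 * n * x p b ∧ ρ ≤ 2 * m * x k q then f x ^ 2 else 0) else 0) := by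
      intro k b
      split_ifs
      · positivity
      · exact le_refl _
      · exact le_refl _
    by_cases hxu : x p q < u
    · obtain ⟨k, b, hk1, hb1, hb2, hk2⟩ := hex x hx hxu
      rw [if_pos hxu]
      have s2 := single_le_sum (f := fun b => if p ≠ k ∧ q ≠ b then
        (if x p q < u ∧ ρ ≤ 2 * n * x p b ∧ ρ ≤ 2 * m * x k q then f x ^ 2 else 0) else 0)
        (fun b _ => hnn k b) (mem_univ b)
      have s1 := single_le_sum (f := fun k => ∑ b : Fin n, if p ≠ k ∧ q ≠ b then
        (if x p q < u ∧ ρ ≤ 2 * n * x p b ∧ ρ ≤ 2 * m * x k q then f x ^ 2 else 0) else 0)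
        (fun k _ => sum_nonneg fun b _ => hnn k b) (mem_univ k)
      refine le_trans ?_ (s2.trans s1)
      rw [if_pos ⟨hk1, hb1⟩, if_pos ⟨hxu, hb2, hk2⟩]
    · rw [if_neg hxu]
      exact sum_nonneg fun k _ => sum_nonneg fun b _ => hnn k b
  rw [sum_filter]
  refine (sum_le_sum h1).trans ?_
  rw [sum_comm]
  have hsw : ∀ k : Fin m, ∑ x ∈ Tb r c, ∑ b : Fin n, (if p ≠ k ∧ q ≠ b then
        (if x p q < u ∧ ρ ≤ 2 * n * x p b ∧ ρ ≤ 2 * m * x k q then f x ^ 2 else 0) else 0) =
      ∑ b : Fin n, ∑ x ∈ Tb r c, (if p ≠ k ∧ q ≠ b then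
        (if x p q < u ∧ ρ ≤ 2 * n * x p b ∧ ρ ≤ 2 * m * x k q then f x ^ 2 else 0) else 0) :=
    fun k => sum_comm
  simp_rw [hsw]
  have hsq := sq_nonneg' r c f
  have h2 : ∀ k : Fin m, ∀ b : Fin n, ∑ x ∈ Tb r c, (if p ≠ k ∧ q ≠ b then
        (if x p q < u ∧ ρ ≤ 2 * n * x p b ∧ ρ ≤ 2 * m * x k q then f x ^ 2 else 0) else 0) ≤
      2 * (if p ≠ k ∧ q ≠ b then EB r c p k q b f else 0) +
        4 * (m : ℝ) * n * (u / ρ) * sq r c f := by
    intro k b
    by_cases h : p ≠ k ∧ q ≠ b
    · rw [sum_congr rfl (fun x _ => if_pos h), if_pos h]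
      exact C1_pair p k q b h.1 h.2 ρ u hρ f
    · rw [sum_congr rfl (fun x _ => if_neg h), if_neg h, sum_const_zero, mul_zero, zero_add]
      positivity
  refine (sum_le_sum fun k _ => sum_le_sum fun b _ => h2 k b).trans ?_
  simp only [sum_add_distrib, ← mul_sum, sum_const, card_univ, Fintype.card_fin, nsmul_eq_mul]
  have h3 : ∑ k : Fin m, ∑ b : Fin n, (if p ≠ k ∧ q ≠ b then EB r c p k q b f else 0) ≤
      En r c f := by
    have hn0 : ∀ i k a b, 0 ≤ (if i ≠ k ∧ a ≠ b then EB r c i k a b f else 0) := by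
      intro i k a b
      split_ifs
      · exact EB_nonneg r c i k a b f
      · exact le_refl _
    unfold En
    have s1 := single_le_sum
      (f := fun i => ∑ k : Fin m, ∑ a : Fin n, ∑ b : Fin n,
        if i ≠ k ∧ a ≠ b then EB r c i k a b f else 0)
      (fun i _ => sum_nonneg fun k _ => sum_nonneg fun a _ => sum_nonneg fun b _ => hn0 i k a b)
      (mem_univ p)
    refine le_trans (sum_le_sum fun k _ => ?_) s1
    exact single_le_sum
      (f := fun a => ∑ b : Fin n, if p ≠ k ∧ a ≠ b then EB r c p k a b f else 0)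
      (fun a _ => sum_nonneg fun b _ => hn0 p k a b) (mem_univ q)
  have h4 : (m : ℝ) * (n * (4 * (m : ℝ) * n * (u / ρ) * sq r c f)) =
      4 * (m : ℝ) ^ 2 * (n : ℝ) ^ 2 * (u / ρ) * sq r c f := by ring
  linarith

end Vale.Agent.P328B
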