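import Vale.Agent.Lib.P328B.Defs

/-!
P328B, module C2: translations of a table by `u` units along a 2x2 block.
-/

namespace Vale.Agent.P328B

open Finset

variable {m n : ℕ}

theorem C2_add {i k : Fin m} {a b : Fin n} (hik : i ≠ k) (hab : a ≠ b) (t : ℕ)
    {x : Fin m → Fin n → ℕ} (h1 : t ≤ x i b) (h2 : t ≤ x k a) (p : Fin m) (q : Fin n) :
    Sw t i k a b x p q + Et t i b p q + Et t k a p q = x p q + Et t i a p q + Et t k b p q := by
  unfold Sw Et
  simp only [Pi.add_apply, Pi.sub_apply]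
  by_cases hp : p = i
  · by_cases hq : q = a
    · subst hp; subst hq
      simp [hik, hab]
    · by_cases hq' : q = b
      · subst hp; subst hq'
        simp [hik, hq]
        omega
      · subst hp
        simp [hq, hq']
  · by_cases hp' : p = k
    · by_cases hq : q = a
      · subst hp'; subst hq
        simp [hp, hab]
        omega
      · by_cases hq' : q = b
        · subst hp'; subst hq'
          simp [hp, hq]
        · subst hp'
          simp [hq, hq']
    · simp [hp, hp']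

theorem C2_ia {i k : Fin m} {a b : Fin n} (hik : i ≠ k) (hab : a ≠ b) (t : ℕ)
    (x : Fin m → Fin n → ℕ) : Sw t i k a b x i a = x i a + t := by
  unfold Sw Et
  simp only [Pi.add_apply, Pi.sub_apply]
  simp [hik, hab]

theorem C2_kb {i k : Fin m} {a b : Fin n} (hik : i ≠ k) (hab : a ≠ b) (t : ℕ)
    (x : Fin m → Fin n → ℕ) : Sw t i k a b x k b = x k b + t := by
  unfold Sw Et
  simp only [Pi.add_apply, Pi.sub_apply]
  simp [hik.symm, hab.symm]

theorem C2_ib {i k : Fin m} {a b : Fin n} (hik : i ≠ k) (hab : a ≠ b) (t : ℕ)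
    (x : Fin m → Fin n → ℕ) : Sw t i k a b x i b = x i b - t := by
  unfold Sw Et
  simp only [Pi.add_apply, Pi.sub_apply]
  simp [hik, hab.symm]

theorem C2_ka {i k : Fin m} {a b : Fin n} (hik : i ≠ k) (hab : a ≠ b) (t : ℕ)
    (x : Fin m → Fin n → ℕ) : Sw t i k a b x k a = x k a - t := by
  unfold Sw Et
  simp only [Pi.add_apply, Pi.sub_apply]
  simp [hik.symm, hab]

theorem C2_off (i k : Fin m) (a b : Fin n) (t : ℕ) (x : Fin m → Fin n → ℕ) :
    Off i k a b x (Sw t i k a b x) := by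
  intro p q h
  unfold Sw Et
  simp only [Pi.add_apply, Pi.sub_apply]
  have h1 : ¬ (p = i ∧ q = a) := fun e => h ⟨Or.inl e.1, Or.inl e.2⟩
  have h2 : ¬ (p = i ∧ q = b) := fun e => h ⟨Or.inl e.1, Or.inr e.2⟩
  have h3 : ¬ (p = k ∧ q = a) := fun e => h ⟨Or.inr e.1, Or.inl e.2⟩
  have h4 : ¬ (p = k ∧ q = b) := fun e => h ⟨Or.inr e.1, Or.inr e.2⟩
  rw [if_neg h1, if_neg h2, if_neg h3, if_neg h4]
  rfl

theorem C2_sumrow (t : ℕ) (i : Fin m) (a : Fin n) (p : Fin m) :
    ∑ q : Fin n, Et t i a p q = if p = i then t else 0 := by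
  unfold Et
  by_cases hp : p = i
  · simp [hp]
  · simp [hp]

theorem C2_sumcol (t : ℕ) (i : Fin m) (a : Fin n) (q : Fin n) :
    ∑ p : Fin m, Et t i a p q = if q = a then t else 0 := by
  unfold Et
  by_cases hq : q = a
  · simp [hq]
  · simp [hq]

theorem C2_mem {r : Fin m → ℕ} {c : Fin n → ℕ} {i k : Fin m} {a b : Fin n} (hik : i ≠ k)
    (hab : a ≠ b) (t : ℕ) {x : Fin m → Fin n → ℕ} (hx : x ∈ Tb r c) (h1 : t ≤ x i b)
    (h2 : t ≤ x k a) : Sw t i k a b x ∈ Tb r c := by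
  rw [mem_Tb]
  constructor
  · intro p
    have h : ∑ q : Fin n, (Sw t i k a b x p q + Et t i b p q + Et t k a p q) =
        ∑ q : Fin n, (x p q + Et t i a p q + Et t k b p q) :=
      sum_congr rfl fun q _ => C2_add hik hab t h1 h2 p q
    simp only [sum_add_distrib, C2_sumrow] at h
    rw [row_sum hx p] at h
    omega
  · intro q
    have h : ∑ p : Fin m, (Sw t i k a b x p q + Et t i b p q + Et t k a p q) =
        ∑ p : Fin m, (x p q + Et t i a p q + Et t k b p q) :=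
      sum_congr rfl fun p _ => C2_add hik hab t h1 h2 p q
    simp only [sum_add_distrib, C2_sumcol] at h
    rw [col_sum hx q] at h
    omega

theorem C2_inv {i k : Fin m} {a b : Fin n} (hik : i ≠ k) (hab : a ≠ b) (t : ℕ)
    {x : Fin m → Fin n → ℕ} (h1 : t ≤ x i b) (h2 : t ≤ x k a) :
    Sw t i k b a (Sw t i k a b x) = x := by
  funext p q
  have e1 := C2_add hik hab t h1 h2 p q
  have h3 : t ≤ Sw t i k a b x i a := by rw [C2_ia hik hab]; omega
  have h4 : t ≤ Sw t i k a b x k b := by rw [C2_kb hik hab]; omega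
  have e2 := C2_add hik hab.symm t h3 h4 p q
  omega

theorem trans_bij {r : Fin m → ℕ} {c : Fin n → ℕ} {i k : Fin m} {a b : Fin n} (hik : i ≠ k)
    (hab : a ≠ b) (u : ℕ) (G : (Fin m → Fin n → ℕ) → ℝ) :
    ∑ x ∈ (Tb r c).filter (fun x => u ≤ x i b ∧ u ≤ x k a), G (Sw u i k a b x) =
      ∑ x ∈ (Tb r c).filter (fun x => u ≤ x i a ∧ u ≤ x k b), G x := by
  refine sum_bij' (fun x _ => Sw u i k a b x) (fun x _ => Sw u i k b a x) ?_ ?_ ?_ ?_ ?_
  · intro x hx
    rw [mem_filter] at hx ⊢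
    refine ⟨C2_mem hik hab u hx.1 hx.2.1 hx.2.2, ?_, ?_⟩
    · rw [C2_ia hik hab]; omega
    · rw [C2_kb hik hab]; omega
  · intro x hx
    rw [mem_filter] at hx ⊢
    refine ⟨C2_mem hik hab.symm u hx.1 hx.2.1 hx.2.2, ?_, ?_⟩
    · rw [C2_ia hik hab.symm]; omega
    · rw [C2_kb hik hab.symm]; omega
  · intro x hx
    rw [mem_filter] at hx
    exact C2_inv hik hab u hx.2.1 hx.2.2
  · intro x hx
    rw [mem_filter] at hx
    exact C2_inv hik hab.symm u hx.2.1 hx.2.2
  · intro x _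
    rfl

theorem C2_ln {r : Fin m → ℕ} {c : Fin n → ℕ} {i k : Fin m} {a b : Fin n}
    {x y : Fin m → Fin n → ℕ} (h : Off i k a b x y) :
    ln r c i k a b y = ln r c i k a b x := by
  unfold ln
  refine filter_congr fun z _ => ?_
  constructor
  · intro h' p q hpq
    rw [h p q hpq, h' p q hpq]
  · intro h' p q hpq
    rw [← h p q hpq, h' p q hpq]

theorem trans_energy {r : Fin m → ℕ} {c : Fin n → ℕ} {i k : Fin m} {a b : Fin n} (hik : i ≠ k)
    (hab : a ≠ b) (u : ℕ) (f : (Fin m → Fin n → ℕ) → ℝ) :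
    ∑ x ∈ (Tb r c).filter (fun x => u ≤ x i b ∧ u ≤ x k a), (f (Sw u i k a b x) - f x) ^ 2 ≤
      4 * EB r c i k a b f := by
  have hl : ∀ x, lm r c i k a b f (Sw u i k a b x) = lm r c i k a b f x := by
    intro x
    unfold lm
    rw [C2_ln (C2_off i k a b u x)]
  have h1 : ∑ x ∈ (Tb r c).filter (fun x => u ≤ x i b ∧ u ≤ x k a),
      (f (Sw u i k a b x) - f x) ^ 2 ≤
      ∑ x ∈ (Tb r c).filter (fun x => u ≤ x i b ∧ u ≤ x k a),
        (2 * (f (Sw u i k a b x) - lm r c i k a b f (Sw u i k a b x)) ^ 2 +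
          2 * (f x - lm r c i k a b f x) ^ 2) := by
    refine sum_le_sum fun x _ => ?_
    rw [hl x]
    nlinarith [sq_nonneg (f (Sw u i k a b x) - lm r c i k a b f x + (f x - lm r c i k a b f x))]
  have h2 := trans_bij (r := r) (c := c) hik hab u
    (fun x => 2 * (f x - lm r c i k a b f x) ^ 2)
  rw [sum_add_distrib, h2] at h1
  have hsub : ∀ (P : (Fin m → Fin n → ℕ) → Prop) [DecidablePred P],
      ∑ x ∈ (Tb r c).filter P, 2 * (f x - lm r c i k a b f x) ^ 2 ≤ 2 * EB r c i k a b f := by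
    intro P _
    unfold EB
    rw [mul_sum]
    exact sum_le_sum_of_subset_of_nonneg (filter_subset _ _) fun x _ _ => by positivity
  have h3 := hsub (fun x => u ≤ x i a ∧ u ≤ x k b)
  have h4 := hsub (fun x => u ≤ x i b ∧ u ≤ x k a)
  linarith

theorem trans_norm {r : Fin m → ℕ} {c : Fin n → ℕ} {i k : Fin m} {a b : Fin n} (hik : i ≠ k)
    (hab : a ≠ b) (u : ℕ) (φ : ℕ → ℝ) :
    ∑ x ∈ (Tb r c).filter (fun x => u ≤ x i b ∧ u ≤ x k a), φ (x i a + u) ^ 2 ≤
      ∑ x ∈ Tb r c, φ (x i a) ^ 2 := by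
  have h1 := trans_bij (r := r) (c := c) hik hab u (fun x => φ (x i a) ^ 2)
  simp only [C2_ia hik hab] at h1
  rw [h1]
  exact sum_le_sum_of_subset_of_nonneg (filter_subset _ _) fun x _ _ => sq_nonneg _

end Vale.Agent.P328B
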