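import Vale.Agent.Lib.P328B.C2

/-!
P328 binary, C3: the fine step.
-/

namespace Vale.Agent.P328B

open Finset

variable {m n : ℕ}

theorem c3_chi_nonneg (s0 t : ℕ) : 0 ≤ chi s0 t := by
  unfold chi; exact le_max_left _ _

theorem c3_chi_le_one (s0 t : ℕ) : chi s0 t ≤ 1 := by
  unfold chi; exact max_le zero_le_one (min_le_left _ _)

theorem c3_chi_zero (s0 t : ℕ) (hs0 : 1 ≤ s0) (h : t ≤ 3 * s0) : chi s0 t = 0 := by
  unfold chi
  have h1 : (0 : ℝ) < s0 := by exact_mod_cast hs0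
  have h2 : (t : ℝ) ≤ 3 * s0 := by exact_mod_cast h
  have h3 : ((t : ℝ) - 3 * s0) / s0 ≤ 0 := div_nonpos_of_nonpos_of_nonneg (by linarith) h1.le
  rw [max_eq_left]
  exact (min_le_right _ _).trans h3

theorem c3_chi_one (s0 t : ℕ) (hs0 : 1 ≤ s0) (h : 4 * s0 ≤ t) : chi s0 t = 1 := by
  unfold chi
  have h1 : (0 : ℝ) < s0 := by exact_mod_cast hs0
  have h2 : (4 : ℝ) * s0 ≤ t := by exact_mod_cast h
  have h3 : 1 ≤ ((t : ℝ) - 3 * s0) / s0 := by
    rw [le_div_iff₀ h1]; linarith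
  rw [min_eq_left h3]
  exact max_eq_right zero_le_one

/-- Cauchy-Schwarz over a finite set -/
theorem c3_cs {α : Type} (S : Finset α) (f g : α → ℝ) :
    ∑ x ∈ S, f x * g x ≤ Real.sqrt (∑ x ∈ S, f x ^ 2) * Real.sqrt (∑ x ∈ S, g x ^ 2) := by
  have h := Finset.sum_mul_sq_le_sq_mul_sq S f g
  rw [← Real.sqrt_mul (sum_nonneg fun _ _ => sq_nonneg _)]
  exact Real.le_sqrt_of_sq_le h

/-- the product cutoff -/
noncomputable def c3chi (s0 : ℕ) (i k : Fin m) (a b : Fin n) (x : Fin m → Fin n → ℕ) : ℝ :=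
  chi s0 (x i b) * chi s0 (x k a)

theorem c3chi_nonneg (s0 : ℕ) (i k : Fin m) (a b : Fin n) (x : Fin m → Fin n → ℕ) :
    0 ≤ c3chi s0 i k a b x := mul_nonneg (c3_chi_nonneg _ _) (c3_chi_nonneg _ _)

theorem c3chi_le_one (s0 : ℕ) (i k : Fin m) (a b : Fin n) (x : Fin m → Fin n → ℕ) :
    c3chi s0 i k a b x ≤ 1 := by
  unfold c3chi
  exact mul_le_one₀ (c3_chi_le_one _ _) (c3_chi_nonneg _ _) (c3_chi_le_one _ _)

theorem c3chi_zero (s0 : ℕ) (hs0 : 1 ≤ s0) (i k : Fin m) (a b : Fin n) (x : Fin m → Fin n → ℕ)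
    (u : ℕ) (hu : u < 2 * s0) (h : ¬ (u ≤ x i b ∧ u ≤ x k a)) : c3chi s0 i k a b x = 0 := by
  unfold c3chi
  rw [not_and_or] at h
  rcases h with h | h
  · rw [c3_chi_zero s0 (x i b) hs0 (by omega), zero_mul]
  · rw [c3_chi_zero s0 (x k a) hs0 (by omega), mul_zero]

theorem c3chi_one (s0 : ℕ) (hs0 : 1 ≤ s0) (i k : Fin m) (a b : Fin n) (x : Fin m → Fin n → ℕ)
    (h : ¬ (x i a < 4 * s0 ∨ x i b < 4 * s0 ∨ x k a < 4 * s0 ∨ x k b < 4 * s0)) :
    c3chi s0 i k a b x = 1 := by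
  unfold c3chi
  rw [c3_chi_one s0 (x i b) hs0 (by omega), c3_chi_one s0 (x k a) hs0 (by omega), mul_one]

/-- the estimate for one translation -/
theorem c3_one {r : Fin m → ℕ} {c : Fin n → ℕ} {i k : Fin m} {a b : Fin n} (hik : i ≠ k)
    (hab : a ≠ b) (s0 : ℕ) (hs0 : 1 ≤ s0) (u : ℕ) (hu : u < 2 * s0)
    (f : (Fin m → Fin n → ℕ) → ℝ) (φ : ℕ → ℝ) :
    ∑ x ∈ Tb r c, f x * φ (x i a) ≤ ∑ x ∈ Tb r c, f x * (c3chi s0 i k a b x * φ (x i a + u)) +
      Real.sqrt (∑ x ∈ Tb r c, φ (x i a) ^ 2) *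
      (2 * Real.sqrt (∑ x ∈ (Tb r c).filter
          (fun x => x i a < 4 * s0 ∨ x i b < 4 * s0 ∨ x k a < 4 * s0 ∨ x k b < 4 * s0), f x ^ 2) +
        2 * Real.sqrt (En r c f)) := by
  set P := Real.sqrt (∑ x ∈ Tb r c, φ (x i a) ^ 2) with hP
  set η := Real.sqrt (∑ x ∈ (Tb r c).filter
          (fun x => x i a < 4 * s0 ∨ x i b < 4 * s0 ∨ x k a < 4 * s0 ∨ x k b < 4 * s0), f x ^ 2)
    with hη
  have hP0 : 0 ≤ P := Real.sqrt_nonneg _
  have hη0 : 0 ≤ η := Real.sqrt_nonneg _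
  -- splitting
  have hsplit : ∑ x ∈ Tb r c, f x * φ (x i a) =
      ∑ x ∈ (Tb r c).filter (fun x => u ≤ x i a ∧ u ≤ x k b), f x * φ (x i a) +
      ∑ x ∈ (Tb r c).filter (fun x => ¬ (u ≤ x i a ∧ u ≤ x k b)), f x * φ (x i a) :=
    (sum_filter_add_sum_filter_not _ _ _).symm
  -- the value after translation
  have hval : ∀ x ∈ (Tb r c).filter (fun x => u ≤ x i b ∧ u ≤ x k a),
      f (Sw u i k a b x) * φ ((Sw u i k a b x) i a) = f (Sw u i k a b x) * φ (x i a + u) := by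
    intro x hx
    congr 2
    unfold Sw Et
    simp [hik, hab, Pi.add_apply, Pi.sub_apply]
  have hb := trans_bij (r := r) (c := c) hik hab u (fun x => f x * φ (x i a))
  have hmain : ∑ x ∈ (Tb r c).filter (fun x => u ≤ x i a ∧ u ≤ x k b), f x * φ (x i a) =
      ∑ x ∈ (Tb r c).filter (fun x => u ≤ x i b ∧ u ≤ x k a), f x * φ (x i a + u) +
      ∑ x ∈ (Tb r c).filter (fun x => u ≤ x i b ∧ u ≤ x k a),
        (f (Sw u i k a b x) - f x) * φ (x i a + u) := by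
    rw [← hb, ← sum_add_distrib]
    refine sum_congr rfl fun x hx => ?_
    have := hval x hx
    rw [this]; ring
  -- energy term
  have hE : ∑ x ∈ (Tb r c).filter (fun x => u ≤ x i b ∧ u ≤ x k a),
        (f (Sw u i k a b x) - f x) * φ (x i a + u) ≤ 2 * Real.sqrt (En r c f) * P := by
    refine (c3_cs _ _ _).trans ?_
    refine mul_le_mul ?_ ?_ (Real.sqrt_nonneg _) (by positivity)
    · have h1 := (trans_energy (r := r) (c := c) hik hab u f).trans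
        (mul_le_mul_of_nonneg_left (EB_le_En r c hik hab f) (by norm_num : (0 : ℝ) ≤ 4))
      refine (Real.sqrt_le_sqrt h1).trans ?_
      rw [Real.sqrt_mul (by norm_num)]
      have : Real.sqrt 4 = 2 := by
        rw [show (4 : ℝ) = 2 ^ 2 by norm_num]; exact Real.sqrt_sq (by norm_num)
      rw [this]
    · exact Real.sqrt_le_sqrt (trans_norm hik hab u φ)
  -- cutoff term
  have hC : ∑ x ∈ (Tb r c).filter (fun x => u ≤ x i b ∧ u ≤ x k a), f x * φ (x i a + u) ≤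
      ∑ x ∈ Tb r c, f x * (c3chi s0 i k a b x * φ (x i a + u)) + η * P := by
    have h1 : ∑ x ∈ Tb r c, f x * (c3chi s0 i k a b x * φ (x i a + u)) =
        ∑ x ∈ (Tb r c).filter (fun x => u ≤ x i b ∧ u ≤ x k a),
          f x * (c3chi s0 i k a b x * φ (x i a + u)) := by
      symm
      apply sum_filter_of_ne
      intro x _ hne
      by_contra hcon
      apply hne
      rw [c3chi_zero s0 hs0 i k a b x u hu hcon]; ring
    have h2 : ∑ x ∈ (Tb r c).filter (fun x => u ≤ x i b ∧ u ≤ x k a), f x * φ (x i a + u) =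
        ∑ x ∈ (Tb r c).filter (fun x => u ≤ x i b ∧ u ≤ x k a),
          f x * (c3chi s0 i k a b x * φ (x i a + u)) +
        ∑ x ∈ (Tb r c).filter (fun x => u ≤ x i b ∧ u ≤ x k a),
          (f x * (1 - c3chi s0 i k a b x)) * φ (x i a + u) := by
      rw [← sum_add_distrib]
      exact sum_congr rfl fun x _ => by ring
    rw [h1, h2]
    refine add_le_add le_rfl ?_
    refine (c3_cs _ _ _).trans ?_
    refine mul_le_mul ?_ (Real.sqrt_le_sqrt (trans_norm hik hab u φ)) (Real.sqrt_nonneg _) hη0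
    refine Real.sqrt_le_sqrt ?_
    rw [sum_filter, sum_filter]
    refine sum_le_sum fun x _ => ?_
    by_cases hbad : x i a < 4 * s0 ∨ x i b < 4 * s0 ∨ x k a < 4 * s0 ∨ x k b < 4 * s0
    · rw [if_pos hbad]
      split_ifs
      · have h3 := c3chi_nonneg s0 i k a b x
        have h4 := c3chi_le_one s0 i k a b x
        rw [mul_pow]
        have h5 : (1 - c3chi s0 i k a b x) ^ 2 ≤ 1 := by nlinarith
        nlinarith [sq_nonneg (f x)]
      · exact sq_nonneg _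
    · rw [if_neg hbad]
      rw [c3chi_one s0 hs0 i k a b x hbad]
      split_ifs
      · simp
      · exact le_rfl
  -- the rest
  have hR : ∑ x ∈ (Tb r c).filter (fun x => ¬ (u ≤ x i a ∧ u ≤ x k b)), f x * φ (x i a) ≤ η * P := by
    refine (c3_cs _ _ _).trans ?_
    refine mul_le_mul ?_ ?_ (Real.sqrt_nonneg _) hη0
    · refine Real.sqrt_le_sqrt ?_
      refine sum_le_sum_of_subset_of_nonneg ?_ fun _ _ _ => sq_nonneg _
      intro x hx
      rw [mem_filter] at hx ⊢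
      refine ⟨hx.1, ?_⟩
      have := hx.2
      rw [not_and_or] at this
      omega
    · refine Real.sqrt_le_sqrt ?_
      exact sum_le_sum_of_subset_of_nonneg (filter_subset _ _) fun _ _ _ => sq_nonneg _
  rw [hsplit, hmain]
  nlinarith [hE, hC, hR]

theorem fine_step {r : Fin m → ℕ} {c : Fin n → ℕ} {i k : Fin m} {a b : Fin n} (hik : i ≠ k)
    (hab : a ≠ b) (s0 : ℕ) (hs0 : 1 ≤ s0) (f : (Fin m → Fin n → ℕ) → ℝ) (φ : ℕ → ℝ) :
    ∑ x ∈ Tb r c, f x * φ (x i a) ≤ ∑ x ∈ Tb r c, f x * Ph s0 i k a b φ x +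
      Real.sqrt (∑ x ∈ Tb r c, φ (x i a) ^ 2) *
      (2 * Real.sqrt (∑ x ∈ (Tb r c).filter
          (fun x => x i a < 4 * s0 ∨ x i b < 4 * s0 ∨ x k a < 4 * s0 ∨ x k b < 4 * s0), f x ^ 2) +
        2 * Real.sqrt (En r c f)) := by
  set E := Real.sqrt (∑ x ∈ Tb r c, φ (x i a) ^ 2) *
      (2 * Real.sqrt (∑ x ∈ (Tb r c).filter
          (fun x => x i a < 4 * s0 ∨ x i b < 4 * s0 ∨ x k a < 4 * s0 ∨ x k b < 4 * s0), f x ^ 2) +
        2 * Real.sqrt (En r c f)) with hE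
  have hs : (0 : ℝ) < s0 := by exact_mod_cast hs0
  have hcard : ((Ico s0 (2 * s0)).card : ℝ) = s0 := by
    rw [Nat.card_Ico]; congr 1; omega
  have hsum : ∑ u ∈ Ico s0 (2 * s0), ∑ x ∈ Tb r c, f x * φ (x i a) ≤
      ∑ u ∈ Ico s0 (2 * s0), (∑ x ∈ Tb r c, f x * (c3chi s0 i k a b x * φ (x i a + u)) + E) := by
    refine sum_le_sum fun u hu => ?_
    rw [mem_Ico] at hu
    exact c3_one hik hab s0 hs0 u hu.2 f φ
  rw [sum_const, nsmul_eq_mul, hcard, sum_add_distrib, sum_const, nsmul_eq_mul, hcard] at hsum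
  have hswap : ∑ u ∈ Ico s0 (2 * s0), ∑ x ∈ Tb r c, f x * (c3chi s0 i k a b x * φ (x i a + u)) =
      s0 * ∑ x ∈ Tb r c, f x * Ph s0 i k a b φ x := by
    rw [sum_comm, mul_sum]
    refine sum_congr rfl fun x _ => ?_
    unfold Ph pb c3chi
    rw [← mul_sum, ← mul_sum]
    field_simp
  rw [hswap, ← mul_add] at hsum
  exact le_of_mul_le_mul_left hsum hs

theorem Ph_norm {r : Fin m → ℕ} {c : Fin n → ℕ} {i k : Fin m} {a b : Fin n} (hik : i ≠ k)
    (hab : a ≠ b) (s0 : ℕ) (hs0 : 1 ≤ s0) (φ : ℕ → ℝ) :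
    ∑ x ∈ Tb r c, Ph s0 i k a b φ x ^ 2 ≤ ∑ x ∈ Tb r c, φ (x i a) ^ 2 := by
  have hs : (0 : ℝ) < s0 := by exact_mod_cast hs0
  have hcard : ((Ico s0 (2 * s0)).card : ℝ) = s0 := by
    rw [Nat.card_Ico]; congr 1; omega
  have hpt : ∀ x, s0 * Ph s0 i k a b φ x ^ 2 ≤
      ∑ u ∈ Ico s0 (2 * s0), if u ≤ x i b ∧ u ≤ x k a then φ (x i a + u) ^ 2 else 0 := by
    intro x
    have hj : (∑ u ∈ Ico s0 (2 * s0), c3chi s0 i k a b x * φ (x i a + u)) ^ 2 ≤
        s0 * ∑ u ∈ Ico s0 (2 * s0), (c3chi s0 i k a b x * φ (x i a + u)) ^ 2 := by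
      have := sq_sum_le_card_mul_sum_sq (s := Ico s0 (2 * s0))
        (f := fun u => c3chi s0 i k a b x * φ (x i a + u))
      rwa [hcard] at this
    have hPh : Ph s0 i k a b φ x =
        (∑ u ∈ Ico s0 (2 * s0), c3chi s0 i k a b x * φ (x i a + u)) / s0 := by
      unfold Ph pb c3chi
      rw [← mul_sum]; ring
    have h1 : s0 * Ph s0 i k a b φ x ^ 2 ≤
        ∑ u ∈ Ico s0 (2 * s0), (c3chi s0 i k a b x * φ (x i a + u)) ^ 2 := by
      rw [hPh, div_pow]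
      rw [show (s0 : ℝ) * ((∑ u ∈ Ico s0 (2 * s0), c3chi s0 i k a b x * φ (x i a + u)) ^ 2 /
        (s0 : ℝ) ^ 2) = (∑ u ∈ Ico s0 (2 * s0), c3chi s0 i k a b x * φ (x i a + u)) ^ 2 / s0 by
          field_simp]
      rw [div_le_iff₀ hs]
      linarith
    refine h1.trans (sum_le_sum fun u hu => ?_)
    rw [mem_Ico] at hu
    split_ifs with h
    · have h3 := c3chi_nonneg s0 i k a b x
      have h4 := c3chi_le_one s0 i k a b x
      rw [mul_pow]
      have h5 : (c3chi s0 i k a b x) ^ 2 ≤ 1 := by nlinarith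
      nlinarith [sq_nonneg (φ (x i a + u))]
    · rw [c3chi_zero s0 hs0 i k a b x u hu.2 h]
      simp
  have h2 : s0 * ∑ x ∈ Tb r c, Ph s0 i k a b φ x ^ 2 ≤ s0 * ∑ x ∈ Tb r c, φ (x i a) ^ 2 := by
    rw [mul_sum]
    refine (sum_le_sum fun x _ => hpt x).trans ?_
    rw [sum_comm]
    calc ∑ u ∈ Ico s0 (2 * s0), ∑ x ∈ Tb r c,
          (if u ≤ x i b ∧ u ≤ x k a then φ (x i a + u) ^ 2 else 0)
        ≤ ∑ u ∈ Ico s0 (2 * s0), ∑ x ∈ Tb r c, φ (x i a) ^ 2 := by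
          refine sum_le_sum fun u _ => ?_
          rw [← sum_filter]
          exact trans_norm hik hab u φ
      _ = s0 * ∑ x ∈ Tb r c, φ (x i a) ^ 2 := by
          rw [sum_const, nsmul_eq_mul, hcard]
  exact le_of_mul_le_mul_left h2 hs

end Vale.Agent.P328B
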