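import Vale.Agent.Lib.P328B.Defs
import Vale.Agent.Lib.P328B.C2

/-!
P328 BINARY, module C4: the unary theorem on the residue classes modulo `s`.
-/

namespace Vale.Agent.P328B

open Finset

variable {m n : ℕ}

theorem residue_bij {r : Fin m → ℕ} {c : Fin n → ℕ} (s : ℕ) (hs : 1 ≤ s) {x : Fin m → Fin n → ℕ}
    (hx : x ∈ Tb r c) (G : (Fin m → Fin n → ℕ) → ℝ) :
    ∑ x' ∈ rs r c s x, G x' =
      ∑ y ∈ Tb (fun i => (∑ a, x i a / s)) (fun a => (∑ i, x i a / s)),
        G (fun i a => x i a % s + s * y i a) := by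
  have hx' := mem_Tb.1 hx
  have hdiv : ∀ t : ℕ, t % s + s * (t / s) = t := fun t => Nat.mod_add_div t s
  refine Finset.sum_bij' (fun x' _ => fun i a => x' i a / s)
    (fun y _ => fun i a => x i a % s + s * y i a) ?_ ?_ ?_ ?_ ?_
  · intro x' h
    unfold rs at h
    rw [mem_filter] at h
    have h1 := mem_Tb.1 h.1
    rw [mem_Tb]
    constructor
    · intro i
      have e1 : ∑ a, x' i a = ∑ a, x i a := by rw [h1.1 i, hx'.1 i]
      have e2 : ∑ a, x' i a = ∑ a, x i a % s + s * ∑ a, x' i a / s := by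
        rw [mul_sum, ← sum_add_distrib]
        refine sum_congr rfl fun a _ => ?_
        rw [← h.2 i a, hdiv]
      have e3 : ∑ a, x i a = ∑ a, x i a % s + s * ∑ a, x i a / s := by
        rw [mul_sum, ← sum_add_distrib]
        refine sum_congr rfl fun a _ => ?_
        rw [hdiv]
      have e4 : s * ∑ a, x' i a / s = s * ∑ a, x i a / s := by omega
      exact Nat.eq_of_mul_eq_mul_left hs e4
    · intro a
      have e1 : ∑ i, x' i a = ∑ i, x i a := by rw [h1.2 a, hx'.2 a]
      have e2 : ∑ i, x' i a = ∑ i, x i a % s + s * ∑ i, x' i a / s := by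
        rw [mul_sum, ← sum_add_distrib]
        refine sum_congr rfl fun i _ => ?_
        rw [← h.2 i a, hdiv]
      have e3 : ∑ i, x i a = ∑ i, x i a % s + s * ∑ i, x i a / s := by
        rw [mul_sum, ← sum_add_distrib]
        refine sum_congr rfl fun i _ => ?_
        rw [hdiv]
      have e4 : s * ∑ i, x' i a / s = s * ∑ i, x i a / s := by omega
      exact Nat.eq_of_mul_eq_mul_left hs e4
  · intro y hy
    rw [mem_Tb] at hy
    unfold rs
    rw [mem_filter, mem_Tb]
    refine ⟨⟨?_, ?_⟩, ?_⟩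
    · intro i
      rw [sum_add_distrib, ← mul_sum, hy.1 i, ← hx'.1 i, mul_sum, ← sum_add_distrib]
      exact sum_congr rfl fun a _ => hdiv _
    · intro a
      rw [sum_add_distrib, ← mul_sum, hy.2 a, ← hx'.2 a, mul_sum, ← sum_add_distrib]
      exact sum_congr rfl fun i _ => hdiv _
    · intro i a
      rw [Nat.add_mul_mod_self_left, Nat.mod_mod]
  · intro x' h
    unfold rs at h
    rw [mem_filter] at h
    funext i a
    rw [← h.2 i a, hdiv]
  · intro y hy
    funext i a
    rw [Nat.add_mul_div_left _ _ hs, Nat.div_eq_of_lt (Nat.mod_lt _ hs), zero_add]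
  · intro x' h
    unfold rs at h
    rw [mem_filter] at h
    congr 1
    funext i a
    rw [← h.2 i a, hdiv]

/-- all switches by `s` at `x` -/
noncomputable def C4_W (s : ℕ) (f : (Fin m → Fin n → ℕ) → ℝ) (x : Fin m → Fin n → ℕ) : ℝ :=
  ∑ i : Fin m, ∑ k : Fin m, ∑ a : Fin n, ∑ b : Fin n,
    if i ≠ k ∧ a ≠ b ∧ s ≤ x i b ∧ s ≤ x k a then (f (Sw s i k a b x) - f x) ^ 2 else 0

theorem C4_W_nonneg (s : ℕ) (f : (Fin m → Fin n → ℕ) → ℝ) (x : Fin m → Fin n → ℕ) :
    0 ≤ C4_W s f x := by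
  unfold C4_W
  refine sum_nonneg fun i _ => sum_nonneg fun k _ => sum_nonneg fun a _ => sum_nonneg fun b _ => ?_
  split_ifs
  · exact sq_nonneg _
  · exact le_rfl

theorem C4_Sw (s : ℕ) (z y : Fin m → Fin n → ℕ) {i k : Fin m} {a b : Fin n} (hik : i ≠ k)
    (hab : a ≠ b) (h1 : 1 ≤ y i b) (h2 : 1 ≤ y k a) :
    Sw s i k a b (fun i a => z i a + s * y i a) =
      fun p q => z p q + s * (Sw 1 i k a b y) p q := by
  funext p q
  unfold Sw Et
  simp only [Pi.add_apply, Pi.sub_apply]
  by_cases hp : p = i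
  · subst hp
    have hpk : ¬ p = k := hik
    by_cases hq : q = a
    · subst hq
      have hqb : ¬ q = b := hab
      simp [hpk, hqb]
      ring
    · by_cases hq' : q = b
      · subst hq'
        simp only [hpk, hq, and_self, and_false, false_and, if_true, if_false]
        have : s * (y p q + 0 + 0 - 1 - 0) + s = s * y p q := by
          obtain ⟨t, ht⟩ : ∃ t, y p q = t + 1 := ⟨y p q - 1, by omega⟩
          rw [ht]
          simp
          ring
        simp only [add_zero, Nat.sub_zero] at this ⊢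
        omega
      · simp [hpk, hq, hq']
  · by_cases hk : p = k
    · subst hk
      by_cases hq : q = a
      · subst hq
        have hqb : ¬ q = b := hab
        simp only [hp, hqb, and_self, and_false, false_and, if_true, if_false]
        have : s * (y p q + 0 + 0 - 0 - 1) + s = s * y p q := by
          obtain ⟨t, ht⟩ : ∃ t, y p q = t + 1 := ⟨y p q - 1, by omega⟩
          rw [ht]
          simp
          ring
        simp only [add_zero, Nat.sub_zero] at this ⊢
        omega
      · by_cases hq' : q = b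
        · subst hq'
          simp [hp, hq]
          ring
        · simp [hp, hq, hq']
    · simp [hp, hk]

theorem C4_class (κ : ℕ → ℝ) (hκ : Monotone κ) (hκ0 : ∀ N, 0 ≤ κ N) (hU : Unary m n κ)
    {r : Fin m → ℕ} {c : Fin n → ℕ} (s : ℕ) (hs : 1 ≤ s) (f : (Fin m → Fin n → ℕ) → ℝ)
    {x : Fin m → Fin n → ℕ} (hx : x ∈ Tb r c) :
    ∑ x' ∈ rs r c s x, (f x' - mean (rs r c s x) f) ^ 2 ≤
      κ ((∑ i, r i) / s) * ∑ x' ∈ rs r c s x, C4_W s f x' := by
  set μ := mean (rs r c s x) f with hμ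
  have hne : (rs r c s x).Nonempty := ⟨x, by unfold rs; rw [mem_filter]; exact ⟨hx, fun _ _ => rfl⟩⟩
  have hcard : ((rs r c s x).card : ℝ) ≠ 0 := by
    have := Finset.card_pos.2 hne
    positivity
  have h0 : ∑ x' ∈ rs r c s x, (f x' - μ) = 0 := by
    rw [sum_sub_distrib, sum_const, nsmul_eq_mul, hμ]
    unfold mean
    field_simp
    ring
  rw [residue_bij s hs hx (fun x' => f x' - μ)] at h0
  rw [residue_bij s hs hx (fun x' => (f x' - μ) ^ 2), residue_bij s hs hx (fun x' => C4_W s f x')]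
  have h1 := hU _ _ (fun y => f (fun i a => x i a % s + s * y i a) - μ) h0
  unfold sq at h1
  refine h1.trans ?_
  have hN : ∑ i, ∑ a, x i a / s ≤ (∑ i, r i) / s := by
    rw [Nat.le_div_iff_mul_le hs, sum_mul]
    refine sum_le_sum fun i _ => ?_
    rw [← row_sum hx i, sum_mul]
    exact sum_le_sum fun a _ => Nat.div_mul_le_self _ _
  have h2 : UE (fun i => (∑ a, x i a / s)) (fun a => (∑ i, x i a / s))
      (fun y => f (fun i a => x i a % s + s * y i a) - μ) ≤
      ∑ y ∈ Tb (fun i => (∑ a, x i a / s)) (fun a => (∑ i, x i a / s)),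
        C4_W s f (fun i a => x i a % s + s * y i a) := by
    unfold UE
    refine sum_le_sum fun y _ => ?_
    unfold C4_W
    refine sum_le_sum fun i _ => sum_le_sum fun k _ => sum_le_sum fun a _ => sum_le_sum fun b _ => ?_
    by_cases h : i ≠ k ∧ a ≠ b ∧ 1 ≤ y i b ∧ 1 ≤ y k a
    · obtain ⟨hik, hab, hb, ha⟩ := h
      have h3 : s ≤ x i b % s + s * y i b := by
        have : s * 1 ≤ s * y i b := Nat.mul_le_mul_left s hb
        omega
      have h4 : s ≤ x k a % s + s * y k a := by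
        have : s * 1 ≤ s * y k a := Nat.mul_le_mul_left s ha
        omega
      rw [if_pos ⟨hik, hab, hb, ha⟩, if_pos ⟨hik, hab, h3, h4⟩]
      rw [C4_Sw s (fun i a => x i a % s) y hik hab hb ha]
      apply le_of_eq
      ring
    · rw [if_neg h]
      split_ifs
      · exact sq_nonneg _
      · exact le_rfl
  have hnn : 0 ≤ UE (fun i => (∑ a, x i a / s)) (fun a => (∑ i, x i a / s))
      (fun y => f (fun i a => x i a % s + s * y i a) - μ) := by
    unfold UE
    refine sum_nonneg fun y _ => sum_nonneg fun i _ => sum_nonneg fun k _ => sum_nonneg fun a _ =>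
      sum_nonneg fun b _ => ?_
    split_ifs
    · exact sq_nonneg _
    · exact le_rfl
  exact mul_le_mul (hκ hN) h2 hnn (hκ0 _)

/-- `residue_poincare`, with `trans_energy` as input -/
theorem C4_poincare (κ : ℕ → ℝ) (hκ : Monotone κ) (hκ0 : ∀ N, 0 ≤ κ N) (hU : Unary m n κ)
    {r : Fin m → ℕ} {c : Fin n → ℕ} (s : ℕ) (hs : 1 ≤ s) (f : (Fin m → Fin n → ℕ) → ℝ)
    (trans : ∀ {i k : Fin m} {a b : Fin n}, i ≠ k → a ≠ b →
      ∑ x ∈ (Tb r c).filter (fun x => s ≤ x i b ∧ s ≤ x k a), (f (Sw s i k a b x) - f x) ^ 2 ≤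
      4 * EB r c i k a b f) :
    ∑ x ∈ Tb r c, (f x - mean (rs r c s x) f) ^ 2 ≤ 4 * κ ((∑ i, r i) / s) * En r c f := by
  classical
  set res : (Fin m → Fin n → ℕ) → (Fin m → Fin n → ℕ) := fun x i a => x i a % s with hres
  have hcls : ∀ x ∈ Tb r c, (Tb r c).filter (fun y => res y = res x) = rs r c s x := by
    intro x _
    unfold rs
    ext y
    rw [mem_filter, mem_filter]
    refine and_congr Iff.rfl ?_
    constructor
    · intro h i a
      exact congrFun (congrFun h i) a
    · intro h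
      funext i a
      exact h i a
  have hrs : ∀ x y, res y = res x → rs r c s y = rs r c s x := by
    intro x y h
    unfold rs
    have h1 : ∀ i a, y i a % s = x i a % s := fun i a => congrFun (congrFun h i) a
    simp only [h1]
  have hsplit : ∀ F : (Fin m → Fin n → ℕ) → ℝ, ∑ x ∈ Tb r c, F x =
      ∑ z ∈ (Tb r c).image res, ∑ x ∈ (Tb r c).filter (fun y => res y = z), F x := by
    intro F
    exact (Finset.sum_fiberwise_of_maps_to (fun x hx => mem_image_of_mem res hx) F).symm
  rw [hsplit]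
  have h1 : ∀ z ∈ (Tb r c).image res,
      ∑ x ∈ (Tb r c).filter (fun y => res y = z), (f x - mean (rs r c s x) f) ^ 2 ≤
      κ ((∑ i, r i) / s) * ∑ x ∈ (Tb r c).filter (fun y => res y = z), C4_W s f x := by
    intro z hz
    rw [mem_image] at hz
    obtain ⟨x0, hx0, rfl⟩ := hz
    have h2 := C4_class κ hκ hκ0 hU s hs f hx0
    have h3 : ∑ x ∈ (Tb r c).filter (fun y => res y = res x0), (f x - mean (rs r c s x) f) ^ 2 =
        ∑ x' ∈ rs r c s x0, (f x' - mean (rs r c s x0) f) ^ 2 := by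
      rw [← hcls x0 hx0]
      refine sum_congr rfl fun x hx => ?_
      rw [hrs x0 x (mem_filter.1 hx).2, hcls x0 hx0]
    rw [h3, hcls x0 hx0]
    exact h2
  refine (sum_le_sum h1).trans ?_
  rw [← mul_sum, ← hsplit]
  have h4 : ∑ x ∈ Tb r c, C4_W s f x ≤ 4 * En r c f := by
    unfold C4_W En
    rw [sum_comm, mul_sum]
    refine sum_le_sum fun i _ => ?_
    rw [sum_comm, mul_sum]
    refine sum_le_sum fun k _ => ?_
    rw [sum_comm, mul_sum]
    refine sum_le_sum fun a _ => ?_
    rw [sum_comm, mul_sum]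
    refine sum_le_sum fun b _ => ?_
    by_cases h : i ≠ k ∧ a ≠ b
    · rw [if_pos h]
      refine le_trans (le_of_eq ?_) (trans h.1 h.2)
      rw [sum_filter]
      refine sum_congr rfl fun x _ => ?_
      by_cases h' : s ≤ x i b ∧ s ≤ x k a
      · rw [if_pos ⟨h.1, h.2, h'.1, h'.2⟩, if_pos h']
      · rw [if_neg (fun hh => h' ⟨hh.2.2.1, hh.2.2.2⟩), if_neg h']
    · rw [if_neg h, mul_zero]
      refine le_of_eq (sum_eq_zero fun x _ => ?_)
      rw [if_neg (fun hh => h ⟨hh.1, hh.2.1⟩)]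
  have h5 := mul_le_mul_of_nonneg_left h4 (hκ0 ((∑ i, r i) / s))
  linarith

theorem residue_poincare (κ : ℕ → ℝ) (hκ : Monotone κ) (hκ0 : ∀ N, 0 ≤ κ N) (hU : Unary m n κ)
    {r : Fin m → ℕ} {c : Fin n → ℕ} (s : ℕ) (hs : 1 ≤ s) (f : (Fin m → Fin n → ℕ) → ℝ) :
    ∑ x ∈ Tb r c, (f x - mean (rs r c s x) f) ^ 2 ≤ 4 * κ ((∑ i, r i) / s) * En r c f :=
  C4_poincare κ hκ hκ0 hU s hs f (fun hik hab => trans_energy hik hab s f)

end Vale.Agent.P328B
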