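import Vale.Agent.Lib.P328B.C2

/-!
P328 BINARY, module C5A: the error function of the decoupling step.
-/

namespace Vale.Agent.P328B

open Finset

variable {m n : ℕ}

/-- the error function -/
noncomputable def Xi (s0 om : ℕ) (i k : Fin m) (a b : Fin n) (φ : ℕ → ℝ)
    (x : Fin m → Fin n → ℕ) : ℝ :=
  if 2 * s0 + om ≤ x i b ∧ 2 * s0 + om ≤ x k a then
    (∑ u ∈ Icc (s0 - om) (s0 + om), |φ (x i a + u)|) / s0 +
    (∑ u ∈ Icc (2 * s0 - om) (2 * s0 + om), |φ (x i a + u)|) / s0 +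
    (2 * om / s0) * ((∑ u ∈ Icc (s0 - om) (2 * s0 + om), |φ (x i a + u)|) / s0) else 0

theorem C5a_chi_nonneg (s0 t : ℕ) : 0 ≤ chi s0 t := le_max_left _ _

theorem C5a_chi_le_one (s0 t : ℕ) : chi s0 t ≤ 1 :=
  max_le zero_le_one (min_le_left _ _)

theorem C5a_chi_zero (s0 t : ℕ) (hs0 : 1 ≤ s0) (h : t ≤ 3 * s0) : chi s0 t = 0 := by
  unfold chi
  apply max_eq_left
  refine (min_le_right _ _).trans ?_
  apply div_nonpos_of_nonpos_of_nonneg
  · have : (t : ℝ) ≤ 3 * s0 := by exact_mod_cast h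
    linarith
  · positivity

theorem C5a_chi_lip (s0 t t' om : ℕ) (hs0 : 1 ≤ s0) (h : ((t : ℤ) - t').natAbs ≤ om) :
    |chi s0 t - chi s0 t'| ≤ om / s0 := by
  have hs : (0 : ℝ) < s0 := by exact_mod_cast hs0
  have h1 : |(t : ℝ) - t'| ≤ om := by
    have h2 : |(t : ℤ) - t'| ≤ om := by
      rw [Int.abs_eq_natAbs]
      exact_mod_cast h
    exact_mod_cast h2
  have h3 : |((t : ℝ) - 3 * s0) / s0 - ((t' : ℝ) - 3 * s0) / s0| ≤ om / s0 := by
    rw [← sub_div, abs_div, abs_of_pos hs]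
    apply div_le_div_of_nonneg_right _ hs.le
    rw [show (t : ℝ) - 3 * s0 - (t' - 3 * s0) = t - t' by ring]
    exact h1
  unfold chi
  have h4 := abs_max_sub_max_le_max (0 : ℝ) (min 1 (((t : ℝ) - 3 * s0) / s0)) 0
    (min 1 (((t' : ℝ) - 3 * s0) / s0))
  have h5 := abs_min_sub_min_le_max (1 : ℝ) (((t : ℝ) - 3 * s0) / s0) 1
    (((t' : ℝ) - 3 * s0) / s0)
  rw [sub_self, abs_zero] at h4 h5
  have h6 := h4.trans (le_of_eq (max_eq_right (abs_nonneg _)))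
  have h7 := h5.trans (le_of_eq (max_eq_right (abs_nonneg _)))
  exact h6.trans (h7.trans h3)

theorem C5a_sum_sub_le (A B W1 W2 : Finset ℕ) (φ : ℕ → ℝ) (h1 : A \ B ⊆ W1 ∪ W2)
    (h2 : B \ A ⊆ W1 ∪ W2) :
    |∑ v ∈ A, φ v - ∑ v ∈ B, φ v| ≤ ∑ v ∈ W1, |φ v| + ∑ v ∈ W2, |φ v| := by
  have e1 : ∑ v ∈ A, φ v - ∑ v ∈ B, φ v = ∑ v ∈ A \ B, φ v - ∑ v ∈ B \ A, φ v := by
    rw [← sum_sdiff_sub_sum_sdiff]
  rw [e1]
  have hd : Disjoint (A \ B) (B \ A) := disjoint_sdiff_sdiff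
  calc |∑ v ∈ A \ B, φ v - ∑ v ∈ B \ A, φ v| ≤ |∑ v ∈ A \ B, φ v| + |∑ v ∈ B \ A, φ v| :=
        abs_sub _ _
    _ ≤ ∑ v ∈ A \ B, |φ v| + ∑ v ∈ B \ A, |φ v| :=
        add_le_add (abs_sum_le_sum_abs _ _) (abs_sum_le_sum_abs _ _)
    _ = ∑ v ∈ (A \ B) ∪ (B \ A), |φ v| := (sum_union hd).symm
    _ ≤ ∑ v ∈ W1 ∪ W2, |φ v| :=
        sum_le_sum_of_subset_of_nonneg (union_subset h1 h2) (fun _ _ _ => abs_nonneg _)
    _ ≤ ∑ v ∈ W1, |φ v| + ∑ v ∈ W2, |φ v| := by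
        rw [← sum_union_inter]
        have : 0 ≤ ∑ v ∈ W1 ∩ W2, |φ v| := sum_nonneg (fun _ _ => abs_nonneg _)
        linarith

theorem C5a_shift_Icc (s a b : ℕ) (g : ℕ → ℝ) :
    ∑ u ∈ Icc a b, g (s + u) = ∑ v ∈ Icc (s + a) (s + b), g v := by
  rw [← map_add_left_Icc, sum_map]
  rfl

theorem C5a_shift_Ico (s a b : ℕ) (g : ℕ → ℝ) :
    ∑ u ∈ Ico a b, g (s + u) = ∑ v ∈ Ico (s + a) (s + b), g v := by
  rw [← map_add_left_Ico, sum_map]
  rfl

/-- C5a: pointwise comparison -/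
theorem Xi_spec (s0 om : ℕ) (hs0 : 1 ≤ s0) (h2 : 2 * om ≤ s0) (i k : Fin m) (a b : Fin n)
    (φ : ℕ → ℝ) (x x' : Fin m → Fin n → ℕ)
    (h : ∀ p q, ((x p q : ℤ) - x' p q).natAbs ≤ om) :
    |Ph s0 i k a b φ x - Ph s0 i k a b φ x'| ≤ Xi s0 om i k a b φ x := by
  have hs : (0 : ℝ) < s0 := by exact_mod_cast hs0
  have h3 : ∀ p q, x p q ≤ x' p q + om ∧ x' p q ≤ x p q + om := by
    intro p q
    have := h p q
    omega
  unfold Xi
  split_ifs with hc
  · set s := x i a with hsdef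
    set s' := x' i a with hs'def
    have hss := h3 i a
    have hp : |pb s0 φ s - pb s0 φ s'| ≤ (∑ u ∈ Icc (s0 - om) (s0 + om), |φ (s + u)|) / s0 +
        (∑ u ∈ Icc (2 * s0 - om) (2 * s0 + om), |φ (s + u)|) / s0 := by
      unfold pb
      rw [← sub_div, abs_div, abs_of_pos hs, ← add_div]
      apply div_le_div_of_nonneg_right _ hs.le
      rw [C5a_shift_Ico s, C5a_shift_Ico s', C5a_shift_Icc s _ _ (fun v => |φ v|),
        C5a_shift_Icc s _ _ (fun v => |φ v|)]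
      apply C5a_sum_sub_le
      · intro v hv
        rw [mem_sdiff, mem_Ico, mem_Ico] at hv
        rw [mem_union, mem_Icc, mem_Icc]
        omega
      · intro v hv
        rw [mem_sdiff, mem_Ico, mem_Ico] at hv
        rw [mem_union, mem_Icc, mem_Icc]
        omega
    have hp' : |pb s0 φ s'| ≤ (∑ u ∈ Icc (s0 - om) (2 * s0 + om), |φ (s + u)|) / s0 := by
      unfold pb
      rw [abs_div, abs_of_pos hs]
      apply div_le_div_of_nonneg_right _ hs.le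
      rw [C5a_shift_Ico s', C5a_shift_Icc s _ _ (fun v => |φ v|)]
      refine (abs_sum_le_sum_abs _ _).trans ?_
      apply sum_le_sum_of_subset_of_nonneg
      · intro v hv
        rw [mem_Ico] at hv
        rw [mem_Icc]
        omega
      · intro _ _ _
        exact abs_nonneg _
    have hc1 := C5a_chi_lip s0 (x i b) (x' i b) om hs0 (h i b)
    have hc2 := C5a_chi_lip s0 (x k a) (x' k a) om hs0 (h k a)
    unfold Ph
    rw [← hsdef, ← hs'def]
    have a1 := C5a_chi_nonneg s0 (x i b)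
    have a2 := C5a_chi_le_one s0 (x i b)
    have a3 := C5a_chi_nonneg s0 (x k a)
    have a4 := C5a_chi_le_one s0 (x k a)
    have a5 := C5a_chi_nonneg s0 (x' i b)
    have a6 := C5a_chi_le_one s0 (x' i b)
    set c1 := chi s0 (x i b)
    set c2 := chi s0 (x k a)
    set c1' := chi s0 (x' i b)
    set c2' := chi s0 (x' k a)
    set p := pb s0 φ s
    set p' := pb s0 φ s'
    have e : c1 * c2 * p - c1' * c2' * p' =
        c1 * c2 * (p - p') + ((c1 - c1') * c2 + c1' * (c2 - c2')) * p' := by ring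
    rw [e]
    have b1 : |c1 * c2 * (p - p')| ≤ |p - p'| := by
      rw [abs_mul, abs_mul, abs_of_nonneg a1, abs_of_nonneg a3]
      have : c1 * c2 ≤ 1 := mul_le_one₀ a2 a3 a4
      exact mul_le_of_le_one_left (abs_nonneg _) this
    have b2 : |(c1 - c1') * c2 + c1' * (c2 - c2')| ≤ 2 * om / s0 := by
      have b3 : |(c1 - c1') * c2| ≤ om / s0 := by
        rw [abs_mul, abs_of_nonneg a3]
        exact (mul_le_of_le_one_right (abs_nonneg _) a4).trans hc1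
      have b4 : |c1' * (c2 - c2')| ≤ om / s0 := by
        rw [abs_mul, abs_of_nonneg a5]
        exact (mul_le_of_le_one_left (abs_nonneg _) a6).trans hc2
      calc _ ≤ |(c1 - c1') * c2| + |c1' * (c2 - c2')| := abs_add_le _ _
        _ ≤ om / s0 + om / s0 := add_le_add b3 b4
        _ = 2 * om / s0 := by ring
    calc |c1 * c2 * (p - p') + ((c1 - c1') * c2 + c1' * (c2 - c2')) * p'|
        ≤ |c1 * c2 * (p - p')| + |((c1 - c1') * c2 + c1' * (c2 - c2')) * p'| := abs_add_le _ _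
      _ ≤ |p - p'| + (2 * om / s0) * |p'| := by
          rw [abs_mul ((c1 - c1') * c2 + c1' * (c2 - c2'))]
          exact add_le_add b1 (mul_le_mul_of_nonneg_right b2 (abs_nonneg _))
      _ ≤ _ := by
          apply add_le_add hp
          apply mul_le_mul_of_nonneg_left hp'
          positivity
  · have h4 : Ph s0 i k a b φ x = 0 := by
      unfold Ph
      by_cases h5 : 2 * s0 + om ≤ x i b
      · have h6 : x k a ≤ 3 * s0 := by
          by_contra h7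
          exact hc ⟨h5, by omega⟩
        rw [C5a_chi_zero s0 (x k a) hs0 h6]
        ring
      · rw [C5a_chi_zero s0 (x i b) hs0 (by omega)]
        ring
    have h5 : Ph s0 i k a b φ x' = 0 := by
      unfold Ph
      by_cases h5 : 2 * s0 + om ≤ x i b
      · have h6 : x' k a ≤ 3 * s0 := by
          by_contra h7
          have := h3 k a
          exact hc ⟨h5, by omega⟩
        rw [C5a_chi_zero s0 (x' k a) hs0 h6]
        ring
      · have := h3 i b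
        rw [C5a_chi_zero s0 (x' i b) hs0 (by omega)]
        ring
    rw [h4, h5]
    simp

theorem C5a_window {r : Fin m → ℕ} {c : Fin n → ℕ} {i k : Fin m} {a b : Fin n} (hik : i ≠ k)
    (hab : a ≠ b) (U : ℕ) (J : Finset ℕ) (hJ : ∀ u ∈ J, u ≤ U) (φ : ℕ → ℝ) :
    ∑ x ∈ (Tb r c).filter (fun x => U ≤ x i b ∧ U ≤ x k a), (∑ u ∈ J, |φ (x i a + u)|) ^ 2 ≤
      (J.card : ℝ) ^ 2 * ∑ x ∈ Tb r c, φ (x i a) ^ 2 := by
  calc ∑ x ∈ (Tb r c).filter (fun x => U ≤ x i b ∧ U ≤ x k a), (∑ u ∈ J, |φ (x i a + u)|) ^ 2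
      ≤ ∑ x ∈ (Tb r c).filter (fun x => U ≤ x i b ∧ U ≤ x k a),
          (J.card : ℝ) * ∑ u ∈ J, φ (x i a + u) ^ 2 := by
        apply sum_le_sum
        intro x _
        have := sq_sum_le_card_mul_sum_sq (s := J) (f := fun u => |φ (x i a + u)|)
        simpa only [sq_abs] using this
    _ = (J.card : ℝ) * ∑ u ∈ J, ∑ x ∈ (Tb r c).filter (fun x => U ≤ x i b ∧ U ≤ x k a),
          φ (x i a + u) ^ 2 := by
        rw [← mul_sum, sum_comm]
    _ ≤ (J.card : ℝ) * ∑ u ∈ J, ∑ x ∈ Tb r c, φ (x i a) ^ 2 := by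
        apply mul_le_mul_of_nonneg_left _ (by positivity)
        apply sum_le_sum
        intro u hu
        refine le_trans ?_ (trans_norm hik hab u φ)
        apply sum_le_sum_of_subset_of_nonneg
        · intro x hx
          rw [mem_filter] at hx ⊢
          have := hJ u hu
          exact ⟨hx.1, this.trans hx.2.1, this.trans hx.2.2⟩
        · intro _ _ _
          positivity
    _ = (J.card : ℝ) ^ 2 * ∑ x ∈ Tb r c, φ (x i a) ^ 2 := by
        rw [sum_const, nsmul_eq_mul]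
        ring

/-- C5a: norm -/
theorem Xi_norm {r : Fin m → ℕ} {c : Fin n → ℕ} {i k : Fin m} {a b : Fin n} (hik : i ≠ k)
    (hab : a ≠ b) (s0 om : ℕ) (hom : 1 ≤ om) (h2 : 2 * om ≤ s0) (φ : ℕ → ℝ) :
    ∑ x ∈ Tb r c, Xi s0 om i k a b φ x ^ 2 ≤
      (14 * (om / s0)) ^ 2 * ∑ x ∈ Tb r c, φ (x i a) ^ 2 := by
  have hs0 : 1 ≤ s0 := by omega
  have hs : (0 : ℝ) < s0 := by exact_mod_cast hs0
  have ho : (1 : ℝ) ≤ om := by exact_mod_cast hom
  have h2' : 2 * (om : ℝ) ≤ s0 := by exact_mod_cast h2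
  set U := 2 * s0 + om with hU
  set Φ := ∑ x ∈ Tb r c, φ (x i a) ^ 2 with hΦ
  have hΦ0 : 0 ≤ Φ := sum_nonneg (fun _ _ => sq_nonneg _)
  set T := (Tb r c).filter (fun x => U ≤ x i b ∧ U ≤ x k a) with hT
  have w1 := C5a_window (r := r) (c := c) hik hab U (Icc (s0 - om) (s0 + om))
    (by intro u hu; rw [mem_Icc] at hu; omega) φ
  have w2 := C5a_window (r := r) (c := c) hik hab U (Icc (2 * s0 - om) (2 * s0 + om))
    (by intro u hu; rw [mem_Icc] at hu; omega) φ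
  have w3 := C5a_window (r := r) (c := c) hik hab U (Icc (s0 - om) (2 * s0 + om))
    (by intro u hu; rw [mem_Icc] at hu; omega) φ
  have k1 : ((Icc (s0 - om) (s0 + om)).card : ℝ) ≤ 3 * om := by
    rw [Nat.card_Icc]
    have : s0 + om + 1 - (s0 - om) ≤ 3 * om := by omega
    exact_mod_cast this
  have k2 : ((Icc (2 * s0 - om) (2 * s0 + om)).card : ℝ) ≤ 3 * om := by
    rw [Nat.card_Icc]
    have : 2 * s0 + om + 1 - (2 * s0 - om) ≤ 3 * om := by omega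
    exact_mod_cast this
  have k3 : 2 * ((Icc (s0 - om) (2 * s0 + om)).card : ℝ) ≤ 5 * s0 := by
    rw [Nat.card_Icc]
    have : 2 * (2 * s0 + om + 1 - (s0 - om)) ≤ 5 * s0 := by omega
    exact_mod_cast this
  rw [← hT, ← hΦ] at w1 w2 w3
  have key : ∀ x ∈ T, Xi s0 om i k a b φ x ^ 2 ≤
      3 * ((∑ u ∈ Icc (s0 - om) (s0 + om), |φ (x i a + u)|) ^ 2 / s0 ^ 2 +
        (∑ u ∈ Icc (2 * s0 - om) (2 * s0 + om), |φ (x i a + u)|) ^ 2 / s0 ^ 2 +
        (2 * om / s0) ^ 2 * ((∑ u ∈ Icc (s0 - om) (2 * s0 + om), |φ (x i a + u)|) ^ 2 / s0 ^ 2)) := by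
    intro x hx
    rw [hT, mem_filter] at hx
    unfold Xi
    rw [if_pos hx.2]
    set A := ∑ u ∈ Icc (s0 - om) (s0 + om), |φ (x i a + u)|
    set B := ∑ u ∈ Icc (2 * s0 - om) (2 * s0 + om), |φ (x i a + u)|
    set C := ∑ u ∈ Icc (s0 - om) (2 * s0 + om), |φ (x i a + u)|
    have e : ∀ p q w : ℝ, (p + q + w) ^ 2 ≤ 3 * (p ^ 2 + q ^ 2 + w ^ 2) := by
      intro p q w
      nlinarith [sq_nonneg (p - q), sq_nonneg (q - w), sq_nonneg (p - w)]
    refine (e _ _ _).trans (le_of_eq ?_)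
    rw [div_pow, div_pow, mul_pow, div_pow C]
  have hsum : ∑ x ∈ Tb r c, Xi s0 om i k a b φ x ^ 2 = ∑ x ∈ T, Xi s0 om i k a b φ x ^ 2 := by
    rw [hT, sum_filter]
    apply sum_congr rfl
    intro x _
    split_ifs with hx
    · rfl
    · unfold Xi
      rw [if_neg hx]
      norm_num
  rw [hsum]
  calc ∑ x ∈ T, Xi s0 om i k a b φ x ^ 2 ≤ ∑ x ∈ T,
      3 * ((∑ u ∈ Icc (s0 - om) (s0 + om), |φ (x i a + u)|) ^ 2 / s0 ^ 2 +
        (∑ u ∈ Icc (2 * s0 - om) (2 * s0 + om), |φ (x i a + u)|) ^ 2 / s0 ^ 2 +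
        (2 * om / s0) ^ 2 * ((∑ u ∈ Icc (s0 - om) (2 * s0 + om), |φ (x i a + u)|) ^ 2 / s0 ^ 2)) :=
        sum_le_sum key
    _ = 3 * ((∑ x ∈ T, (∑ u ∈ Icc (s0 - om) (s0 + om), |φ (x i a + u)|) ^ 2) / s0 ^ 2 +
        (∑ x ∈ T, (∑ u ∈ Icc (2 * s0 - om) (2 * s0 + om), |φ (x i a + u)|) ^ 2) / s0 ^ 2 +
        (2 * om / s0) ^ 2 *
          ((∑ x ∈ T, (∑ u ∈ Icc (s0 - om) (2 * s0 + om), |φ (x i a + u)|) ^ 2) / s0 ^ 2)) := by
        rw [← mul_sum, sum_add_distrib, sum_add_distrib, ← mul_sum, sum_div, sum_div, sum_div]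
    _ ≤ 3 * (((3 * om) ^ 2 * Φ) / s0 ^ 2 + ((3 * om) ^ 2 * Φ) / s0 ^ 2 +
        (2 * om / s0) ^ 2 * (((5 / 2 * s0) ^ 2 * Φ) / s0 ^ 2)) := by
        have v1 := w1.trans (mul_le_mul_of_nonneg_right (pow_le_pow_left₀ (by positivity) k1 2) hΦ0)
        have v2 := w2.trans (mul_le_mul_of_nonneg_right (pow_le_pow_left₀ (by positivity) k2 2) hΦ0)
        have v3 := w3.trans (mul_le_mul_of_nonneg_right (pow_le_pow_left₀ (by positivity)
          (show ((Icc (s0 - om) (2 * s0 + om)).card : ℝ) ≤ 5 / 2 * s0 by linarith) 2) hΦ0)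
        gcongr
    _ = 129 * (om / s0) ^ 2 * Φ := by
        field_simp
        ring
    _ ≤ (14 * (om / s0)) ^ 2 * Φ := by
        apply mul_le_mul_of_nonneg_right _ hΦ0
        rw [mul_pow]
        have : 0 ≤ ((om : ℝ) / s0) ^ 2 := sq_nonneg _
        nlinarith

end Vale.Agent.P328B
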