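import Vale.Agent.Lib.P328B.Box
import Vale.Agent.Lib.P328B.C4
import Vale.Agent.Lib.P328B.C5a

/-!
P328 binary: module C5b (decoupling of the residues from a macroscopic cell).
-/

namespace Vale.Agent.P328B

open Finset

variable {m n : ℕ}

theorem C5b_mem_rs {r : Fin m → ℕ} {c : Fin n → ℕ} {s : ℕ} {x y : Fin m → Fin n → ℕ} :
    y ∈ rs r c s x ↔ y ∈ Tb r c ∧ ∀ i a, y i a % s = x i a % s := by
  unfold rs
  rw [mem_filter]

theorem C5b_self {r : Fin m → ℕ} {c : Fin n → ℕ} (s : ℕ) {x : Fin m → Fin n → ℕ}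
    (hx : x ∈ Tb r c) : x ∈ rs r c s x := C5b_mem_rs.mpr ⟨hx, fun _ _ => rfl⟩

theorem C5b_rs_eq {r : Fin m → ℕ} {c : Fin n → ℕ} {s : ℕ} {x y : Fin m → Fin n → ℕ}
    (h : y ∈ rs r c s x) : rs r c s y = rs r c s x := by
  ext z
  rw [C5b_mem_rs, C5b_mem_rs]
  have h2 := (C5b_mem_rs.mp h).2
  constructor
  · rintro ⟨h3, h4⟩
    exact ⟨h3, fun i a => (h4 i a).trans (h2 i a)⟩
  · rintro ⟨h3, h4⟩
    exact ⟨h3, fun i a => (h4 i a).trans (h2 i a).symm⟩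

theorem C5b_sum_mean (r : Fin m → ℕ) (c : Fin n → ℕ) (s : ℕ) (F : (Fin m → Fin n → ℕ) → ℝ) :
    ∑ x ∈ Tb r c, mean (rs r c s x) F = ∑ x ∈ Tb r c, F x := by
  unfold mean
  simp only [sum_div]
  rw [sum_comm' (t' := Tb r c) (s' := fun y => rs r c s y)]
  · refine sum_congr rfl fun y hy => ?_
    have h1 : ∀ x ∈ rs r c s y, F y / ((rs r c s x).card : ℝ) = F y / ((rs r c s y).card : ℝ) := by
      intro x hx
      rw [C5b_rs_eq hx]
    rw [sum_congr rfl h1, sum_const, nsmul_eq_mul]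
    have h2 : (0 : ℝ) < ((rs r c s y).card : ℝ) := by
      exact_mod_cast card_pos.mpr ⟨y, C5b_self s hy⟩
    field_simp
  · intro x y
    rw [C5b_mem_rs, C5b_mem_rs]
    constructor
    · rintro ⟨h1, h2, h3⟩
      exact ⟨⟨h1, fun i a => (h3 i a).symm⟩, h2⟩
    · rintro ⟨⟨h1, h2⟩, h3⟩
      exact ⟨h1, h3, fun i a => (h2 i a).symm⟩

theorem C5b_mean_const_mul {r : Fin m → ℕ} {c : Fin n → ℕ} (s : ℕ) (x : Fin m → Fin n → ℕ)
    (F G : (Fin m → Fin n → ℕ) → ℝ) :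
    mean (rs r c s x) (fun y => mean (rs r c s y) F * G y) =
      mean (rs r c s x) F * mean (rs r c s x) G := by
  have h1 : ∀ y ∈ rs r c s x, mean (rs r c s y) F * G y = mean (rs r c s x) F * G y := by
    intro y hy
    rw [C5b_rs_eq hy]
  unfold mean at h1 ⊢
  rw [sum_congr rfl h1, ← mul_sum]
  ring

theorem C5b_sum_mul (r : Fin m → ℕ) (c : Fin n → ℕ) (s : ℕ) (F G : (Fin m → Fin n → ℕ) → ℝ) :
    ∑ x ∈ Tb r c, mean (rs r c s x) F * G x =
      ∑ x ∈ Tb r c, mean (rs r c s x) F * mean (rs r c s x) G := by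
  rw [← C5b_sum_mean r c s (fun y => mean (rs r c s y) F * G y)]
  exact sum_congr rfl fun x _ => C5b_mean_const_mul s x F G

theorem C5b_mean_sq_le {α : Type} (S : Finset α) (F : α → ℝ) :
    mean S F ^ 2 ≤ mean S (fun y => F y ^ 2) := by
  rcases S.eq_empty_or_nonempty with rfl | h
  · simp [mean]
  have hc : (0 : ℝ) < S.card := by exact_mod_cast h.card_pos
  have h1 := sum_sq_eq S F
  have h2 : 0 ≤ ∑ x ∈ S, (F x - mean S F) ^ 2 := sum_nonneg fun _ _ => sq_nonneg _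
  have h3 : mean S (fun y => F y ^ 2) = (∑ x ∈ S, F x ^ 2) / (S.card : ℝ) := rfl
  rw [h3, le_div_iff₀ hc]
  nlinarith

theorem C5b_sq_mean (r : Fin m → ℕ) (c : Fin n → ℕ) (s : ℕ) (F : (Fin m → Fin n → ℕ) → ℝ) :
    ∑ x ∈ Tb r c, mean (rs r c s x) F ^ 2 ≤ ∑ x ∈ Tb r c, F x ^ 2 := by
  rw [← C5b_sum_mean r c s (fun y => F y ^ 2)]
  exact sum_le_sum fun x _ => C5b_mean_sq_le _ _

theorem C5b_mean_residue {r : Fin m → ℕ} {c : Fin n → ℕ} (s : ℕ) (hs : 1 ≤ s)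
    {x : Fin m → Fin n → ℕ} (hx : x ∈ Tb r c) (G : (Fin m → Fin n → ℕ) → ℝ) :
    mean (rs r c s x) G =
      mean (Tb (fun i => (∑ a, x i a / s)) (fun a => (∑ i, x i a / s)))
        (fun y => G (fun i a => x i a % s + s * y i a)) := by
  unfold mean
  rw [residue_bij s hs hx G]
  have h1 := residue_bij s hs hx (fun _ => (1 : ℝ))
  simp only [sum_const, nsmul_eq_mul, mul_one] at h1
  rw [h1]

/-- the quotient margins of two residue classes are close -/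
theorem C5b_row {k : ℕ} (s : ℕ) (hs : 1 ≤ s) (v w : Fin k → ℕ) (h : ∑ a, v a = ∑ a, w a) :
    ((((∑ a, v a / s : ℕ) : ℤ)) - ((∑ a, w a / s : ℕ) : ℤ)).natAbs ≤ k := by
  have hv : ∑ a, v a = s * ∑ a, v a / s + ∑ a, v a % s := by
    rw [mul_sum, ← sum_add_distrib]
    exact sum_congr rfl fun a _ => (Nat.div_add_mod (v a) s).symm
  have hw : ∑ a, w a = s * ∑ a, w a / s + ∑ a, w a % s := by
    rw [mul_sum, ← sum_add_distrib]
    exact sum_congr rfl fun a _ => (Nat.div_add_mod (w a) s).symm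
  have hv2 : ∑ a, v a % s ≤ k * s := by
    calc ∑ a, v a % s ≤ ∑ _a : Fin k, s :=
          sum_le_sum fun a _ => (Nat.mod_lt _ (by omega)).le
      _ = k * s := by simp
  have hw2 : ∑ a, w a % s ≤ k * s := by
    calc ∑ a, w a % s ≤ ∑ _a : Fin k, s :=
          sum_le_sum fun a _ => (Nat.mod_lt _ (by omega)).le
      _ = k * s := by simp
  set A := ∑ a, v a / s
  set B := ∑ a, w a / s
  have e1 : s * (B + k) = s * B + k * s := by ring
  have e2 : s * (A + k) = s * A + k * s := by ring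
  have h1 : s * A ≤ s * (B + k) := by rw [e1]; omega
  have h2 : s * B ≤ s * (A + k) := by rw [e2]; omega
  have h3 : A ≤ B + k := Nat.le_of_mul_le_mul_left h1 hs
  have h4 : B ≤ A + k := Nat.le_of_mul_le_mul_left h2 hs
  omega

theorem C5b_close {s M : ℕ} (hs : 1 ≤ s) {p p' y y' : ℕ} (h : ((y : ℤ) - y').natAbs ≤ M) :
    (((p % s + s * y : ℕ) : ℤ) - ((p' % s + s * y' : ℕ) : ℤ)).natAbs ≤ (M + 1) * s := by
  have h1 : p % s < s := Nat.mod_lt _ (by omega)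
  have h2 : p' % s < s := Nat.mod_lt _ (by omega)
  have h3 : y ≤ y' + M := by omega
  have h4 : y' ≤ y + M := by omega
  have h5 : s * y ≤ s * (y' + M) := Nat.mul_le_mul_left s h3
  have h6 : s * y' ≤ s * (y + M) := Nat.mul_le_mul_left s h4
  have e1 : s * (y' + M) = s * y' + s * M := by ring
  have e2 : s * (y + M) = s * y + s * M := by ring
  have e3 : (M + 1) * s = s * M + s := by ring
  rw [e1] at h5
  rw [e2] at h6
  rw [e3]
  omega

theorem C5b_margin {r : Fin m → ℕ} {c : Fin n → ℕ} (s : ℕ) (hs : 1 ≤ s)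
    {x x' : Fin m → Fin n → ℕ} (hx : x ∈ Tb r c) (hx' : x' ∈ Tb r c) :
    ∑ i, ((((∑ a, x i a / s : ℕ) : ℤ)) - ((∑ a, x' i a / s : ℕ) : ℤ)).natAbs +
      ∑ a, ((((∑ i, x i a / s : ℕ) : ℤ)) - ((∑ i, x' i a / s : ℕ) : ℤ)).natAbs ≤ 2 * (m * n) := by
  have h1 : ∑ i, ((((∑ a, x i a / s : ℕ) : ℤ)) - ((∑ a, x' i a / s : ℕ) : ℤ)).natAbs ≤ m * n := by
    calc _ ≤ ∑ _i : Fin m, n := sum_le_sum fun i _ => C5b_row s hs (x i) (x' i)
            ((row_sum hx i).trans (row_sum hx' i).symm)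
      _ = m * n := by simp
  have h2 : ∑ a, ((((∑ i, x i a / s : ℕ) : ℤ)) - ((∑ i, x' i a / s : ℕ) : ℤ)).natAbs ≤ m * n := by
    calc _ ≤ ∑ _a : Fin n, m := sum_le_sum fun a _ => C5b_row s hs (fun i => x i a)
            (fun i => x' i a) ((col_sum hx a).trans (col_sum hx' a).symm)
      _ = m * n := by simp [mul_comm]
  omega

theorem C5b_nonempty {x : Fin m → Fin n → ℕ} (s : ℕ) :
    (Tb (fun i => (∑ a, x i a / s)) (fun a => (∑ i, x i a / s))).Nonempty :=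
  ⟨fun i a => x i a / s, mem_Tb.mpr ⟨fun _ => rfl, fun _ => rfl⟩⟩

/-- comparison of the means over two residue classes -/
theorem C5b_compare {r : Fin m → ℕ} {c : Fin n → ℕ} (s om : ℕ) (hs : 1 ≤ s)
    (hom : om = (m * n + 1) * s) {x x' : Fin m → Fin n → ℕ} (hx : x ∈ Tb r c) (hx' : x' ∈ Tb r c)
    (F G : (Fin m → Fin n → ℕ) → ℝ)
    (h : ∀ y y' : Fin m → Fin n → ℕ, (∀ p q, ((y p q : ℤ) - y' p q).natAbs ≤ om) → F y ≤ G y') :
    mean (rs r c s x) F ≤ mean (rs r c s x') G := by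
  rw [C5b_mean_residue s hs hx F, C5b_mean_residue s hs hx' G]
  refine box_mean (C5b_nonempty s) (C5b_nonempty s) (m * n) (C5b_margin s hs hx hx') _ _ ?_
  intro y _ y' _ hyy
  refine h _ _ fun p q => ?_
  rw [hom]
  exact C5b_close hs (hyy p q)

theorem C5b_mean_sub {α : Type} (S : Finset α) (F G : α → ℝ) :
    mean S (fun y => F y - G y) = mean S F - mean S G := by
  unfold mean
  rw [sum_sub_distrib, sub_div]

theorem C5b_mean_add {α : Type} (S : Finset α) (F G : α → ℝ) :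
    mean S (fun y => F y + G y) = mean S F + mean S G := by
  unfold mean
  rw [sum_add_distrib, add_div]

theorem C5b_osc {r : Fin m → ℕ} {c : Fin n → ℕ} {i k : Fin m} {a b : Fin n}
    (s0 s1 om : ℕ) (hs1 : 1 ≤ s1) (hom : om = (m * n + 1) * s1) (h2 : 2 * om ≤ s0)
    (φ : ℕ → ℝ) {x x' : Fin m → Fin n → ℕ} (hx : x ∈ Tb r c) (hx' : x' ∈ Tb r c) :
    |mean (rs r c s1 x) (Ph s0 i k a b φ) - mean (rs r c s1 x') (Ph s0 i k a b φ)| ≤
      mean (rs r c s1 x) (Xi s0 om i k a b φ) := by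
  have hom1 : 1 ≤ om := by
    rw [hom]; exact Nat.mul_pos (Nat.succ_pos _) hs1
  have hs0 : 1 ≤ s0 := by omega
  have u1 := C5b_compare s1 om hs1 hom hx hx'
    (fun y => Ph s0 i k a b φ y - Xi s0 om i k a b φ y) (Ph s0 i k a b φ) (by
      intro y y' hy
      have := (abs_le.mp (Xi_spec s0 om hs0 h2 i k a b φ y y' hy)).2
      linarith)
  have u2 := C5b_compare s1 om hs1 hom hx' hx
    (Ph s0 i k a b φ) (fun y => Ph s0 i k a b φ y + Xi s0 om i k a b φ y) (by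
      intro y y' hy
      have h3 : ∀ p q, ((y' p q : ℤ) - y p q).natAbs ≤ om := by
        intro p q
        rw [← Int.natAbs_neg, neg_sub]
        exact hy p q
      have := (abs_le.mp (Xi_spec s0 om hs0 h2 i k a b φ y' y h3)).1
      linarith)
  rw [C5b_mean_sub] at u1
  rw [C5b_mean_add] at u2
  rw [abs_le]
  constructor <;> linarith

theorem C5b_osc_mean {α : Type} (S : Finset α) (hS : S.Nonempty) (Ψ : α → ℝ) (t : ℝ) (x : ℝ)
    (h : ∀ y ∈ S, |x - Ψ y| ≤ t) : |x - mean S Ψ| ≤ t := by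
  have hc : (0 : ℝ) < S.card := by exact_mod_cast hS.card_pos
  have e : x - mean S Ψ = (∑ y ∈ S, (x - Ψ y)) / S.card := by
    unfold mean
    rw [sum_sub_distrib, sum_const, nsmul_eq_mul]
    field_simp
  rw [e, abs_div, abs_of_pos hc, div_le_iff₀ hc]
  calc |∑ y ∈ S, (x - Ψ y)| ≤ ∑ y ∈ S, |x - Ψ y| := abs_sum_le_sum_abs _ _
    _ ≤ ∑ _y ∈ S, t := sum_le_sum h
    _ = t * S.card := by rw [sum_const, nsmul_eq_mul, mul_comm]

/-- C5b -/
theorem decouple {r : Fin m → ℕ} {c : Fin n → ℕ} {i k : Fin m} {a b : Fin n} (hik : i ≠ k)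
    (hab : a ≠ b) (s0 s1 om : ℕ) (hs1 : 1 ≤ s1) (hom : om = (m * n + 1) * s1) (h2 : 2 * om ≤ s0)
    (φ : ℕ → ℝ) (f : (Fin m → Fin n → ℕ) → ℝ) (hf : ∑ x ∈ Tb r c, f x = 0) :
    ∑ x ∈ Tb r c, mean (rs r c s1 x) f * Ph s0 i k a b φ x ≤
      14 * (om / s0) * Real.sqrt (sq r c f) * Real.sqrt (∑ x ∈ Tb r c, φ (x i a) ^ 2) := by
  rcases (Tb r c).eq_empty_or_nonempty with hT | hT
  · rw [hT]
    simp only [sum_empty]
    positivity
  have hom1 : 1 ≤ om := by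
    rw [hom]; exact Nat.mul_pos (Nat.succ_pos _) hs1
  have hs0 : 1 ≤ s0 := by omega
  set Ψ : (Fin m → Fin n → ℕ) → ℝ := fun x => mean (rs r c s1 x) (Ph s0 i k a b φ) with hΨ
  set e : ℝ := mean (Tb r c) Ψ with he
  have step1 : ∑ x ∈ Tb r c, mean (rs r c s1 x) f * Ph s0 i k a b φ x =
      ∑ x ∈ Tb r c, mean (rs r c s1 x) f * (Ψ x - e) := by
    rw [C5b_sum_mul]
    simp only [mul_sub]
    rw [sum_sub_distrib, ← sum_mul, C5b_sum_mean, hf, zero_mul, sub_zero]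
  rw [step1]
  have step2 : ∑ x ∈ Tb r c, (Ψ x - e) ^ 2 ≤
      (14 * (om / s0)) ^ 2 * ∑ x ∈ Tb r c, φ (x i a) ^ 2 := by
    refine le_trans ?_ (Xi_norm hik hab s0 om hom1 h2 φ)
    refine le_trans ?_ (C5b_sq_mean r c s1 (Xi s0 om i k a b φ))
    refine sum_le_sum fun x hx => ?_
    have h3 : |Ψ x - e| ≤ mean (rs r c s1 x) (Xi s0 om i k a b φ) :=
      C5b_osc_mean (Tb r c) hT Ψ _ _ fun y hy => C5b_osc s0 s1 om hs1 hom h2 φ hx hy
    rw [← sq_abs (Ψ x - e)]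
    exact pow_le_pow_left₀ (abs_nonneg _) h3 2
  have h14 : (0 : ℝ) ≤ 14 * (om / s0) := by positivity
  calc ∑ x ∈ Tb r c, mean (rs r c s1 x) f * (Ψ x - e)
      ≤ Real.sqrt (∑ x ∈ Tb r c, mean (rs r c s1 x) f ^ 2) *
        Real.sqrt (∑ x ∈ Tb r c, (Ψ x - e) ^ 2) := Real.sum_mul_le_sqrt_mul_sqrt _ _ _
    _ ≤ Real.sqrt (sq r c f) *
        Real.sqrt ((14 * (om / s0)) ^ 2 * ∑ x ∈ Tb r c, φ (x i a) ^ 2) := by
        refine mul_le_mul (Real.sqrt_le_sqrt (C5b_sq_mean r c s1 f)) (Real.sqrt_le_sqrt step2)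
          (Real.sqrt_nonneg _) (Real.sqrt_nonneg _)
    _ = 14 * (om / s0) * Real.sqrt (sq r c f) * Real.sqrt (∑ x ∈ Tb r c, φ (x i a) ^ 2) := by
        rw [Real.sqrt_mul (sq_nonneg _), Real.sqrt_sq h14]
        ring

end Vale.Agent.P328B
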