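import Vale.Agent.Lib.P328B.Cm
import Vale.Agent.Lib.P328B.C1
import Vale.Agent.Lib.P328B.C2
import Vale.Agent.Lib.P328B.C3
import Vale.Agent.Lib.P328B.C4
import Vale.Agent.Lib.P328B.C5b

/-!
P328 (binary), module C6: the cell estimate from C1 (wall mass), C3 (fine step), C4 (unary theorem on the
residue classes) and C5 (decoupling).
-/

namespace Vale.Agent.P328B

open Finset

variable {m n : ℕ}

/-- the value of the conditional expectation given the entry `s` in the cell `(i, a)` -/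
noncomputable def C6_ph (r : Fin m → ℕ) (c : Fin n → ℕ) (i : Fin m) (a : Fin n)
    (f : (Fin m → Fin n → ℕ) → ℝ) (s : ℕ) : ℝ := mean ((Tb r c).filter (fun y => y i a = s)) f

theorem C6_gc (r : Fin m → ℕ) (c : Fin n → ℕ) (i : Fin m) (a : Fin n)
    (f : (Fin m → Fin n → ℕ) → ℝ) (x : Fin m → Fin n → ℕ) :
    gc r c i a f x = C6_ph r c i a f (x i a) := rfl

/-- `<f, g> = |g|^2` for the conditional expectation `g` -/
theorem C6_pair (r : Fin m → ℕ) (c : Fin n → ℕ) (i : Fin m) (a : Fin n)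
    (f : (Fin m → Fin n → ℕ) → ℝ) :
    ∑ x ∈ Tb r c, f x * gc r c i a f x = ∑ x ∈ Tb r c, gc r c i a f x ^ 2 := by
  have h1 := cm_mul_cm (S := Tb r c) (Cs_equiv i a) f f
  simp only [← gc_eq_cm] at h1
  have e1 : ∑ x ∈ Tb r c, f x * gc r c i a f x = ∑ x ∈ Tb r c, gc r c i a f x * f x :=
    Finset.sum_congr rfl fun x _ => mul_comm _ _
  have e2 : ∑ x ∈ Tb r c, gc r c i a f x ^ 2 =
      ∑ x ∈ Tb r c, gc r c i a f x * gc r c i a f x :=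
    Finset.sum_congr rfl fun x _ => pow_two _
  rw [e1, e2, h1]

/-- final numerical step -/
theorem C6_num (G s A B C D : ℝ) (hs : 0 ≤ s) (hG : G = s ^ 2) (hA : 0 ≤ A) (hB : 0 ≤ B)
    (hC : 0 ≤ C) (hD : 0 ≤ D) (h : G ≤ s * (A + B + C + D)) :
    G ≤ 4 * (A ^ 2 + B ^ 2 + C ^ 2 + D ^ 2) := by
  have h1 : s ≤ A + B + C + D := by
    rcases hs.eq_or_lt with h0 | h0
    · rw [← h0]; positivity
    · rw [hG, pow_two] at h
      exact le_of_mul_le_mul_left h h0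
  have h2 : G ≤ (A + B + C + D) ^ 2 := by
    rw [hG]
    exact pow_le_pow_left₀ hs h1 2
  nlinarith [sq_nonneg (A - B), sq_nonneg (A - C), sq_nonneg (A - D), sq_nonneg (B - C),
    sq_nonneg (B - D), sq_nonneg (C - D)]

/-- final numerical step with the square roots -/
theorem C6_fin (G E S η K w : ℝ) (hG : 0 ≤ G) (hE : 0 ≤ E) (hS : 0 ≤ S) (hη : 0 ≤ η) (hK : 0 ≤ K)
    (hw : 0 ≤ w) (M : ℝ) (hηle : η ≤ 8 * E + 64 * M * S)
    (h : G ≤ Real.sqrt G * (Real.sqrt (4 * K * E) + 14 * w * Real.sqrt S + 2 * Real.sqrt η +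
      2 * Real.sqrt E)) :
    G ≤ (144 + 16 * K) * E + (1024 * M + 1000 * w ^ 2) * S := by
  have hnum := C6_num G (Real.sqrt G) (Real.sqrt (4 * K * E))
    (14 * w * Real.sqrt S) (2 * Real.sqrt η) (2 * Real.sqrt E)
    (Real.sqrt_nonneg _) (Real.sq_sqrt hG).symm (Real.sqrt_nonneg _) (by positivity)
    (by positivity) (by positivity) h
  have q1 : Real.sqrt (4 * K * E) ^ 2 = 4 * K * E := Real.sq_sqrt (by positivity)
  have q2 : (14 * w * Real.sqrt S) ^ 2 = 196 * w ^ 2 * S := by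
    rw [mul_pow, Real.sq_sqrt hS]
    ring
  have q3 : (2 * Real.sqrt η) ^ 2 = 4 * η := by
    rw [mul_pow, Real.sq_sqrt hη]
    ring
  have q4 : (2 * Real.sqrt E) ^ 2 = 4 * E := by
    rw [mul_pow, Real.sq_sqrt hE]
    ring
  rw [q1, q2, q3, q4] at hnum
  have hω2 : 0 ≤ w ^ 2 * S := by positivity
  have e1 : (144 + 16 * K) * E + (1024 * M + 1000 * w ^ 2) * S =
      144 * E + 16 * (K * E) + 1024 * (M * S) + 1000 * (w ^ 2 * S) := by ring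
  have e2 : 4 * (4 * K * E + 196 * w ^ 2 * S + 4 * η + 4 * E) =
      16 * (K * E) + 784 * (w ^ 2 * S) + 16 * η + 16 * E := by ring
  have e3 : 64 * M * S = 64 * (M * S) := by ring
  rw [e1]
  rw [e2] at hnum
  rw [e3] at hηle
  linarith

/-- four wall cells -/
theorem C6_wall4 (T : Finset (Fin m → Fin n → ℕ)) (i k : Fin m) (a b : Fin n) (t : ℕ)
    (f : (Fin m → Fin n → ℕ) → ℝ) :
    ∑ x ∈ T.filter (fun x => x i a < t ∨ x i b < t ∨ x k a < t ∨ x k b < t), f x ^ 2 ≤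
      ∑ x ∈ T.filter (fun x => x i a < t), f x ^ 2 +
      ∑ x ∈ T.filter (fun x => x i b < t), f x ^ 2 +
      ∑ x ∈ T.filter (fun x => x k a < t), f x ^ 2 +
      ∑ x ∈ T.filter (fun x => x k b < t), f x ^ 2 := by
  rw [Finset.sum_filter, Finset.sum_filter, Finset.sum_filter, Finset.sum_filter,
    Finset.sum_filter, ← Finset.sum_add_distrib, ← Finset.sum_add_distrib,
    ← Finset.sum_add_distrib]
  refine Finset.sum_le_sum fun x _ => ?_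
  have hx : 0 ≤ f x ^ 2 := sq_nonneg _
  by_cases h1 : x i a < t
  · have h0 : x i a < t ∨ x i b < t ∨ x k a < t ∨ x k b < t := Or.inl h1
    rw [if_pos h0, if_pos h1]
    have a2 : 0 ≤ if x i b < t then f x ^ 2 else 0 := by split_ifs <;> simp [hx]
    have a3 : 0 ≤ if x k a < t then f x ^ 2 else 0 := by split_ifs <;> simp [hx]
    have a4 : 0 ≤ if x k b < t then f x ^ 2 else 0 := by split_ifs <;> simp [hx]
    linarith
  · rw [if_neg h1]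
    by_cases h2 : x i b < t
    · have h0 : x i a < t ∨ x i b < t ∨ x k a < t ∨ x k b < t := Or.inr (Or.inl h2)
      rw [if_pos h0, if_pos h2]
      have a3 : 0 ≤ if x k a < t then f x ^ 2 else 0 := by split_ifs <;> simp [hx]
      have a4 : 0 ≤ if x k b < t then f x ^ 2 else 0 := by split_ifs <;> simp [hx]
      linarith
    · rw [if_neg h2]
      by_cases h3 : x k a < t
      · have h0 : x i a < t ∨ x i b < t ∨ x k a < t ∨ x k b < t := Or.inr (Or.inr (Or.inl h3))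
        rw [if_pos h0, if_pos h3]
        have a4 : 0 ≤ if x k b < t then f x ^ 2 else 0 := by split_ifs <;> simp [hx]
        linarith
      · rw [if_neg h3]
        by_cases h4 : x k b < t
        · have h0 : x i a < t ∨ x i b < t ∨ x k a < t ∨ x k b < t :=
            Or.inr (Or.inr (Or.inr h4))
          rw [if_pos h0, if_pos h4]
          linarith
        · have h0 : ¬ (x i a < t ∨ x i b < t ∨ x k a < t ∨ x k b < t) := by
            rintro (h | h | h | h)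
            · exact h1 h
            · exact h2 h
            · exact h3 h
            · exact h4 h
          rw [if_neg h0, if_neg h4]
          linarith

/-- C6 from the statements of the modules it uses (abstract part) -/
theorem C6_abs {r : Fin m → ℕ} {c : Fin n → ℕ} {i k : Fin m} {a b : Fin n} (s0 s1 : ℕ)
    (f : (Fin m → Fin n → ℕ) → ℝ) (K w M : ℝ) (hK0 : 0 ≤ K) (hw : 0 ≤ w)
    (h_wall : ∑ x ∈ (Tb r c).filter
        (fun x => x i a < 4 * s0 ∨ x i b < 4 * s0 ∨ x k a < 4 * s0 ∨ x k b < 4 * s0), f x ^ 2 ≤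
      8 * En r c f + 64 * M * sq r c f)
    (h_fine : ∀ (φ : ℕ → ℝ),
      ∑ x ∈ Tb r c, f x * φ (x i a) ≤ ∑ x ∈ Tb r c, f x * Ph s0 i k a b φ x +
        Real.sqrt (∑ x ∈ Tb r c, φ (x i a) ^ 2) *
        (2 * Real.sqrt (∑ x ∈ (Tb r c).filter
            (fun x => x i a < 4 * s0 ∨ x i b < 4 * s0 ∨ x k a < 4 * s0 ∨ x k b < 4 * s0), f x ^ 2) +
          2 * Real.sqrt (En r c f)))
    (h_Ph : ∀ (φ : ℕ → ℝ),
      ∑ x ∈ Tb r c, Ph s0 i k a b φ x ^ 2 ≤ ∑ x ∈ Tb r c, φ (x i a) ^ 2)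
    (h_res : ∑ x ∈ Tb r c, (f x - mean (rs r c s1 x) f) ^ 2 ≤ 4 * K * En r c f)
    (h_dec : ∀ (φ : ℕ → ℝ),
      ∑ x ∈ Tb r c, mean (rs r c s1 x) f * Ph s0 i k a b φ x ≤
        14 * w * Real.sqrt (sq r c f) * Real.sqrt (∑ x ∈ Tb r c, φ (x i a) ^ 2)) :
    ∑ x ∈ Tb r c, gc r c i a f x ^ 2 ≤ (144 + 16 * K) * En r c f +
      (1024 * M + 1000 * w ^ 2) * sq r c f := by
  obtain ⟨φ, hφ⟩ : ∃ φ : ℕ → ℝ, ∀ x, gc r c i a f x = φ (x i a) :=
    ⟨C6_ph r c i a f, C6_gc r c i a f⟩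
  obtain ⟨G, hG⟩ : ∃ G : ℝ, ∑ x ∈ Tb r c, φ (x i a) ^ 2 = G := ⟨_, rfl⟩
  obtain ⟨η, hη⟩ : ∃ η : ℝ, ∑ x ∈ (Tb r c).filter
      (fun x => x i a < 4 * s0 ∨ x i b < 4 * s0 ∨ x k a < 4 * s0 ∨ x k b < 4 * s0),
      f x ^ 2 = η := ⟨_, rfl⟩
  have hG0 : 0 ≤ G := by rw [← hG]; exact Finset.sum_nonneg fun _ _ => sq_nonneg _
  have hη0 : 0 ≤ η := by rw [← hη]; exact Finset.sum_nonneg fun _ _ => sq_nonneg _
  have hgc : ∑ x ∈ Tb r c, gc r c i a f x ^ 2 = G := by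
    rw [← hG]
    exact Finset.sum_congr rfl fun x _ => by rw [hφ x]
  have hGf : ∑ x ∈ Tb r c, f x * φ (x i a) = G := by
    rw [← hgc, ← C6_pair r c i a f]
    exact Finset.sum_congr rfl fun x _ => by rw [hφ x]
  have hfine := h_fine φ
  have hPh := h_Ph φ
  have hdec := h_dec φ
  rw [hη] at h_wall
  rw [hη, hG, hGf] at hfine
  rw [hG] at hPh hdec
  have hcs : ∑ x ∈ Tb r c, (f x - mean (rs r c s1 x) f) * Ph s0 i k a b φ x ≤
      Real.sqrt (4 * K * En r c f) * Real.sqrt G := by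
    have h1 := Real.sum_mul_le_sqrt_mul_sqrt (Tb r c) (fun x => f x - mean (rs r c s1 x) f)
      (fun x => Ph s0 i k a b φ x)
    refine h1.trans ?_
    exact mul_le_mul (Real.sqrt_le_sqrt h_res) (Real.sqrt_le_sqrt hPh) (Real.sqrt_nonneg _)
      (Real.sqrt_nonneg _)
  have hsplit : ∑ x ∈ Tb r c, f x * Ph s0 i k a b φ x =
      ∑ x ∈ Tb r c, (f x - mean (rs r c s1 x) f) * Ph s0 i k a b φ x +
      ∑ x ∈ Tb r c, mean (rs r c s1 x) f * Ph s0 i k a b φ x := by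
    rw [← Finset.sum_add_distrib]
    exact Finset.sum_congr rfl fun x _ => by ring
  rw [hsplit] at hfine
  have hmain : G ≤ Real.sqrt G * (Real.sqrt (4 * K * En r c f) +
      14 * w * Real.sqrt (sq r c f) + 2 * Real.sqrt η + 2 * Real.sqrt (En r c f)) := by
    have e1 : Real.sqrt G * (Real.sqrt (4 * K * En r c f) +
        14 * w * Real.sqrt (sq r c f) + 2 * Real.sqrt η + 2 * Real.sqrt (En r c f)) =
        Real.sqrt (4 * K * En r c f) * Real.sqrt G +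
        14 * w * Real.sqrt (sq r c f) * Real.sqrt G +
        Real.sqrt G * (2 * Real.sqrt η + 2 * Real.sqrt (En r c f)) := by ring
    rw [e1]
    linarith
  rw [hgc]
  exact C6_fin G (En r c f) (sq r c f) η K w hG0 (En_nonneg r c f) (sq_nonneg' r c f) hη0 hK0 hw M
    h_wall hmain

/-- the wall mass of the four cells of a block -/
theorem C6_wall {r : Fin m → ℕ} {c : Fin n → ℕ} {i k : Fin m} {a b : Fin n} (ρ s0 : ℕ)
    (hρ0 : 0 < ρ) (hρ : 8 * s0 ≤ ρ) (hi : ρ ≤ r i) (hk : ρ ≤ r k) (ha : ρ ≤ c a) (hb : ρ ≤ c b)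
    (f : (Fin m → Fin n → ℕ) → ℝ) :
    ∑ x ∈ (Tb r c).filter
        (fun x => x i a < 4 * s0 ∨ x i b < 4 * s0 ∨ x k a < 4 * s0 ∨ x k b < 4 * s0), f x ^ 2 ≤
      8 * En r c f + 64 * ((m : ℝ) ^ 2 * (n : ℝ) ^ 2 * (s0 / ρ)) * sq r c f := by
  have w1 := wall_mass i a ρ (4 * s0) hρ0 hi ha (by omega) f
  have w2 := wall_mass i b ρ (4 * s0) hρ0 hi hb (by omega) f
  have w3 := wall_mass k a ρ (4 * s0) hρ0 hk ha (by omega) f
  have w4 := wall_mass k b ρ (4 * s0) hρ0 hk hb (by omega) f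
  have hle := C6_wall4 (Tb r c) i k a b (4 * s0) f
  have hcast : 4 * (m : ℝ) ^ 2 * (n : ℝ) ^ 2 * (((4 * s0 : ℕ) : ℝ) / ρ) * sq r c f =
      16 * ((m : ℝ) ^ 2 * (n : ℝ) ^ 2 * ((s0 : ℝ) / ρ) * sq r c f) := by
    push_cast
    ring
  have e1 : 64 * ((m : ℝ) ^ 2 * (n : ℝ) ^ 2 * ((s0 : ℝ) / ρ)) * sq r c f =
      64 * ((m : ℝ) ^ 2 * (n : ℝ) ^ 2 * ((s0 : ℝ) / ρ) * sq r c f) := by ring
  rw [hcast] at w1 w2 w3 w4
  rw [e1]
  linarith

theorem C6_residue (κ : ℕ → ℝ) (hκ : Monotone κ) (hκ0 : ∀ N, 0 ≤ κ N) (hU : Unary m n κ)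
    {r : Fin m → ℕ} {c : Fin n → ℕ} (s : ℕ) (hs : 1 ≤ s) (f : (Fin m → Fin n → ℕ) → ℝ) :
    ∑ x ∈ Tb r c, (f x - mean (rs r c s x) f) ^ 2 ≤ 4 * κ ((∑ i, r i) / s) * En r c f :=
  C4_poincare κ hκ hκ0 hU s hs f fun hik hab => trans_energy hik hab s f

/-- C6 with the decoupling estimate as an input -/
theorem C6_of (κ : ℕ → ℝ) (hκ : Monotone κ) (hκ0 : ∀ N, 0 ≤ κ N) (hU : Unary m n κ)
    {r : Fin m → ℕ} {c : Fin n → ℕ} {i k : Fin m} {a b : Fin n} (hik : i ≠ k)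
    (hab : a ≠ b) (ρ s0 s1 om : ℕ) (hs1 : 1 ≤ s1) (hom : om = (m * n + 1) * s1) (h2 : 2 * om ≤ s0)
    (hρ : 8 * s0 ≤ ρ) (hi : ρ ≤ r i) (hk : ρ ≤ r k) (ha : ρ ≤ c a) (hb : ρ ≤ c b)
    (f : (Fin m → Fin n → ℕ) → ℝ)
    (h_dec : ∀ (φ : ℕ → ℝ),
      ∑ x ∈ Tb r c, mean (rs r c s1 x) f * Ph s0 i k a b φ x ≤
        14 * (om / s0) * Real.sqrt (sq r c f) * Real.sqrt (∑ x ∈ Tb r c, φ (x i a) ^ 2)) :
    ∑ x ∈ Tb r c, gc r c i a f x ^ 2 ≤ (144 + 16 * κ ((∑ i, r i) / s1)) * En r c f +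
      (1024 * (m : ℝ) ^ 2 * (n : ℝ) ^ 2 * (s0 / ρ) + 1000 * (om / s0) ^ 2) * sq r c f := by
  have hom1 : 1 ≤ om := by
    rw [hom]
    exact Nat.one_le_iff_ne_zero.mpr (by positivity)
  have hs0 : 1 ≤ s0 := by omega
  have hρ0 : 0 < ρ := by omega
  have h := C6_abs (r := r) (c := c) (i := i) (k := k) (a := a) (b := b) s0 s1 f
    (κ ((∑ i, r i) / s1)) ((om : ℝ) / s0) ((m : ℝ) ^ 2 * (n : ℝ) ^ 2 * ((s0 : ℝ) / ρ))
    (hκ0 _) (by positivity) (C6_wall ρ s0 hρ0 hρ hi hk ha hb f)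
    (fine_step hik hab s0 hs0 f) (Ph_norm hik hab s0 hs0)
    (C6_residue κ hκ hκ0 hU s1 hs1 f) h_dec
  have e1 : 1024 * ((m : ℝ) ^ 2 * (n : ℝ) ^ 2 * ((s0 : ℝ) / ρ)) =
      1024 * (m : ℝ) ^ 2 * (n : ℝ) ^ 2 * ((s0 : ℝ) / ρ) := by ring
  rw [e1] at h
  exact h

/-- the cell estimate -/
theorem cell (κ : ℕ → ℝ) (hκ : Monotone κ) (hκ0 : ∀ N, 0 ≤ κ N) (hU : Unary m n κ)
    {r : Fin m → ℕ} {c : Fin n → ℕ} {i k : Fin m} {a b : Fin n} (hik : i ≠ k)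
    (hab : a ≠ b) (ρ s0 s1 om : ℕ) (hs1 : 1 ≤ s1) (hom : om = (m * n + 1) * s1) (h2 : 2 * om ≤ s0)
    (hρ : 8 * s0 ≤ ρ) (hi : ρ ≤ r i) (hk : ρ ≤ r k) (ha : ρ ≤ c a) (hb : ρ ≤ c b)
    (f : (Fin m → Fin n → ℕ) → ℝ) (hf : ∑ x ∈ Tb r c, f x = 0) :
    ∑ x ∈ Tb r c, gc r c i a f x ^ 2 ≤ (144 + 16 * κ ((∑ i, r i) / s1)) * En r c f +
      (1024 * (m : ℝ) ^ 2 * (n : ℝ) ^ 2 * (s0 / ρ) + 1000 * (om / s0) ^ 2) * sq r c f :=
  C6_of κ hκ hκ0 hU hik hab ρ s0 s1 om hs1 hom h2 hρ hi hk ha hb f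
    fun φ => decouple hik hab s0 s1 om hs1 hom h2 φ f hf

end Vale.Agent.P328B
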