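import Vale.Agent.Lib.P328B.Defs

/-!
P328 BINARY : averaging over the classes of an equivalence relation inside a finite set.
`lm`, `gc`, `fun x => mean (rs r c s x) f` are instances (`lm_eq_cm`, `gc_eq_cm`, `rs_eq_cm`).
-/

namespace Vale.Agent.P328B

open Finset

section cm

variable {α : Type} {S : Finset α} {R : α → α → Prop} [DecidableRel R]

/-- mean over the class of `x` inside `S` -/
noncomputable def cm (S : Finset α) (R : α → α → Prop) [DecidableRel R] (f : α → ℝ) (x : α) : ℝ :=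
  mean (S.filter (fun y => R x y)) f

theorem mean_const_of {S : Finset α} (h : S.Nonempty) (f : α → ℝ) (t : ℝ) (hf : ∀ x ∈ S, f x = t) :
    mean S f = t := by
  have hc : (0 : ℝ) < S.card := by exact_mod_cast h.card_pos
  unfold mean
  rw [sum_congr rfl hf, sum_const, nsmul_eq_mul]
  field_simp

theorem mean_congr {S : Finset α} {f g : α → ℝ} (h : ∀ x ∈ S, f x = g x) : mean S f = mean S g := by
  unfold mean; rw [sum_congr rfl h]

theorem mean_le_mean {S : Finset α} {f g : α → ℝ} (h : ∀ x ∈ S, f x ≤ g x) : mean S f ≤ mean S g := by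
  unfold mean
  exact div_le_div_of_nonneg_right (sum_le_sum h) (Nat.cast_nonneg _)

theorem card_mul_mean (S : Finset α) (f : α → ℝ) : (S.card : ℝ) * mean S f = ∑ x ∈ S, f x := by
  rcases S.eq_empty_or_nonempty with rfl | h
  · simp
  · have hc : (0 : ℝ) < S.card := by exact_mod_cast h.card_pos
    unfold mean
    field_simp

/-- Cauchy-Schwarz for the mean -/
theorem card_mul_mean_sq_le (S : Finset α) (f : α → ℝ) :
    (S.card : ℝ) * mean S f ^ 2 ≤ ∑ x ∈ S, f x ^ 2 := by
  rw [sum_sq_eq S f]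
  have : 0 ≤ ∑ x ∈ S, (f x - mean S f) ^ 2 := sum_nonneg fun _ _ => sq_nonneg _
  linarith

theorem mean_sq_le (S : Finset α) (f : α → ℝ) : mean S f ^ 2 ≤ mean S (fun x => f x ^ 2) := by
  rcases S.eq_empty_or_nonempty with rfl | h
  · simp [mean]
  · have hc : (0 : ℝ) < S.card := by exact_mod_cast h.card_pos
    have := card_mul_mean_sq_le S f
    unfold mean at this ⊢
    rw [le_div_iff₀ hc]
    linarith

theorem abs_mean_le (S : Finset α) (f : α → ℝ) : |mean S f| ≤ mean S (fun x => |f x|) := by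
  unfold mean
  rw [abs_div, abs_of_nonneg (Nat.cast_nonneg (S.card) : (0 : ℝ) ≤ (S.card : ℝ))]
  exact div_le_div_of_nonneg_right (abs_sum_le_sum_abs _ _) (Nat.cast_nonneg _)

theorem mean_sub (S : Finset α) (f g : α → ℝ) :
    mean S (fun x => f x - g x) = mean S f - mean S g := by
  unfold mean; rw [sum_sub_distrib, sub_div]

theorem mean_add (S : Finset α) (f g : α → ℝ) :
    mean S (fun x => f x + g x) = mean S f + mean S g := by
  unfold mean; rw [sum_add_distrib, add_div]

theorem mean_sub_const {S : Finset α} (h : S.Nonempty) (f : α → ℝ) (t : ℝ) :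
    mean S (fun x => f x - t) = mean S f - t := by
  rw [mean_sub, mean_const_of h (fun _ => t) t (fun _ _ => rfl)]

theorem filter_eq_of (hR : Equivalence R) {x y : α} (h : R x y) :
    S.filter (fun z => R x z) = S.filter (fun z => R y z) := by
  ext z
  simp only [mem_filter, and_congr_right_iff]
  intro _
  exact ⟨fun h' => hR.trans (hR.symm h) h', fun h' => hR.trans h h'⟩

theorem cm_const (hR : Equivalence R) (f : α → ℝ) {x y : α} (h : R x y) :
    cm S R f x = cm S R f y := by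
  unfold cm; rw [filter_eq_of hR h]

theorem class_nonempty (hR : Equivalence R) {x : α} (hx : x ∈ S) :
    (S.filter (fun z => R x z)).Nonempty := ⟨x, mem_filter.mpr ⟨hx, hR.refl x⟩⟩

theorem cm_of_const (hR : Equivalence R) {f : α → ℝ} {x : α} (hx : x ∈ S)
    (h : ∀ y ∈ S, R x y → f y = f x) : cm S R f x = f x :=
  mean_const_of (class_nonempty hR hx) f (f x) (fun y hy => h y (mem_filter.mp hy).1 (mem_filter.mp hy).2)

theorem cm_idem (hR : Equivalence R) (f : α → ℝ) {x : α} (hx : x ∈ S) :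
    cm S R (cm S R f) x = cm S R f x :=
  cm_of_const hR hx (fun _ _ h => (cm_const hR f h).symm)

/-- symmetry of the averaging operator -/
theorem cm_sym (hR : Equivalence R) (f g : α → ℝ) :
    ∑ x ∈ S, cm S R f x * g x = ∑ x ∈ S, f x * cm S R g x := by
  have e : ∀ f g : α → ℝ, ∑ x ∈ S, cm S R f x * g x = ∑ x ∈ S, ∑ y ∈ S,
      (if R x y then f y * g x / ((S.filter (fun z => R x z)).card : ℝ) else 0) := by
    intro f g
    apply sum_congr rfl
    intro x _
    unfold cm mean
    rw [← sum_filter, div_mul_eq_mul_div, sum_mul, sum_div]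
  rw [e f g]
  have e2 : ∑ x ∈ S, f x * cm S R g x = ∑ x ∈ S, cm S R g x * f x :=
    sum_congr rfl fun _ _ => mul_comm _ _
  rw [e2, e g f, sum_comm]
  apply sum_congr rfl
  intro x _
  apply sum_congr rfl
  intro y _
  by_cases h : R y x
  · rw [if_pos h, if_pos (hR.symm h), filter_eq_of hR h, mul_comm]
  · rw [if_neg h, if_neg (fun h' => h (hR.symm h'))]

theorem cm_mul_cm (hR : Equivalence R) (f g : α → ℝ) :
    ∑ x ∈ S, cm S R f x * cm S R g x = ∑ x ∈ S, cm S R f x * g x := by
  rw [← cm_sym hR (cm S R f) g]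
  apply sum_congr rfl
  intro x hx
  rw [cm_idem hR f hx]

theorem sum_cm (hR : Equivalence R) (f : α → ℝ) : ∑ x ∈ S, cm S R f x = ∑ x ∈ S, f x := by
  have := cm_sym (S := S) hR f (fun _ => 1)
  simp only [mul_one] at this
  rw [this]
  apply sum_congr rfl
  intro x hx
  rw [cm_of_const (f := fun _ => (1 : ℝ)) hR hx (fun _ _ _ => rfl), mul_one]

/-- Pythagoras -/
theorem cm_pyth (hR : Equivalence R) (f : α → ℝ) :
    ∑ x ∈ S, (f x - cm S R f x) ^ 2 + ∑ x ∈ S, cm S R f x ^ 2 = ∑ x ∈ S, f x ^ 2 := by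
  have h := cm_mul_cm (S := S) hR f f
  have e : ∀ x ∈ S, (f x - cm S R f x) ^ 2 = f x ^ 2 - 2 * (cm S R f x * f x) +
      cm S R f x * cm S R f x := by intro x _; ring
  rw [sum_congr rfl e, sum_add_distrib, sum_sub_distrib, ← mul_sum, h]
  have e2 : ∑ x ∈ S, cm S R f x ^ 2 = ∑ x ∈ S, cm S R f x * cm S R f x :=
    sum_congr rfl fun _ _ => by ring
  rw [e2, h]
  ring

theorem cm_norm (hR : Equivalence R) (f : α → ℝ) :
    ∑ x ∈ S, cm S R f x ^ 2 ≤ ∑ x ∈ S, f x ^ 2 := by
  have h := cm_pyth (S := S) hR f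
  have : 0 ≤ ∑ x ∈ S, (f x - cm S R f x) ^ 2 := sum_nonneg fun _ _ => sq_nonneg _
  linarith

end cm

variable {m n : ℕ}

theorem Off_equiv (i k : Fin m) (a b : Fin n) : Equivalence (Off i k a b) where
  refl := fun _ _ _ _ => rfl
  symm := fun h p q hpq => (h p q hpq).symm
  trans := fun h h' p q hpq => (h p q hpq).trans (h' p q hpq)

theorem lm_eq_cm (r : Fin m → ℕ) (c : Fin n → ℕ) (i k : Fin m) (a b : Fin n)
    (f : (Fin m → Fin n → ℕ) → ℝ) : lm r c i k a b f = cm (Tb r c) (Off i k a b) f := rfl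

/-- same residues modulo `s` -/
def Rs (s : ℕ) (x y : Fin m → Fin n → ℕ) : Prop := ∀ i a, y i a % s = x i a % s

instance (s : ℕ) : DecidableRel (Rs (m := m) (n := n) s) := by
  intro x y; unfold Rs; infer_instance

theorem Rs_equiv (s : ℕ) : Equivalence (Rs (m := m) (n := n) s) where
  refl := fun _ _ _ => rfl
  symm := fun h i a => (h i a).symm
  trans := fun h h' i a => (h' i a).trans (h i a)

theorem rs_eq (r : Fin m → ℕ) (c : Fin n → ℕ) (s : ℕ) (x : Fin m → Fin n → ℕ) :
    rs r c s x = (Tb r c).filter (fun y => Rs s x y) := rfl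

theorem rs_eq_cm (r : Fin m → ℕ) (c : Fin n → ℕ) (s : ℕ) (f : (Fin m → Fin n → ℕ) → ℝ)
    (x : Fin m → Fin n → ℕ) : mean (rs r c s x) f = cm (Tb r c) (Rs s) f x := rfl

/-- same entry in the cell `(i, a)` -/
def Cs (i : Fin m) (a : Fin n) (x y : Fin m → Fin n → ℕ) : Prop := y i a = x i a

instance (i : Fin m) (a : Fin n) : DecidableRel (Cs i a) := by
  intro x y; unfold Cs; infer_instance

theorem Cs_equiv (i : Fin m) (a : Fin n) : Equivalence (Cs i a) where
  refl := fun _ => rfl
  symm := fun h => h.symm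
  trans := fun h h' => h'.trans h

theorem gc_eq_cm (r : Fin m → ℕ) (c : Fin n → ℕ) (i : Fin m) (a : Fin n)
    (f : (Fin m → Fin n → ℕ) → ℝ) : gc r c i a f = cm (Tb r c) (Cs i a) f := rfl

theorem gc_norm (r : Fin m → ℕ) (c : Fin n → ℕ) (i : Fin m) (a : Fin n)
    (f : (Fin m → Fin n → ℕ) → ℝ) : ∑ x ∈ Tb r c, gc r c i a f x ^ 2 ≤ sq r c f :=
  cm_norm (Cs_equiv i a) f

end Vale.Agent.P328B
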