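import Vale.Agent.Lib.P328B.Defs

/-!
P328 binary, module LOC2: the average of the logarithmic weights over the units of a table.
-/

namespace Vale.Agent.P328B

open Finset

variable {m n : ℕ}

theorem Loc2_log_le (N l : ℕ) (hl : l ≤ N) :
    Real.log (((N - l : ℕ) : ℝ) + 1) ≤ Real.log ((N : ℝ) + 1) - (l : ℝ) / ((N : ℝ) + 1) := by
  have hT : (0 : ℝ) < (N : ℝ) + 1 := by positivity
  have hc : (((N - l : ℕ) : ℝ) + 1) = (N : ℝ) + 1 - l := by
    rw [Nat.cast_sub hl]; ring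
  have hpos : (0 : ℝ) < (N : ℝ) + 1 - l := by
    rw [← hc]; positivity
  rw [hc]
  have h1 : Real.log (((N : ℝ) + 1 - l) / ((N : ℝ) + 1)) ≤ ((N : ℝ) + 1 - l) / ((N : ℝ) + 1) - 1 :=
    Real.log_le_sub_one_of_pos (div_pos hpos hT)
  rw [Real.log_div hpos.ne' hT.ne'] at h1
  have h2 : ((N : ℝ) + 1 - l) / ((N : ℝ) + 1) - 1 = -((l : ℝ) / ((N : ℝ) + 1)) := by
    field_simp; ring
  rw [h2] at h1
  linarith

theorem Loc2_sum_id (k : ℕ) : ∑ l ∈ Icc 1 k, (l : ℝ) = (k : ℝ) * ((k : ℝ) + 1) / 2 := by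
  induction k with
  | zero => simp
  | succ k ih =>
    rw [Finset.sum_Icc_succ_top (by omega), ih]
    push_cast
    ring

theorem log_units {r : Fin m → ℕ} {c : Fin n → ℕ} {x : Fin m → Fin n → ℕ} (hx : x ∈ Tb r c)
    (N : ℕ) (hN : ∑ i, r i = N) (hN1 : 1 ≤ N) (A : ℝ) (hA : 0 ≤ A) :
    ∑ i : Fin m, ∑ a : Fin n, ∑ l ∈ Icc 1 (x i a), A * (1 + Real.log (((N - l : ℕ) : ℝ) + 1)) ≤
      N * (A * (1 + Real.log ((N : ℝ) + 1)) - A / (2 * m * n)) := by
  have hT : (0 : ℝ) < (N : ℝ) + 1 := by positivity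
  have hxN : ∀ i a, x i a ≤ N := by
    intro i a
    refine (le_row hx i a).trans ?_
    rw [← hN]
    exact single_le_sum (f := fun i => r i) (fun _ _ => Nat.zero_le _) (mem_univ i)
  have hsum : ∑ i : Fin m, ∑ a : Fin n, (x i a : ℝ) = N := by
    rw [← hN]
    push_cast
    refine sum_congr rfl fun i _ => ?_
    rw [← row_sum hx i]
    push_cast
    rfl
  -- dimensions are positive
  have hm : 0 < m := by
    rcases Nat.eq_zero_or_pos m with h | h
    · subst h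
      simp at hN
      omega
    · exact h
  have hn : 0 < n := by
    rcases Nat.eq_zero_or_pos n with h | h
    · subst h
      have h0 : ∑ i : Fin m, ∑ a : Fin 0, (x i a : ℝ) = 0 := by simp
      rw [h0] at hsum
      have : (1 : ℝ) ≤ N := by exact_mod_cast hN1
      linarith
    · exact h
  have hm' : (1 : ℝ) ≤ m := by exact_mod_cast hm
  have hn' : (1 : ℝ) ≤ n := by exact_mod_cast hn
  -- one cell
  have hcell : ∀ i a, ∑ l ∈ Icc 1 (x i a), A * (1 + Real.log (((N - l : ℕ) : ℝ) + 1)) ≤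
      (x i a : ℝ) * (A * (1 + Real.log ((N : ℝ) + 1))) -
        A / ((N : ℝ) + 1) * ((x i a : ℝ) * ((x i a : ℝ) + 1) / 2) := by
    intro i a
    have h1 : ∑ l ∈ Icc 1 (x i a), A * (1 + Real.log (((N - l : ℕ) : ℝ) + 1)) ≤
        ∑ l ∈ Icc 1 (x i a), (A * (1 + Real.log ((N : ℝ) + 1)) - A / ((N : ℝ) + 1) * (l : ℝ)) := by
      refine sum_le_sum fun l hl => ?_
      have hl2 := (mem_Icc.mp hl).2
      have h2 := Loc2_log_le N l (hl2.trans (hxN i a))
      have h3 : A * (1 + Real.log (((N - l : ℕ) : ℝ) + 1)) ≤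
          A * (1 + (Real.log ((N : ℝ) + 1) - (l : ℝ) / ((N : ℝ) + 1))) :=
        mul_le_mul_of_nonneg_left (by linarith) hA
      refine h3.trans (le_of_eq ?_)
      ring
    refine h1.trans (le_of_eq ?_)
    rw [sum_sub_distrib, sum_const, nsmul_eq_mul, Nat.card_Icc, ← mul_sum, Loc2_sum_id]
    simp
  have htot : ∑ i : Fin m, ∑ a : Fin n,
      ∑ l ∈ Icc 1 (x i a), A * (1 + Real.log (((N - l : ℕ) : ℝ) + 1)) ≤
      (N : ℝ) * (A * (1 + Real.log ((N : ℝ) + 1))) -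
        A / ((N : ℝ) + 1) / 2 * ((∑ i : Fin m, ∑ a : Fin n, (x i a : ℝ) ^ 2) + N) := by
    refine (sum_le_sum fun i _ => sum_le_sum fun a _ => hcell i a).trans (le_of_eq ?_)
    have e : ∀ i a, (x i a : ℝ) * (A * (1 + Real.log ((N : ℝ) + 1))) -
        A / ((N : ℝ) + 1) * ((x i a : ℝ) * ((x i a : ℝ) + 1) / 2) =
        (A * (1 + Real.log ((N : ℝ) + 1)) - A / ((N : ℝ) + 1) / 2) * (x i a : ℝ) -
          A / ((N : ℝ) + 1) / 2 * (x i a : ℝ) ^ 2 := by
      intro i a; ring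
    simp_rw [e, sum_sub_distrib, ← mul_sum]
    rw [hsum]
    ring
  -- Cauchy-Schwarz
  have hcs : (N : ℝ) ^ 2 ≤ (m : ℝ) * n * ∑ i : Fin m, ∑ a : Fin n, (x i a : ℝ) ^ 2 := by
    have h := sq_sum_le_card_mul_sum_sq (s := (univ : Finset (Fin m × Fin n)))
      (f := fun p => (x p.1 p.2 : ℝ))
    rw [Fintype.sum_prod_type, Fintype.sum_prod_type, hsum] at h
    simpa [Finset.card_univ] using h
  refine htot.trans ?_
  have key : A / (2 * m * n) * N ≤
      A / ((N : ℝ) + 1) / 2 * ((∑ i : Fin m, ∑ a : Fin n, (x i a : ℝ) ^ 2) + N) := by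
    set S := ∑ i : Fin m, ∑ a : Fin n, (x i a : ℝ) ^ 2
    have hmn : (1 : ℝ) ≤ (m : ℝ) * n := by nlinarith
    have e1 : A / (2 * m * n) * N = A * (N / (2 * (m * n))) := by
      field_simp
    have e2 : A / ((N : ℝ) + 1) / 2 * (S + N) = A * ((S + N) / (2 * ((N : ℝ) + 1))) := by
      field_simp
    rw [e1, e2]
    refine mul_le_mul_of_nonneg_left ?_ hA
    rw [div_le_div_iff₀ (by positivity) (by positivity)]
    have hN0 : (0 : ℝ) ≤ N := by positivity
    nlinarith [mul_nonneg hN0 (sub_nonneg.mpr hmn)]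
  have : (N : ℝ) * (A * (1 + Real.log ((N : ℝ) + 1)) - A / (2 * m * n)) =
      (N : ℝ) * (A * (1 + Real.log ((N : ℝ) + 1))) - A / (2 * m * n) * N := by ring
  rw [this]
  linarith

end Vale.Agent.P328B
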