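import Vale.Agent.Lib.P328B.Loc0

/-!
P328 BINARY, module LOC3: Jensen's inequality for the units.
-/

namespace Vale.Agent.P328B

open Finset

variable {m n : ℕ}

/-- averaging over the level sets of `k` does not change sums over unions of level sets -/
theorem loc3_avg {α : Type} (S : Finset α) (k : α → ℕ) (P : ℕ → Prop) [DecidablePred P]
    (f : α → ℝ) : ∑ x ∈ S.filter (fun x => P (k x)), f x =
      ∑ x ∈ S.filter (fun x => P (k x)), mean (S.filter (fun y => k y = k x)) f := by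
  classical
  have hm : ∀ x ∈ S.filter (fun x => P (k x)), k x ∈ (S.filter (fun x => P (k x))).image k :=
    fun x hx => mem_image_of_mem k hx
  rw [← sum_fiberwise_of_maps_to hm f,
    ← sum_fiberwise_of_maps_to hm (fun x => mean (S.filter (fun y => k y = k x)) f)]
  apply sum_congr rfl
  intro v hv
  obtain ⟨x0, hx0, rfl⟩ := mem_image.1 hv
  have hP : P (k x0) := (mem_filter.1 hx0).2
  have e : (S.filter (fun x => P (k x))).filter (fun x => k x = k x0)
      = S.filter (fun y => k y = k x0) := by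
    ext y
    simp only [mem_filter]
    constructor
    · rintro ⟨⟨h1, _⟩, h2⟩; exact ⟨h1, h2⟩
    · rintro ⟨h1, h2⟩; exact ⟨⟨h1, by rw [h2]; exact hP⟩, h2⟩
  rw [e]
  have e2 : ∀ x ∈ S.filter (fun y => k y = k x0), mean (S.filter (fun y => k y = k x)) f
      = mean (S.filter (fun y => k y = k x0)) f := by
    intro x hx
    rw [(mem_filter.1 hx).2]
  rw [sum_congr rfl e2, sum_const, nsmul_eq_mul]
  have hc : ((S.filter (fun y => k y = k x0)).card : ℝ) ≠ 0 := by
    have : 0 < (S.filter (fun y => k y = k x0)).card :=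
      card_pos.2 ⟨x0, mem_filter.2 ⟨(mem_filter.1 hx0).1, rfl⟩⟩
    exact_mod_cast this.ne'
  unfold mean
  field_simp

theorem jensen_units {r : Fin m → ℕ} {c : Fin n → ℕ} (i : Fin m) (a : Fin n)
    (f : (Fin m → Fin n → ℕ) → ℝ) :
    ∑ l ∈ Icc 1 (min (r i) (c a)), ((Tb (r - e1 l i) (c - e1 l a)).card : ℝ) *
      (mean (Tb (r - e1 l i) (c - e1 l a)) (fun y => f (y + Et l i a))) ^ 2 ≤
      ∑ x ∈ Tb r c, (x i a : ℝ) * (gc r c i a f x) ^ 2 := by
  have step : ∀ l ∈ Icc 1 (min (r i) (c a)), ((Tb (r - e1 l i) (c - e1 l a)).card : ℝ) *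
      (mean (Tb (r - e1 l i) (c - e1 l a)) (fun y => f (y + Et l i a))) ^ 2 ≤
      ∑ x ∈ (Tb r c).filter (fun x => l ≤ x i a), (gc r c i a f x) ^ 2 := by
    intro l hl
    rw [mem_Icc, le_min_iff] at hl
    have h1 := unit_bij (r := r) (c := c) i a l hl.2.1 hl.2.2 f
    have h2 := unit_bij (r := r) (c := c) i a l hl.2.1 hl.2.2 (fun _ => 1)
    simp only [sum_const, nsmul_eq_mul, mul_one] at h2
    have h3 : mean (Tb (r - e1 l i) (c - e1 l a)) (fun y => f (y + Et l i a))
        = mean ((Tb r c).filter (fun x => l ≤ x i a)) (gc r c i a f) := by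
      unfold mean
      rw [← h1, ← h2, loc3_avg (Tb r c) (fun x => x i a) (fun t => l ≤ t) f]
      rfl
    rw [h3, ← h2]
    have h4 := sum_sq_eq ((Tb r c).filter (fun x => l ≤ x i a)) (gc r c i a f)
    have h5 : 0 ≤ ∑ x ∈ (Tb r c).filter (fun x => l ≤ x i a), (gc r c i a f x -
        mean ((Tb r c).filter (fun x => l ≤ x i a)) (gc r c i a f)) ^ 2 :=
      sum_nonneg fun _ _ => sq_nonneg _
    linarith
  refine (sum_le_sum step).trans (le_of_eq ?_)
  have e1 : ∀ l ∈ Icc 1 (min (r i) (c a)),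
      ∑ x ∈ (Tb r c).filter (fun x => l ≤ x i a), (gc r c i a f x) ^ 2
      = ∑ x ∈ Tb r c, if l ≤ x i a then (gc r c i a f x) ^ 2 else 0 := by
    intro l _
    rw [sum_filter]
  rw [sum_congr rfl e1, sum_comm]
  apply sum_congr rfl
  intro x hx
  have hx1 : x i a ≤ min (r i) (c a) := le_min (le_row hx i a) (le_col hx i a)
  rw [← sum_filter, sum_const, nsmul_eq_mul]
  congr 2
  have e2 : (Icc 1 (min (r i) (c a))).filter (fun l => l ≤ x i a) = Icc 1 (x i a) := by
    ext l
    simp only [mem_filter, mem_Icc]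
    constructor
    · rintro ⟨⟨h1, _⟩, h2⟩; exact ⟨h1, h2⟩
    · rintro ⟨h1, h2⟩; exact ⟨⟨h1, h2.trans hx1⟩, h2⟩
  rw [e2, Nat.card_Icc]
  simp

end Vale.Agent.P328B
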