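import Vale.Agent.Lib.P328B.Loc1
import Vale.Agent.Lib.P328B.Loc2
import Vale.Agent.Lib.P328B.Loc3

/-!
P328 binary, module STEP: the localization step.
-/

namespace Vale.Agent.P328B

open Finset

variable {m n : ℕ}

/-- the energy does not see constants -/
theorem Step_En_sub (r : Fin m → ℕ) (c : Fin n → ℕ) (f : (Fin m → Fin n → ℕ) → ℝ) (t : ℝ) :
    En r c (fun x => f x - t) = En r c f := by
  unfold En EB
  refine sum_congr rfl fun i _ => sum_congr rfl fun k _ => sum_congr rfl fun a _ =>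
    sum_congr rfl fun b _ => ?_
  split_ifs with h
  · refine sum_congr rfl fun x hx => ?_
    rw [lm_eq_cm, lm_eq_cm]
    unfold cm
    rw [mean_sub_const (class_nonempty (Off_equiv i k a b) hx)]
    ring
  · rfl

theorem Step_logN (M : ℕ) : 0 ≤ Real.log ((M : ℝ) + 1) :=
  Real.log_nonneg (by have : (0 : ℝ) ≤ M := Nat.cast_nonneg M; linarith)

/-- swapping a sum with the sum over blocks -/
theorem Step_swap {α : Type} (S : Finset α) (F : Fin m → Fin m → Fin n → Fin n → α → ℝ) :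
    ∑ x ∈ S, (∑ i' : Fin m, ∑ k' : Fin m, ∑ a' : Fin n, ∑ b' : Fin n,
      if i' ≠ k' ∧ a' ≠ b' then F i' k' a' b' x else 0) =
    ∑ i' : Fin m, ∑ k' : Fin m, ∑ a' : Fin n, ∑ b' : Fin n,
      if i' ≠ k' ∧ a' ≠ b' then ∑ x ∈ S, F i' k' a' b' x else 0 := by
  rw [sum_comm]
  refine sum_congr rfl fun i' _ => ?_
  rw [sum_comm]
  refine sum_congr rfl fun k' _ => ?_
  rw [sum_comm]
  refine sum_congr rfl fun a' _ => ?_
  rw [sum_comm]
  refine sum_congr rfl fun b' _ => ?_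
  split_ifs with h
  · rfl
  · simp

/-- one cell and one size -/
theorem Step_one {r : Fin m → ℕ} {c : Fin n → ℕ} (i : Fin m) (a : Fin n) (l : ℕ) (hr : l ≤ r i)
    (hc : l ≤ c a) (K : ℝ) (hK : 0 ≤ K) (f : (Fin m → Fin n → ℕ) → ℝ)
    (h : ∀ h : (Fin m → Fin n → ℕ) → ℝ, ∑ y ∈ Tb (r - e1 l i) (c - e1 l a), h y = 0 →
      sq (r - e1 l i) (c - e1 l a) h ≤ K * En (r - e1 l i) (c - e1 l a) h) :
    ∑ y ∈ Tb (r - e1 l i) (c - e1 l a), f (y + Et l i a) ^ 2 ≤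
      (∑ y ∈ Tb (r - e1 l i) (c - e1 l a), K * (∑ i' : Fin m, ∑ k' : Fin m, ∑ a' : Fin n,
        ∑ b' : Fin n, if i' ≠ k' ∧ a' ≠ b' then
          (f (y + Et l i a) - lm r c i' k' a' b' f (y + Et l i a)) ^ 2 else 0)) +
      ((Tb (r - e1 l i) (c - e1 l a)).card : ℝ) *
      (mean (Tb (r - e1 l i) (c - e1 l a)) (fun y => f (y + Et l i a))) ^ 2 := by
  rw [sum_sq_eq (Tb (r - e1 l i) (c - e1 l a)) (fun y => f (y + Et l i a))]
  refine add_le_add_left ?_ _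
  set T := Tb (r - e1 l i) (c - e1 l a) with hT
  set μ := mean T (fun y => f (y + Et l i a)) with hμ
  have h0 : ∑ y ∈ T, (f (y + Et l i a) - μ) = 0 := by
    rw [sum_sub_distrib, sum_const, nsmul_eq_mul, hμ, card_mul_mean, sub_self]
  have h1 := h (fun y => f (y + Et l i a) - μ) h0
  have h2 := Step_En_sub (r - e1 l i) (c - e1 l a) (fun y => f (y + Et l i a)) μ
  have h3 := En_restrict i a l hr hc f
  rw [h2] at h1
  refine h1.trans ?_
  rw [← mul_sum]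
  refine mul_le_mul_of_nonneg_left (h3.trans (le_of_eq ?_)) hK
  rw [← unit_bij i a l hr hc (fun x => ∑ i' : Fin m, ∑ k' : Fin m, ∑ a' : Fin n,
        ∑ b' : Fin n, if i' ≠ k' ∧ a' ≠ b' then
          (f x - lm r c i' k' a' b' f x) ^ 2 else 0)]
  exact (Step_swap _ (fun i' k' a' b' x => (f x - lm r c i' k' a' b' f x) ^ 2)).symm

theorem Step_En_eq (r : Fin m → ℕ) (c : Fin n → ℕ) (f : (Fin m → Fin n → ℕ) → ℝ) :
    ∑ x ∈ Tb r c, (∑ i' : Fin m, ∑ k' : Fin m, ∑ a' : Fin n,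
        ∑ b' : Fin n, if i' ≠ k' ∧ a' ≠ b' then
          (f x - lm r c i' k' a' b' f x) ^ 2 else 0) = En r c f := by
  unfold En EB
  exact Step_swap _ (fun i' k' a' b' x => (f x - lm r c i' k' a' b' f x) ^ 2)

theorem loc_step {r : Fin m → ℕ} {c : Fin n → ℕ} (N : ℕ) (hN : ∑ i, r i = N) (hN' : ∑ a, c a = N)
    (hN1 : 1 ≤ N) (A : ℝ) (hA : 0 ≤ A) (f : (Fin m → Fin n → ℕ) → ℝ)
    (hIH : ∀ i a l, 1 ≤ l → l ≤ r i → l ≤ c a → ∀ h : (Fin m → Fin n → ℕ) → ℝ,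
      ∑ y ∈ Tb (r - e1 l i) (c - e1 l a), h y = 0 →
      sq (r - e1 l i) (c - e1 l a) h ≤
        A * (1 + Real.log (((N - l : ℕ) : ℝ) + 1)) * En (r - e1 l i) (c - e1 l a) h) :
    N * sq r c f ≤ N * (A * (1 + Real.log ((N : ℝ) + 1)) - A / (2 * m * n)) * En r c f +
      ∑ i, ∑ a, ∑ x ∈ Tb r c, (x i a : ℝ) * (gc r c i a f x) ^ 2 := by
  have e1' : (N : ℝ) * sq r c f = ∑ x ∈ Tb r c, ∑ i, ∑ a, ∑ l ∈ Icc 1 (x i a), f x ^ 2 := by
    unfold sq
    rw [mul_sum]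
    refine sum_congr rfl fun x hx => ?_
    simp only [sum_const, Nat.card_Icc, Nat.add_sub_cancel, nsmul_eq_mul]
    simp only [← sum_mul]
    congr 1
    rw [← hN]
    push_cast
    refine sum_congr rfl fun i _ => ?_
    rw [← row_sum hx i]
    push_cast
    rfl
  rw [e1', unit_sum (fun i a l x => f x ^ 2)]
  set H : (Fin m → Fin n → ℕ) → ℝ := fun x => ∑ i' : Fin m, ∑ k' : Fin m, ∑ a' : Fin n,
        ∑ b' : Fin n, if i' ≠ k' ∧ a' ≠ b' then
          (f x - lm r c i' k' a' b' f x) ^ 2 else 0 with hH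
  have hH0 : ∀ x, 0 ≤ H x := by
    intro x
    rw [hH]
    refine sum_nonneg fun i' _ => sum_nonneg fun k' _ => sum_nonneg fun a' _ =>
      sum_nonneg fun b' _ => ?_
    split_ifs
    · exact sq_nonneg _
    · exact le_refl _
  have hK : ∀ l : ℕ, 0 ≤ A * (1 + Real.log (((N - l : ℕ) : ℝ) + 1)) := by
    intro l
    have := Step_logN (N - l)
    positivity
  have s1 : ∑ i, ∑ a, ∑ l ∈ Icc 1 (min (r i) (c a)), ∑ y ∈ Tb (r - e1 l i) (c - e1 l a),
      f (y + Et l i a) ^ 2 ≤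
      ∑ i, ∑ a, ∑ l ∈ Icc 1 (min (r i) (c a)),
      ((∑ y ∈ Tb (r - e1 l i) (c - e1 l a),
        A * (1 + Real.log (((N - l : ℕ) : ℝ) + 1)) * H (y + Et l i a)) +
      ((Tb (r - e1 l i) (c - e1 l a)).card : ℝ) *
      (mean (Tb (r - e1 l i) (c - e1 l a)) (fun y => f (y + Et l i a))) ^ 2) := by
    refine sum_le_sum fun i _ => sum_le_sum fun a _ => sum_le_sum fun l hl => ?_
    rw [mem_Icc, le_min_iff] at hl
    exact Step_one i a l hl.2.1 hl.2.2 _ (hK l) f (hIH i a l hl.1 hl.2.1 hl.2.2)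
  refine s1.trans ?_
  simp only [sum_add_distrib]
  refine add_le_add ?_ ?_
  · rw [← unit_sum (fun i a l x => A * (1 + Real.log (((N - l : ℕ) : ℝ) + 1)) * H x)]
    rw [← Step_En_eq r c f, mul_sum]
    refine sum_le_sum fun x hx => ?_
    have h1 := log_units hx N hN hN1 A hA
    simp only [← sum_mul]
    exact mul_le_mul_of_nonneg_right h1 (hH0 x)
  · exact sum_le_sum fun i _ => sum_le_sum fun a _ => jensen_units i a f

end Vale.Agent.P328B
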