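import Vale.Agent.Lib.P328B.Redu
import Vale.Agent.Lib.P328B.Step
import Vale.Agent.Lib.P328B.C5b
import Vale.Agent.Lib.P328B.C6

/-!
P328 BINARY : constants and induction on the total.
-/

set_option linter.unusedSimpArgs false
set_option linter.unusedVariables false

namespace Vale.Agent.P328B

open Finset

variable {m n : ℕ}

/-- the constant -/
noncomputable def Kc (m n N : ℕ) (κ : ℕ → ℝ) : ℝ :=
  4 * (m : ℝ) ^ 2 * (n : ℝ) ^ 2 * (144 + 16 * κ (10 ^ 10 * (m * n) ^ 9 * (Nat.log 2 N + 2) ^ 3)) *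
    (1 + Real.log ((N : ℝ) + 1))

theorem FIN_sum_e1 {k : ℕ} (r : Fin k → ℕ) (p : Fin k) (L : ℕ) (h : L ≤ r p) :
    ∑ i, (r - e1 L p) i + L = ∑ i, r i := by
  have e : ∀ i, (r - e1 L p) i + (if i = p then L else 0) = r i := by
    intro i
    simp only [Pi.sub_apply, e1]
    by_cases hi : i = p
    · subst hi; simp; omega
    · simp [hi]
  have h2 : ∑ i, ((r - e1 L p) i + (if i = p then L else 0)) = ∑ i, r i :=
    sum_congr rfl fun i _ => e i
  rw [sum_add_distrib, sum_ite_eq' univ p (fun _ => L)] at h2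
  simpa using h2

/-- unit switches cost at most four times the heat-bath energy -/
theorem FIN_UE (r : Fin m → ℕ) (c : Fin n → ℕ) (f : (Fin m → Fin n → ℕ) → ℝ) :
    UE r c f ≤ 4 * En r c f := by
  unfold UE En
  rw [sum_comm]
  rw [mul_sum]
  apply sum_le_sum; intro i _
  rw [sum_comm, mul_sum]
  apply sum_le_sum; intro k _
  rw [sum_comm, mul_sum]
  apply sum_le_sum; intro a _
  rw [sum_comm, mul_sum]
  apply sum_le_sum; intro b _
  by_cases h : i ≠ k ∧ a ≠ b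
  · rw [if_pos h]
    refine le_trans (le_of_eq ?_) (trans_energy h.1 h.2 1 f)
    rw [sum_filter]
    apply sum_congr rfl
    intro x _
    by_cases h2 : 1 ≤ x i b ∧ 1 ≤ x k a
    · rw [if_pos h2, if_pos ⟨h.1, h.2, h2.1, h2.2⟩]
    · rw [if_neg h2, if_neg (fun h' => h2 ⟨h'.2.2.1, h'.2.2.2⟩)]
  · rw [if_neg h, mul_zero]
    apply le_of_eq
    apply sum_eq_zero
    intro x _
    rw [if_neg (fun h' => h ⟨h'.1, h'.2.1⟩)]

theorem FIN_zero {r : Fin m → ℕ} {c : Fin n → ℕ} (hN : ∑ i, r i = 0) (f : (Fin m → Fin n → ℕ) → ℝ)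
    (hf : ∑ x ∈ Tb r c, f x = 0) : sq r c f = 0 := by
  have h0 : ∀ x ∈ Tb r c, x = fun _ _ => 0 := by
    intro x hx
    funext i a
    have h1 := le_row hx i a
    have h2 : r i ≤ ∑ i, r i := single_le_sum (f := r) (fun _ _ => Nat.zero_le _) (mem_univ i)
    omega
  unfold sq
  by_cases hne : (fun _ _ => 0 : Fin m → Fin n → ℕ) ∈ Tb r c
  · have hs : Tb r c = {fun _ _ => 0} := by
      ext x
      simp only [mem_singleton]
      exact ⟨h0 x, fun h => h ▸ hne⟩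
    rw [hs, sum_singleton] at hf ⊢
    rw [hf]; ring
  · have hs : Tb r c = ∅ := by
      apply eq_empty_of_forall_notMem
      intro x hx
      rw [h0 x hx] at hx
      exact hne hx
    rw [hs]; simp

theorem FIN_log (N : ℕ) : 1 + Real.log ((N : ℝ) + 1) ≤ ((Nat.log 2 N + 2 : ℕ) : ℝ) := by
  have h1 : N + 1 ≤ 2 ^ (Nat.log 2 N + 1) := Nat.lt_pow_succ_log_self (by norm_num) N
  have h2 : ((N : ℝ) + 1) ≤ 2 ^ (Nat.log 2 N + 1) := by exact_mod_cast h1
  have h3 : Real.log ((N : ℝ) + 1) ≤ Real.log ((2 : ℝ) ^ (Nat.log 2 N + 1)) :=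
    Real.log_le_log (by positivity) h2
  rw [Real.log_pow] at h3
  have h4 : Real.log 2 ≤ 1 := by
    have := Real.log_two_lt_d9
    linarith
  have h5 : ((Nat.log 2 N + 1 : ℕ) : ℝ) * Real.log 2 ≤ ((Nat.log 2 N + 1 : ℕ) : ℝ) * 1 :=
    mul_le_mul_of_nonneg_left h4 (Nat.cast_nonneg _)
  push_cast at h3 h5 ⊢
  linarith

/-- another macroscopic row -/
theorem FIN_pick {k : ℕ} (r : Fin k → ℕ) (i : Fin k) (N D cc : ℕ) (hN : ∑ i, r i = N) (hN1 : 1 ≤ N)
    (hc : r i + cc ≤ N) (hD : N ≤ D * cc) : ∃ j, j ≠ i ∧ N ≤ k * D * r j := by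
  by_contra hcon
  push Not at hcon
  have h1 : ∑ j ∈ univ.erase i, (k * D * r j + 1) ≤ ∑ j ∈ univ.erase i, N :=
    sum_le_sum fun j hj => hcon j (ne_of_mem_erase hj)
  rw [sum_add_distrib, ← mul_sum, sum_const, sum_const, card_erase_of_mem (mem_univ i), card_univ,
    Fintype.card_fin] at h1
  have h2 : r i + ∑ j ∈ univ.erase i, r j = N := by
    rw [← hN]; exact add_sum_erase univ r (mem_univ i)
  have h3 : cc ≤ ∑ j ∈ univ.erase i, r j := by omega
  have h4 : k * D * cc ≤ k * D * ∑ j ∈ univ.erase i, r j := Nat.mul_le_mul_left _ h3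
  have h5 : k * N ≤ k * (D * cc) := Nat.mul_le_mul_left _ hD
  have hk : 1 ≤ k := by have := i.isLt; omega
  simp only [smul_eq_mul, mul_one] at h1
  have h6 : k * N = (k - 1) * N + N := by
    obtain ⟨k', rfl⟩ : ∃ k', k = k' + 1 := ⟨k - 1, by omega⟩
    simp; ring
  rw [← mul_assoc] at h5
  omega

theorem FIN_num (q l N : ℕ) (hq : 1 ≤ q) (hl : 1 ≤ l) (hN : 10 ^ 10 * q ^ 9 * l ^ 3 < N) :
    ∃ s1 s0 ρ om : ℕ, 1 ≤ s1 ∧ om = (q + 1) * s1 ∧ 2 * om ≤ s0 ∧ 8 * s0 ≤ ρ ∧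
      ρ = N / (q * (8 * q ^ 2 * l)) ∧ N / s1 ≤ 10 ^ 10 * q ^ 9 * l ^ 3 ∧
      1024 * (q : ℝ) ^ 2 * ((s0 : ℝ) / ρ) + 1000 * ((om : ℝ) / s0) ^ 2 ≤
        1 / (8 * (q : ℝ) ^ 2 * l) := by
  set W := 10 ^ 8 * q ^ 9 * l ^ 3 with hW
  have hW0 : 0 < W := by positivity
  have hNW : 100 * W < N := by
    have : 100 * W = 10 ^ 10 * q ^ 9 * l ^ 3 := by rw [hW]; ring
    omega
  have hs1 : 1 ≤ N / W := by
    rw [Nat.le_div_iff_mul_le hW0]; omega
  set s1 := N / W with hs1d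
  have hmul : s1 * W ≤ N := Nat.div_mul_le_self N W
  have hlt : N < W * (s1 + 1) := Nat.lt_mul_div_succ N hW0
  have hc : 16384 * q ^ 4 * l * (254 * q ^ 2 * l * s1) ≤ N / (q * (8 * q ^ 2 * l)) := by
    rw [Nat.le_div_iff_mul_le (by positivity)]
    calc 16384 * q ^ 4 * l * (254 * q ^ 2 * l * s1) * (q * (8 * q ^ 2 * l))
        = 33292288 * (q ^ 9 * l ^ 3 * s1) := by ring
      _ ≤ 10 ^ 8 * (q ^ 9 * l ^ 3 * s1) := Nat.mul_le_mul_right _ (by norm_num)
      _ = s1 * W := by rw [hW]; ring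
      _ ≤ N := hmul
  have hq4 : 1 ≤ q ^ 4 := Nat.one_le_pow _ _ hq
  have hq2 : q ≤ q ^ 2 := by nlinarith
  have h2om : 2 * ((q + 1) * s1) ≤ 254 * q ^ 2 * l * s1 := by
    have : 2 * (q + 1) ≤ 254 * q ^ 2 * l := by nlinarith [Nat.mul_le_mul hq2 hl]
    calc 2 * ((q + 1) * s1) = 2 * (q + 1) * s1 := by ring
      _ ≤ 254 * q ^ 2 * l * s1 := Nat.mul_le_mul_right _ this
  refine ⟨s1, 254 * q ^ 2 * l * s1, N / (q * (8 * q ^ 2 * l)), (q + 1) * s1, hs1, rfl, h2om, ?_, rfl,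
    ?_, ?_⟩
  · refine le_trans ?_ hc
    apply Nat.mul_le_mul_right
    calc 8 ≤ 16384 * 1 * 1 := by norm_num
      _ ≤ 16384 * q ^ 4 * l := Nat.mul_le_mul (Nat.mul_le_mul_left _ hq4) hl
  · apply Nat.div_le_of_le_mul
    have : W * (s1 + 1) ≤ s1 * (10 ^ 10 * q ^ 9 * l ^ 3) := by
      have e : s1 * (10 ^ 10 * q ^ 9 * l ^ 3) = W * (100 * s1) := by rw [hW]; ring
      rw [e]
      exact Nat.mul_le_mul_left _ (by omega)
    omega
  · have hs1r : (0 : ℝ) < s1 := by exact_mod_cast hs1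
    have hqr : (1 : ℝ) ≤ q := by exact_mod_cast hq
    have hlr : (1 : ℝ) ≤ l := by exact_mod_cast hl
    have hcr : 16384 * (q : ℝ) ^ 4 * l * (254 * (q : ℝ) ^ 2 * l * s1) ≤
        ((N / (q * (8 * q ^ 2 * l)) : ℕ) : ℝ) := by exact_mod_cast hc
    set ρ := ((N / (q * (8 * q ^ 2 * l)) : ℕ) : ℝ) with hρ
    have hρ0 : 0 < ρ := lt_of_lt_of_le (by positivity) hcr
    push_cast
    have t1 : 1024 * (q : ℝ) ^ 2 * (254 * (q : ℝ) ^ 2 * l * s1 / ρ) ≤ 1 / (16 * (q : ℝ) ^ 2 * l) := by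
      rw [← mul_div_assoc, div_le_div_iff₀ hρ0 (by positivity)]
      nlinarith [hcr]
    have t2 : ((q : ℝ) + 1) * s1 / (254 * (q : ℝ) ^ 2 * l * s1) ≤ 1 / (127 * (q : ℝ) * l) := by
      rw [div_le_div_iff₀ (by positivity) (by positivity)]
      have : ((q : ℝ) + 1) ≤ 2 * q := by linarith
      calc ((q : ℝ) + 1) * s1 * (127 * (q : ℝ) * l) ≤ (2 * q) * s1 * (127 * (q : ℝ) * l) := by
            apply mul_le_mul_of_nonneg_right _ (by positivity)
            exact mul_le_mul_of_nonneg_right this hs1r.le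
        _ = 1 * (254 * (q : ℝ) ^ 2 * l * s1) := by ring
    have t3 : (((q : ℝ) + 1) * s1 / (254 * (q : ℝ) ^ 2 * l * s1)) ^ 2 ≤
        (1 / (127 * (q : ℝ) * l)) ^ 2 := pow_le_pow_left₀ (by positivity) t2 2
    have t4 : 1000 * (1 / (127 * (q : ℝ) * l)) ^ 2 ≤ 1 / (16 * (q : ℝ) ^ 2 * l) := by
      rw [div_pow, one_pow, mul_one_div, div_le_div_iff₀ (by positivity) (by positivity)]
      have : (q : ℝ) ^ 2 * l ≤ (q : ℝ) ^ 2 * l ^ 2 := by
        apply mul_le_mul_of_nonneg_left _ (by positivity)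
        nlinarith
      nlinarith [this]
    have t5 : 1 / (8 * (q : ℝ) ^ 2 * l) = 1 / (16 * (q : ℝ) ^ 2 * l) + 1 / (16 * (q : ℝ) ^ 2 * l) := by
      field_simp; norm_num
    rw [t5]
    linarith

/-- the estimate of all cells in the balanced case -/
theorem FIN_cells (κ : ℕ → ℝ) (hκ : Monotone κ) (hκ0 : ∀ N, 0 ≤ κ N) (hU : Unary m n κ)
    {r : Fin m → ℕ} {c : Fin n → ℕ} (N l Z : ℕ) (hN : ∑ i, r i = N) (hN' : ∑ a, c a = N)
    (hq : 1 ≤ m * n) (hl : 1 ≤ l) (hZ : Z = 10 ^ 10 * (m * n) ^ 9 * l ^ 3) (hZN : Z < N)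
    (hbal : ∀ p q, r p + c q ≤ N) (f : (Fin m → Fin n → ℕ) → ℝ) (hf : ∑ x ∈ Tb r c, f x = 0)
    (i : Fin m) (a : Fin n) :
    ∑ x ∈ Tb r c, (x i a : ℝ) * (gc r c i a f x) ^ 2 ≤
      N * ((144 + 16 * κ Z) * En r c f + 1 / (8 * ((m * n : ℕ) : ℝ) ^ 2 * l) * sq r c f) := by
  subst hZ
  obtain ⟨s1, s0, ρ, om, h1, h2, h3, h4, h5, h6, h7⟩ := FIN_num (m * n) l N hq hl hZN
  have hgc := gc_norm r c i a f
  have hgc0 : 0 ≤ ∑ x ∈ Tb r c, gc r c i a f x ^ 2 := sum_nonneg fun _ _ => sq_nonneg _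
  have hEn := En_nonneg r c f
  have hsq := sq_nonneg' r c f
  have hqr : (1 : ℝ) ≤ ((m * n : ℕ) : ℝ) := by exact_mod_cast hq
  have hlr : (1 : ℝ) ≤ l := by exact_mod_cast hl
  have hN0 : 0 < N := by omega
  have hNr : (0 : ℝ) < N := by exact_mod_cast hN0
  set D := 8 * (m * n) ^ 2 * l with hD
  have hD0 : 0 < D := by positivity
  have hDr : (D : ℝ) = 8 * ((m * n : ℕ) : ℝ) ^ 2 * l := by rw [hD]; push_cast; ring
  by_cases hmac : N ≤ D * r i ∧ N ≤ D * c a
  · obtain ⟨k, hk, hk2⟩ := FIN_pick r i N D (c a) hN hN0 (hbal i a) hmac.2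
    obtain ⟨b, hb, hb2⟩ := FIN_pick c a N D (r i) hN' hN0 (by have := hbal i a; omega) hmac.1
    have hm : 1 ≤ m := Nat.pos_of_ne_zero (by rintro rfl; simp at hq)
    have hn : 1 ≤ n := Nat.pos_of_ne_zero (by rintro rfl; simp at hq)
    have hρ : ∀ t, N ≤ (m * n) * D * t → ρ ≤ t := by
      intro t ht
      rw [h5]
      apply Nat.div_le_of_le_mul
      exact ht
    have e1 : D ≤ (m * n) * D := Nat.le_mul_of_pos_left _ hq
    have e2 : m * D ≤ (m * n) * D := Nat.mul_le_mul_right _ (Nat.le_mul_of_pos_right _ hn)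
    have e3 : n * D ≤ (m * n) * D := Nat.mul_le_mul_right _ (Nat.le_mul_of_pos_left _ hm)
    have key := C6_of κ hκ hκ0 hU (r := r) (c := c) (i := i) (k := k) (a := a) (b := b) hk.symm hb.symm
      ρ s0 s1 om h1 h2 h3 h4 (hρ _ (hmac.1.trans (Nat.mul_le_mul_right _ e1)))
      (hρ _ (hk2.trans (Nat.mul_le_mul_right _ e2))) (hρ _ (hmac.2.trans (Nat.mul_le_mul_right _ e1)))
      (hρ _ (hb2.trans (Nat.mul_le_mul_right _ e3))) f
      (fun φ => decouple hk.symm hb.symm s0 s1 om h1 h2 h3 φ f hf)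
    have k1 : κ ((∑ i, r i) / s1) ≤ κ (10 ^ 10 * (m * n) ^ 9 * l ^ 3) := hκ (by rw [hN]; exact h6)
    have k2 : (144 + 16 * κ ((∑ i, r i) / s1)) * En r c f ≤
        (144 + 16 * κ (10 ^ 10 * (m * n) ^ 9 * l ^ 3)) * En r c f :=
      mul_le_mul_of_nonneg_right (by linarith) hEn
    have k3 : (1024 * (m : ℝ) ^ 2 * (n : ℝ) ^ 2 * (s0 / ρ) + 1000 * (om / s0) ^ 2) * sq r c f ≤
        1 / (8 * ((m * n : ℕ) : ℝ) ^ 2 * l) * sq r c f := by
      apply mul_le_mul_of_nonneg_right _ hsq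
      refine le_trans (le_of_eq ?_) h7
      push_cast; ring
    have k4 : ∑ x ∈ Tb r c, (x i a : ℝ) * (gc r c i a f x) ^ 2 ≤
        N * ∑ x ∈ Tb r c, gc r c i a f x ^ 2 := by
      rw [mul_sum]
      apply sum_le_sum
      intro x hx
      apply mul_le_mul_of_nonneg_right _ (sq_nonneg _)
      have : x i a ≤ N := (le_row hx i a).trans (by
        rw [← hN]; exact single_le_sum (f := r) (fun _ _ => Nat.zero_le _) (mem_univ i))
      exact_mod_cast this
    refine k4.trans (mul_le_mul_of_nonneg_left ?_ hNr.le)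
    linarith
  · have hx : ∀ x ∈ Tb r c, (x i a : ℝ) ≤ N * (1 / (8 * ((m * n : ℕ) : ℝ) ^ 2 * l)) := by
      intro x hx
      rw [← hDr, mul_one_div, le_div_iff₀ (by exact_mod_cast hD0)]
      have h1 := le_row hx i a
      have h2 := le_col hx i a
      have : x i a * D ≤ N := by
        rw [mul_comm]
        by_cases h3 : N ≤ D * r i
        · have h4 : ¬ N ≤ D * c a := fun h => hmac ⟨h3, h⟩
          push Not at h4
          exact (Nat.mul_le_mul_left _ h2).trans h4.le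
        · push Not at h3
          exact (Nat.mul_le_mul_left _ h1).trans h3.le
      exact_mod_cast this
    have k4 : ∑ x ∈ Tb r c, (x i a : ℝ) * (gc r c i a f x) ^ 2 ≤
        (N * (1 / (8 * ((m * n : ℕ) : ℝ) ^ 2 * l))) * ∑ x ∈ Tb r c, gc r c i a f x ^ 2 := by
      rw [mul_sum]
      exact sum_le_sum fun x hx' => mul_le_mul_of_nonneg_right (hx x hx') (sq_nonneg _)
    have k5 : (N * (1 / (8 * ((m * n : ℕ) : ℝ) ^ 2 * l))) * ∑ x ∈ Tb r c, gc r c i a f x ^ 2 ≤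
        (N * (1 / (8 * ((m * n : ℕ) : ℝ) ^ 2 * l))) * sq r c f :=
      mul_le_mul_of_nonneg_left hgc (by positivity)
    have k6 : 0 ≤ (N : ℝ) * ((144 + 16 * κ (10 ^ 10 * (m * n) ^ 9 * l ^ 3)) * En r c f) := by
      have := hκ0 (10 ^ 10 * (m * n) ^ 9 * l ^ 3)
      positivity
    rw [mul_add, ← mul_assoc (N : ℝ) (1 / (8 * ((m * n : ℕ) : ℝ) ^ 2 * l)) (sq r c f)]
    exact (k4.trans k5).trans (le_add_of_nonneg_left k6)

theorem FIN_alg (A Λ E F w K : ℝ) (hA0 : 0 ≤ A) (hΛ : 0 ≤ Λ) (hE : 0 ≤ E) (hF0 : 0 ≤ F) (hw0 : 0 < w)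
    (hw1 : w ≤ 1 / 8) (h5 : F ≤ (A * Λ - K) * E + w * F) (h6 : A * Λ * (2 * w) ≤ K) :
    F ≤ A * Λ * E := by
  by_contra hcon
  push Not at hcon
  have h7 : (A * Λ - K) * E ≤ (A * Λ - A * Λ * (2 * w)) * E :=
    mul_le_mul_of_nonneg_right (by linarith) hE
  have h8 : (A * Λ - A * Λ * (2 * w)) * E = (1 - 2 * w) * (A * Λ * E) := by ring
  have h9 : (1 - 2 * w) * (A * Λ * E) ≤ (1 - 2 * w) * F :=
    mul_le_mul_of_nonneg_left hcon.le (by linarith)
  have hF1 : 0 < F := lt_of_le_of_lt (by positivity) hcon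
  have h10 : 0 < w * F := mul_pos hw0 hF1
  have h11 : (1 - 2 * w) * F = F - 2 * (w * F) := by ring
  linarith

theorem FIN_div (N F B C : ℝ) (hN : 0 < N) (h : N * F ≤ N * B + N * C) : F ≤ B + C := by
  rw [← mul_add] at h
  exact le_of_mul_le_mul_left h hN

theorem FIN_induct (κ : ℕ → ℝ) (hκ : Monotone κ) (hκ0 : ∀ N, 0 ≤ κ N) (hU : Unary m n κ)
    (l Z : ℕ) (hl : 1 ≤ l) (hZ : Z = 10 ^ 10 * (m * n) ^ 9 * l ^ 3) (A : ℝ)
    (hA : A = 4 * (m : ℝ) ^ 2 * (n : ℝ) ^ 2 * (144 + 16 * κ Z)) (N : ℕ) :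
    1 + Real.log ((N : ℝ) + 1) ≤ l → ∀ (r : Fin m → ℕ) (c : Fin n → ℕ), ∑ i, r i = N →
      ∑ a, c a = N → ∀ f : (Fin m → Fin n → ℕ) → ℝ, ∑ x ∈ Tb r c, f x = 0 →
      sq r c f ≤ A * (1 + Real.log ((N : ℝ) + 1)) * En r c f := by
  induction N using Nat.strong_induction_on with
  | _ N ih =>
  intro hlN r c hN hN' f hf
  have hEn := En_nonneg r c f
  have hsq := sq_nonneg' r c f
  have hκZ := hκ0 Z
  have hA0 : 0 ≤ A := by rw [hA]; positivity
  have hlog0 : 0 ≤ Real.log ((N : ℝ) + 1) := Real.log_nonneg (by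
    have : (0 : ℝ) ≤ N := Nat.cast_nonneg _
    linarith)
  rcases Nat.eq_zero_or_pos N with h0 | hN1
  · rw [FIN_zero (by rw [hN, h0]) f hf]
    positivity
  have hm : 1 ≤ m := Nat.pos_of_ne_zero (by rintro rfl; simp at hN; omega)
  have hn : 1 ≤ n := Nat.pos_of_ne_zero (by rintro rfl; simp at hN'; omega)
  have hmr : (1 : ℝ) ≤ m := by exact_mod_cast hm
  have hnr : (1 : ℝ) ≤ n := by exact_mod_cast hn
  have hq : 1 ≤ m * n := Nat.mul_pos hm hn
  have hNr : (0 : ℝ) < N := by exact_mod_cast hN1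
  have hmn2 : 1 ≤ (m : ℝ) ^ 2 * (n : ℝ) ^ 2 := by nlinarith [one_le_pow₀ hmr (n := 2), one_le_pow₀ hnr (n := 2)]
  by_cases hsmall : N ≤ Z
  · -- the unary theorem
    have h1 := hU r c f hf
    rw [hN] at h1
    have h2 := FIN_UE r c f
    have h3 : κ N ≤ κ Z := hκ hsmall
    have h4 : sq r c f ≤ κ Z * (4 * En r c f) := by
      have hUE : 0 ≤ UE r c f := by
        unfold UE
        refine sum_nonneg fun x _ => sum_nonneg fun i _ => sum_nonneg fun k _ =>
          sum_nonneg fun a _ => sum_nonneg fun b _ => ?_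
        split_ifs
        · exact sq_nonneg _
        · exact le_refl _
      calc sq r c f ≤ κ N * UE r c f := h1
        _ ≤ κ Z * UE r c f := mul_le_mul_of_nonneg_right h3 hUE
        _ ≤ κ Z * (4 * En r c f) := mul_le_mul_of_nonneg_left h2 hκZ
    have h5 : 4 * κ Z ≤ A := by
      rw [hA]
      nlinarith [mul_le_mul_of_nonneg_right hmn2 (by positivity : (0:ℝ) ≤ 144 + 16 * κ Z)]
    have h6 : A * En r c f ≤ A * (1 + Real.log ((N : ℝ) + 1)) * En r c f := by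
      apply mul_le_mul_of_nonneg_right _ hEn
      nlinarith
    nlinarith [mul_le_mul_of_nonneg_right h5 hEn]
  push Not at hsmall
  by_cases hbal : ∀ p q, r p + c q ≤ N
  · -- the localization step
    have hstep := loc_step N hN hN' hN1 A hA0 f (by
      intro i a t ht1 ht2 ht3 h hh
      have htN : t ≤ N := ht2.trans (by
        rw [← hN]; exact single_le_sum (f := r) (fun _ _ => Nat.zero_le _) (mem_univ i))
      refine ih (N - t) (by omega) ?_ _ _ ?_ ?_ h hh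
      · refine le_trans ?_ hlN
        have : Real.log (((N - t : ℕ) : ℝ) + 1) ≤ Real.log ((N : ℝ) + 1) := by
          apply Real.log_le_log (by positivity)
          have : ((N - t : ℕ) : ℝ) ≤ N := by exact_mod_cast Nat.sub_le N t
          linarith
        linarith
      · have := FIN_sum_e1 r i t ht2
        omega
      · have := FIN_sum_e1 c a t ht3
        omega)
    have hcells : ∑ i, ∑ a, ∑ x ∈ Tb r c, (x i a : ℝ) * (gc r c i a f x) ^ 2 ≤
        ∑ i : Fin m, ∑ a : Fin n, (N * ((144 + 16 * κ Z) * En r c f +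
          1 / (8 * ((m * n : ℕ) : ℝ) ^ 2 * l) * sq r c f)) :=
      sum_le_sum fun i _ => sum_le_sum fun a _ =>
        FIN_cells κ hκ hκ0 hU N l Z hN hN' hq hl hZ hsmall hbal f hf i a
    rw [sum_const, sum_const, card_univ, card_univ, Fintype.card_fin, Fintype.card_fin,
      nsmul_eq_mul, nsmul_eq_mul] at hcells
    set Λ := 1 + Real.log ((N : ℝ) + 1) with hΛ
    have hΛ1 : 1 ≤ Λ := by rw [hΛ]; linarith
    set E := En r c f with hE
    set F := sq r c f with hF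
    have hlr : (1 : ℝ) ≤ l := by exact_mod_cast hl
    -- divide by N
    have h1 : F ≤ (A * Λ - A / (2 * m * n)) * E + (m * n * (144 + 16 * κ Z) * E +
        1 / (8 * (m * n : ℝ) * l) * F) := by
      apply FIN_div N F _ _ hNr
      have e1 : (m : ℝ) * (n * (N * ((144 + 16 * κ Z) * E + 1 / (8 * ((m * n : ℕ) : ℝ) ^ 2 * l) * F))) =
          N * (m * n * (144 + 16 * κ Z) * E + 1 / (8 * (m * n : ℝ) * l) * F) := by
        push_cast
        field_simp
      rw [← e1, ← mul_assoc (N : ℝ)]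
      exact hstep.trans (add_le_add_right hcells _)
    have h3 : m * n * (144 + 16 * κ Z) = A / (4 * m * n) := by
      rw [hA]; field_simp
    rw [h3] at h1
    have h4 : A / (2 * m * n) = A / (4 * m * n) + A / (4 * m * n) := by field_simp; ring
    have h5 : F ≤ (A * Λ - A / (4 * m * n)) * E + 1 / (8 * (m * n : ℝ) * l) * F := by
      rw [h4] at h1
      refine h1.trans (le_of_eq ?_)
      ring
    apply FIN_alg A Λ E F (1 / (8 * (m * n : ℝ) * l)) (A / (4 * m * n)) hA0 (by linarith) hEn hsq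
      (by positivity) ?_ h5 ?_
    · apply div_le_div_of_nonneg_left (by norm_num) (by norm_num)
      have h6 : (1 : ℝ) ≤ m * n := one_le_mul_of_one_le_of_one_le hmr hnr
      have h7 : (1 : ℝ) ≤ m * n * l := one_le_mul_of_one_le_of_one_le h6 hlr
      linarith
    · have e2 : A * Λ * (2 * (1 / (8 * (m * n : ℝ) * l))) = A / (4 * m * n) * (Λ / l) := by
        field_simp; ring
      rw [e2]
      apply mul_le_of_le_one_right (by positivity)
      rw [div_le_one (by positivity)]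
      exact hlN
  · -- forced units
    push Not at hbal
    obtain ⟨p, q, hpq⟩ := hbal
    have hrp : r p ≤ N := by
      rw [← hN]; exact single_le_sum (f := r) (fun _ _ => Nat.zero_le _) (mem_univ p)
    have hcq : c q ≤ N := by
      rw [← hN']; exact single_le_sum (f := c) (fun _ _ => Nat.zero_le _) (mem_univ q)
    obtain ⟨L, hL⟩ : ∃ L, L + N = r p + c q := ⟨r p + c q - N, by omega⟩
    obtain ⟨f1, f2, f3⟩ := forced p q L (by rw [hN]; exact hL) (by rw [hN, hN']) f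
    have hLN : L ≤ N := by omega
    have s1 := FIN_sum_e1 r p L (by omega)
    have s2 := FIN_sum_e1 c q L (by omega)
    have hlog : Real.log (((N - L : ℕ) : ℝ) + 1) ≤ Real.log ((N : ℝ) + 1) := by
      apply Real.log_le_log (by positivity)
      have : ((N - L : ℕ) : ℝ) ≤ N := by exact_mod_cast Nat.sub_le N L
      linarith
    have hlog' : 0 ≤ Real.log (((N - L : ℕ) : ℝ) + 1) := Real.log_nonneg (by
      have : (0 : ℝ) ≤ ((N - L : ℕ) : ℝ) := Nat.cast_nonneg _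
      linarith)
    have key := ih (N - L) (by omega) (by linarith) (r - e1 L p) (c - e1 L q) (by omega) (by omega)
      (fun y => f (y + Et L p q)) (by rw [← f2]; exact hf)
    rw [f1]
    refine key.trans ?_
    apply mul_le_mul _ f3 (En_nonneg _ _ _) (by positivity)
    exact mul_le_mul_of_nonneg_left (by linarith) hA0

theorem binary_poincare (κ : ℕ → ℝ) (hκ : Monotone κ) (hκ0 : ∀ N, 0 ≤ κ N) (hU : Unary m n κ)
    (r : Fin m → ℕ) (c : Fin n → ℕ) (f : (Fin m → Fin n → ℕ) → ℝ)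
    (hf : ∑ x ∈ Tb r c, f x = 0) : sq r c f ≤ Kc m n (∑ i, r i) κ * En r c f := by
  have hEn := En_nonneg r c f
  by_cases hs : ∑ i, r i = ∑ a, c a
  · exact FIN_induct κ hκ hκ0 hU (Nat.log 2 (∑ i, r i) + 2) _ (by omega) rfl _ rfl _
      (FIN_log _) r c rfl hs.symm f hf
  · have : Tb r c = ∅ := by
      apply eq_empty_of_forall_notMem
      intro x hx
      apply hs
      have h1 : ∑ i, r i = ∑ i, ∑ a, x i a := sum_congr rfl fun i _ => (row_sum hx i).symm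
      rw [h1, sum_comm]
      exact sum_congr rfl fun a _ => col_sum hx a
    have h0 : sq r c f = 0 := by unfold sq; rw [this]; simp
    rw [h0]
    have hlog0 : 0 ≤ Real.log (((∑ i, r i : ℕ) : ℝ) + 1) := Real.log_nonneg (by
      have : (0 : ℝ) ≤ ((∑ i, r i : ℕ) : ℝ) := Nat.cast_nonneg _
      linarith)
    unfold Kc
    have := hκ0 (10 ^ 10 * (m * n) ^ 9 * (Nat.log 2 (∑ i, r i) + 2) ^ 3)
    positivity

end Vale.Agent.P328B
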