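import Vale.Agent.Lib.P328.Hub
import Vale.Agent.Lib.P328.M9C
import Vale.Agent.Lib.P328B.Defs

/-!
P328 BINARY: the unary theorem.
-/

namespace Vale.Agent.P328B

open Finset

variable {m n : ℕ}

theorem Una_Tb (r : Fin m → ℕ) (c : Fin n → ℕ) : Tb r c = P328.TabF r c := rfl

theorem Una_Sw (i k : Fin m) (a b : Fin n) (x : Fin m → Fin n → ℕ) :
    Sw 1 i k a b x = P328.swF i k b a x := rfl

theorem Una_UE (r : Fin m → ℕ) (c : Fin n → ℕ) (f : (Fin m → Fin n → ℕ) → ℝ) :
    P328.EEF r c f = UE r c f := by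
  unfold P328.EEF UE
  refine sum_congr rfl fun x _ => ?_
  refine sum_congr rfl fun i _ => sum_congr rfl fun k _ => ?_
  rw [sum_comm]
  refine sum_congr rfl fun a _ => sum_congr rfl fun b _ => ?_
  rw [Una_Sw]
  refine if_congr ?_ rfl rfl
  unfold P328.swOK
  rw [Nat.one_le_iff_ne_zero, Nat.one_le_iff_ne_zero, ne_comm (a := b) (b := a)]

/-- the unary theorem: the switch chain on all tables with total `N` has a Poincaré constant which
is polynomial in `m, n, N` -/
theorem unary_holds (m n : ℕ) :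
    Unary m n (fun N => 35 * m * (n + 1) ^ 2 * ((N : ℝ) + 2) ^ 8) := by
  intro r c f hf
  have h := P328.M9_of (fun m n c R u hub hu => P328.M8_poincare c R u hub hu) r c f hf
  rw [Una_UE] at h
  by_cases hne : (Tb r c).Nonempty
  · obtain ⟨x, hx⟩ := hne
    have hx' := mem_Tb.1 hx
    have he : ∑ i, r i = ∑ a, c a := by
      rw [← sum_congr rfl fun i _ => hx'.1 i, ← sum_congr rfl fun a _ => hx'.2 a]
      exact sum_comm
    unfold sq
    simp only [he]
    exact h
  · rw [not_nonempty_iff_eq_empty] at hne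
    unfold sq UE
    rw [hne, sum_empty, sum_empty, mul_zero]

theorem unary_mono (m n : ℕ) :
    Monotone (fun N : ℕ => 35 * (m : ℝ) * (n + 1) ^ 2 * ((N : ℝ) + 2) ^ 8) := by
  intro N N' h
  have h1 : ((N : ℝ) + 2) ^ 8 ≤ ((N' : ℝ) + 2) ^ 8 := by
    have : (N : ℝ) ≤ N' := by exact_mod_cast h
    exact pow_le_pow_left₀ (by positivity) (by linarith) 8
  exact mul_le_mul_of_nonneg_left h1 (by positivity)

theorem unary_nonneg (m n : ℕ) (N : ℕ) :
    0 ≤ 35 * (m : ℝ) * (n + 1) ^ 2 * ((N : ℝ) + 2) ^ 8 := by positivity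

end Vale.Agent.P328B
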