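import Vale.Agent.Lib.P328B.HBt
import Vale.Agent.Lib.P328B.Fin
import Vale.Agent.Lib.P328B.Una

/-!
P328: the heat-bath chain mixes in time polynomial in `m, n, log N`.
-/

namespace Vale.Agent.P328B

open Finset

variable {m n : ℕ} {r : Fin m → ℕ} {c : Fin n → ℕ}

/-! ### the Poincaré constant -/

/-- the Poincaré constant of the heat-bath energy -/
noncomputable def KP (m n N : ℕ) : ℝ :=
  Kc m n N (fun M => 35 * (m : ℝ) * (n + 1) ^ 2 * ((M : ℝ) + 2) ^ 8)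

theorem KP_pos (m n N : ℕ) (hm : 0 < m) (hn : 0 < n) : 0 < KP m n N := by
  unfold KP Kc
  have h1 : (0 : ℝ) < m := by exact_mod_cast hm
  have h2 : (0 : ℝ) < n := by exact_mod_cast hn
  have h3 : 0 ≤ Real.log ((N : ℝ) + 1) := Real.log_nonneg (by
    have : (0 : ℝ) ≤ (N : ℝ) := Nat.cast_nonneg _
    linarith)
  positivity

/-! ### polynomial form -/

/-- `KP` is polynomial in `S ≥ m + n + log (2 + N)` -/
theorem KP_le (m n N : ℕ) (hm : 0 < m) (hn : 0 < n) (S : ℝ)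
    (hS : (m : ℝ) + n + Real.log (2 + N) ≤ S) : KP m n N ≤ S ^ 525 := by
  have h1 : (1 : ℝ) ≤ m := by exact_mod_cast hm
  have h2 : (1 : ℝ) ≤ n := by exact_mod_cast hn
  have hN : (0 : ℝ) ≤ (N : ℝ) := Nat.cast_nonneg _
  have hl : 0 ≤ Real.log (2 + (N : ℝ)) := Real.log_nonneg (by linarith)
  have hS2 : 2 ≤ S := by linarith
  have hS0 : 0 ≤ S := by linarith
  have hmS : (m : ℝ) + 1 ≤ S := by linarith
  have hnS : (n : ℝ) + 1 ≤ S := by linarith
  have hmS' : (m : ℝ) ≤ S := by linarith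
  have hnS' : (n : ℝ) ≤ S := by linarith
  have hlS : Real.log (2 + (N : ℝ)) ≤ S - 2 := by linarith
  have hpow : ∀ k : ℕ, (2 : ℝ) ^ k ≤ S ^ k := fun k => pow_le_pow_left₀ (by norm_num) hS2 k
  -- the logarithm in base two
  have hlog2 : (Nat.log 2 N : ℝ) ≤ 2 * S := by
    by_cases hN0 : N = 0
    · subst hN0
      simp
      linarith
    · have h3 : (2 : ℝ) ^ (Nat.log 2 N) ≤ N := by exact_mod_cast Nat.pow_log_le_self 2 hN0
      have h4 : Real.log ((2 : ℝ) ^ (Nat.log 2 N)) ≤ Real.log (2 + (N : ℝ)) :=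
        Real.log_le_log (by positivity) (by linarith)
      rw [Real.log_pow] at h4
      have h5 : (1 : ℝ) / 2 ≤ Real.log 2 := by
        have := Real.log_two_gt_d9
        linarith
      have h6 : (Nat.log 2 N : ℝ) * (1 / 2) ≤ (Nat.log 2 N : ℝ) * Real.log 2 :=
        mul_le_mul_of_nonneg_left h5 (Nat.cast_nonneg _)
      linarith
  have hlog2' : (Nat.log 2 N : ℝ) + 2 ≤ S ^ 3 := by
    have h3 : (Nat.log 2 N : ℝ) + 2 ≤ 3 * S := by linarith
    have h4 : 3 * S ≤ S ^ 3 := by nlinarith [mul_nonneg hS0 hS0]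
    exact h3.trans h4
  have hM : ((10 ^ 10 * (m * n) ^ 9 * (Nat.log 2 N + 2) ^ 3 : ℕ) : ℝ) ≤ S ^ 61 := by
    push_cast
    have h3 : (10000000000 : ℝ) ≤ S ^ 34 := le_trans (by norm_num) (hpow 34)
    have h4 : ((m : ℝ) * n) ^ 9 ≤ S ^ 18 := by
      calc ((m : ℝ) * n) ^ 9 ≤ (S * S) ^ 9 :=
            pow_le_pow_left₀ (by positivity) (mul_le_mul hmS' hnS' (by positivity) hS0) 9
        _ = S ^ 18 := by ring
    have h5 : ((Nat.log 2 N : ℝ) + 2) ^ 3 ≤ S ^ 9 := by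
      calc ((Nat.log 2 N : ℝ) + 2) ^ 3 ≤ (S ^ 3) ^ 3 := pow_le_pow_left₀ (by positivity) hlog2' 3
        _ = S ^ 9 := by ring
    refine (mul_le_mul (mul_le_mul h3 h4 (by positivity) (by positivity)) h5 (by positivity)
            (by positivity)).trans (le_of_eq ?_)
    ring
  have h1S : (1 : ℝ) ≤ S := by linarith
  have hone : ∀ k : ℕ, (1 : ℝ) ≤ S ^ k := fun k => one_le_pow₀ h1S
  have hM2 : ((10 ^ 10 * (m * n) ^ 9 * (Nat.log 2 N + 2) ^ 3 : ℕ) : ℝ) + 2 ≤ S ^ 63 := by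
    have h3 : (2 : ℝ) ≤ S ^ 62 := by
      calc (2 : ℝ) = 2 ^ 1 := by norm_num
        _ ≤ S ^ 1 := hpow 1
        _ ≤ S ^ 62 := pow_le_pow_right₀ h1S (by norm_num)
    have h4 : S ^ 61 ≤ S ^ 62 := pow_le_pow_right₀ h1S (by norm_num)
    have h5 : 2 * S ^ 62 ≤ S ^ 63 := by
      have : S ^ 63 = S * S ^ 62 := by ring
      rw [this]
      exact mul_le_mul_of_nonneg_right hS2 (by positivity)
    linarith
  have hκ : 35 * (m : ℝ) * (n + 1) ^ 2 *
      (((10 ^ 10 * (m * n) ^ 9 * (Nat.log 2 N + 2) ^ 3 : ℕ) : ℝ) + 2) ^ 8 ≤ S ^ 513 := by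
    have h3 : (35 : ℝ) ≤ S ^ 6 := le_trans (by norm_num) (hpow 6)
    calc 35 * (m : ℝ) * (n + 1) ^ 2 *
        (((10 ^ 10 * (m * n) ^ 9 * (Nat.log 2 N + 2) ^ 3 : ℕ) : ℝ) + 2) ^ 8
        ≤ S ^ 6 * S * S ^ 2 * (S ^ 63) ^ 8 := by
          refine mul_le_mul (mul_le_mul (mul_le_mul h3 hmS' (by positivity) (by positivity))
            (pow_le_pow_left₀ (by positivity) hnS 2) (by positivity) (by positivity))
            (pow_le_pow_left₀ (by positivity) hM2 8) (by positivity) (by positivity)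
      _ = S ^ 513 := by ring
  unfold KP Kc
  have hb : 144 + 16 * (35 * (m : ℝ) * (n + 1) ^ 2 *
      (((10 ^ 10 * (m * n) ^ 9 * (Nat.log 2 N + 2) ^ 3 : ℕ) : ℝ) + 2) ^ 8) ≤ 32 * S ^ 513 := by
    have h3 : (144 : ℝ) ≤ 16 * S ^ 513 := by
      have h4 : (2 : ℝ) ^ 4 ≤ S ^ 4 := hpow 4
      have h5 : S ^ 4 ≤ S ^ 513 := pow_le_pow_right₀ h1S (by norm_num)
      norm_num at h4
      linarith
    linarith
  have hlg : 1 + Real.log ((N : ℝ) + 1) ≤ S := by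
    have : Real.log ((N : ℝ) + 1) ≤ Real.log (2 + (N : ℝ)) :=
      Real.log_le_log (by linarith) (by linarith)
    linarith
  have hlg0 : 0 ≤ 1 + Real.log ((N : ℝ) + 1) := by
    have : 0 ≤ Real.log ((N : ℝ) + 1) := Real.log_nonneg (by linarith)
    linarith
  calc 4 * (m : ℝ) ^ 2 * (n : ℝ) ^ 2 * (144 + 16 * (35 * (m : ℝ) * (n + 1) ^ 2 *
      (((10 ^ 10 * (m * n) ^ 9 * (Nat.log 2 N + 2) ^ 3 : ℕ) : ℝ) + 2) ^ 8)) *
      (1 + Real.log ((N : ℝ) + 1))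
      ≤ 4 * S ^ 2 * S ^ 2 * (32 * S ^ 513) * S := by
        refine mul_le_mul (mul_le_mul (mul_le_mul (mul_le_mul_of_nonneg_left
          (pow_le_pow_left₀ (by positivity) hmS' 2) (by norm_num))
          (pow_le_pow_left₀ (by positivity) hnS' 2) (by positivity) (by positivity))
          hb (by positivity) (by positivity)) hlg hlg0 (by positivity)
    _ = 128 * S ^ 518 := by ring
    _ ≤ S ^ 7 * S ^ 518 := by
        refine mul_le_mul_of_nonneg_right (le_trans (by norm_num) (hpow 7)) (by positivity)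
    _ = S ^ 525 := by ring

/-- the Poincaré inequality of the heat-bath energy, for all margins -/
theorem HB_energy (r : Fin m → ℕ) (c : Fin n → ℕ) (g : (Fin m → Fin n → ℕ) → ℝ)
    (hg : ∑ x ∈ Tb r c, g x = 0) : sq r c g ≤ KP m n (∑ i, r i) * En r c g := by
  have h := binary_poincare (fun M => 35 * (m : ℝ) * (n + 1) ^ 2 * ((M : ℝ) + 2) ^ 8)
    (unary_mono m n) (unary_nonneg m n) (unary_holds m n) r c g hg
  unfold KP
  exact h

/-- the number of steps is polynomial -/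
theorem const_le (m n N : ℕ) (hm : 0 < m) (hn : 0 < n) (ε : ℝ) (hε : 0 < ε) (hε1 : ε ≤ 1) :
    2 * (m : ℝ) ^ 2 * (n : ℝ) ^ 2 * KP m n N *
        ((m : ℝ) * n * Real.log ((N : ℝ) + 1) + 2 * Real.log (1 / ε)) ≤
      ((m : ℝ) + n + Real.log (2 + (N : ℝ)) + Real.log (1 / ε)) ^ 534 := by
  obtain ⟨S, hS⟩ : ∃ S, S = (m : ℝ) + n + Real.log (2 + (N : ℝ)) + Real.log (1 / ε) := ⟨_, rfl⟩
  rw [← hS]
  have h1 : (1 : ℝ) ≤ m := by exact_mod_cast hm
  have h2 : (1 : ℝ) ≤ n := by exact_mod_cast hn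
  have hN0 : (0 : ℝ) ≤ (N : ℝ) := Nat.cast_nonneg _
  have hl : 0 ≤ Real.log (2 + (N : ℝ)) := Real.log_nonneg (by linarith)
  have hle : 0 ≤ Real.log (1 / ε) := Real.log_nonneg (by rw [le_div_iff₀ hε]; linarith)
  have hl1 : 0 ≤ Real.log ((N : ℝ) + 1) := Real.log_nonneg (by linarith)
  have hl2 : Real.log ((N : ℝ) + 1) ≤ Real.log (2 + (N : ℝ)) :=
    Real.log_le_log (by linarith) (by linarith)
  have hS2 : 2 ≤ S := by linarith
  have hS0 : 0 ≤ S := by linarith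
  have hmS : (m : ℝ) ≤ S := by linarith
  have hnS : (n : ℝ) ≤ S := by linarith
  have hlS : Real.log ((N : ℝ) + 1) ≤ S := by linarith
  have heS : Real.log (1 / ε) ≤ S := by linarith
  have hSl : (m : ℝ) + n + Real.log (2 + (N : ℝ)) ≤ S := by linarith
  have e1 : (m : ℝ) * n * Real.log ((N : ℝ) + 1) + 2 * Real.log (1 / ε) ≤ S ^ 4 := by
    have a1 : (m : ℝ) * n * Real.log ((N : ℝ) + 1) ≤ S * S * S :=
      mul_le_mul (mul_le_mul hmS hnS (by positivity) hS0) hlS hl1 (by positivity)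
    have a2 : 2 * Real.log (1 / ε) ≤ S * S := mul_le_mul hS2 heS hle hS0
    have a3 : S * S ≤ S * S * S := le_mul_of_one_le_right (mul_nonneg hS0 hS0) (by linarith)
    have a4 : 2 * (S * S * S) ≤ S * (S * S * S) :=
      mul_le_mul_of_nonneg_right hS2 (by positivity)
    have a5 : S ^ 4 = S * (S * S * S) := by ring
    rw [a5]
    linarith
  have hK := KP_le m n N hm hn S hSl
  have hK0 := (KP_pos m n N hm hn).le
  have e2 : 2 * (m : ℝ) ^ 2 * (n : ℝ) ^ 2 * KP m n N *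
      ((m : ℝ) * n * Real.log ((N : ℝ) + 1) + 2 * Real.log (1 / ε)) ≤
      S * S ^ 2 * S ^ 2 * S ^ 525 * S ^ 4 :=
    mul_le_mul (mul_le_mul (mul_le_mul (mul_le_mul hS2
      (pow_le_pow_left₀ (by positivity) hmS 2) (by positivity) hS0)
        (pow_le_pow_left₀ (by positivity) hnS 2) (by positivity) (by positivity))
      hK hK0 (by positivity)) e1 (by positivity) (by positivity)
  refine e2.trans (le_of_eq ?_)
  rw [← pow_succ', ← pow_add, ← pow_add, ← pow_add]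

/-- the heat-bath chain mixes in polynomial time, for all margins and from every start -/
theorem HB_mixing534 (m n : ℕ) (hm : 0 < m) (hn : 0 < n) (r : Fin m → ℕ) (c : Fin n → ℕ)
    (ε : ℝ) (hε : 0 < ε) (hε1 : ε ≤ 1) (t : ℕ)
    (ht : ((m : ℝ) + n + Real.log (2 + ((∑ i, r i : ℕ) : ℝ)) + Real.log (1 / ε)) ^ 534 ≤ t)
    (X : P328.Tab r c) :
    (1 / 2) * ∑ Y, |((P328.HB r c) ^ t) X Y - 1 / (Fintype.card (P328.Tab r c) : ℝ)| ≤ ε :=
  P328.HB_mix_K hm hn r c (KP m n (∑ i, r i)) (KP_pos m n _ hm hn)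
    (fun g hg => HB_energy r c g hg) ε hε t
    (le_trans (const_le m n (∑ i, r i) hm hn ε hε hε1) ht) X

/-- the same with an unspecified exponent -/
theorem HB_mixing : ∃ A : ℕ, ∀ (m n : ℕ) (_ : 0 < m) (_ : 0 < n) (r : Fin m → ℕ) (c : Fin n → ℕ)
    (ε : ℝ), 0 < ε → ε ≤ 1 → ∀ t : ℕ,
    ((m : ℝ) + n + Real.log (2 + ((∑ i, r i : ℕ) : ℝ)) + Real.log (1 / ε)) ^ A ≤ t →
    ∀ X : P328.Tab r c,
      (1 / 2) * ∑ Y, |((P328.HB r c) ^ t) X Y - 1 / (Fintype.card (P328.Tab r c) : ℝ)| ≤ ε :=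
  ⟨534, fun m n hm hn r c ε hε hε1 t ht X => HB_mixing534 m n hm hn r c ε hε hε1 t ht X⟩

end Vale.Agent.P328B
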