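import Vale.Agent.Lib.P328B.Mix
import Vale.Agent.Lib.P328.HBDefs

/-!
P328: the facts on the heat-bath chain `P328.HB`, and mixing from a Poincaré inequality.
-/

namespace Vale.Agent.P328

open Finset

variable {m n : ℕ} {r : Fin m → ℕ} {c : Fin n → ℕ}

theorem HB_eq (r : Fin m → ℕ) (c : Fin n → ℕ) : HB r c = P328Mix.HB r c := by
  classical
  ext X Y
  unfold HB P328Mix.HB
  have h : ∑ q : (Fin m × Fin m) × (Fin n × Fin n), P328Mix.RB q X Y =
      ∑ i : Fin m, ∑ k : Fin m, ∑ a : Fin n, ∑ b : Fin n,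
      if agreeOff i k a b X Y then
        1 / ((univ.filter fun Z : Tab r c => agreeOff i k a b X Z).card : ℝ) else 0 := by
    rw [Fintype.sum_prod_type, Fintype.sum_prod_type]
    refine sum_congr rfl fun i _ => sum_congr rfl fun k _ => ?_
    rw [Fintype.sum_prod_type]
    refine sum_congr rfl fun a _ => sum_congr rfl fun b _ => ?_
    unfold P328Mix.RB
    have e1 : P328Mix.bl ((i, k), (a, b)) X =
        univ.filter fun Z : Tab r c => agreeOff i k a b X Z := by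
      ext Z
      rw [P328Mix.mem_bl, mem_filter]
      exact ⟨fun h => ⟨mem_univ _, h⟩, fun h => h.2⟩
    have e2 : Y ∈ P328Mix.bl ((i, k), (a, b)) X ↔ agreeOff i k a b X Y := by
      rw [P328Mix.mem_bl]
      exact Iff.rfl
    by_cases h : agreeOff i k a b X Y
    · rw [if_pos h, if_pos (e2.2 h), e1]
    · rw [if_neg h, if_neg (fun h' => h (e2.1 h'))]
  rw [h]
  congr 1
  ring

theorem HB_symm (X Y : Tab r c) : HB r c X Y = HB r c Y X := by
  rw [HB_eq]; exact P328Mix.HB_symm X Y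

theorem HB_nonneg (X Y : Tab r c) : 0 ≤ HB r c X Y := by
  rw [HB_eq]; exact P328Mix.HB_nonneg X Y

theorem HB_lazy (X : Tab r c) : 1 / 2 ≤ HB r c X X := by
  rw [HB_eq]; exact P328Mix.HB_lazy X

theorem HB_row (hm : 0 < m) (hn : 0 < n) (X : Tab r c) : ∑ Y, HB r c X Y = 1 := by
  rw [HB_eq]; exact P328Mix.HB_row hm hn X

theorem HB_mix_K (hm : 0 < m) (hn : 0 < n) (r : Fin m → ℕ) (c : Fin n → ℕ) (K : ℝ) (hK : 0 < K)
    (hP : ∀ f : (Fin m → Fin n → ℕ) → ℝ, ∑ x ∈ P328B.Tb r c, f x = 0 →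
      P328B.sq r c f ≤ K * P328B.En r c f)
    (ε : ℝ) (hε : 0 < ε) (t : ℕ)
    (ht : 2 * (m : ℝ) ^ 2 * (n : ℝ) ^ 2 * K * ((m : ℝ) * n * Real.log ((∑ i, r i : ℕ) + 1)
      + 2 * Real.log (1 / ε)) ≤ t) (X : Tab r c) :
    (1 / 2) * ∑ Y, |(HB r c ^ t) X Y - 1 / (Fintype.card (Tab r c) : ℝ)| ≤ ε := by
  rw [HB_eq]
  exact P328Mix.HB_mix r c hm hn K hK hP ε hε t ht X

end Vale.Agent.P328
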