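import Vale.Agent.Lib.P328B.Defs

/-!
P328 binary, module LOC0: reindexing by units.
-/

namespace Vale.Agent.P328B

open Finset

variable {m n : ℕ}

theorem Loc0_Et_le {x : Fin m → Fin n → ℕ} {i : Fin m} {a : Fin n} {l : ℕ} (h : l ≤ x i a) :
    Et l i a ≤ x := by
  intro p q
  unfold Et
  split_ifs with h1
  · rw [h1.1, h1.2]; exact h
  · exact Nat.zero_le _

theorem Loc0_row (l : ℕ) (i : Fin m) (a : Fin n) (p : Fin m) :
    ∑ q, Et l i a p q = e1 l i p := by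
  unfold Et e1
  by_cases hp : p = i
  · simp [hp]
  · simp [hp]

theorem Loc0_col (l : ℕ) (i : Fin m) (a : Fin n) (q : Fin n) :
    ∑ p, Et l i a p q = e1 l a q := by
  unfold Et e1
  by_cases hq : q = a
  · simp [hq]
  · simp [hq]

theorem Loc0_mem_add {r : Fin m → ℕ} {c : Fin n → ℕ} {i : Fin m} {a : Fin n} {l : ℕ} (hr : l ≤ r i)
    (hc : l ≤ c a) {y : Fin m → Fin n → ℕ} :
    y ∈ Tb (r - e1 l i) (c - e1 l a) ↔ y + Et l i a ∈ Tb r c := by
  rw [mem_Tb, mem_Tb]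
  have h1 : ∀ p, ∑ q, (y + Et l i a) p q = ∑ q, y p q + e1 l i p := by
    intro p
    rw [← Loc0_row l i a p, ← sum_add_distrib]
    rfl
  have h2 : ∀ q, ∑ p, (y + Et l i a) p q = ∑ p, y p q + e1 l a q := by
    intro q
    rw [← Loc0_col l i a q, ← sum_add_distrib]
    rfl
  have h3 : ∀ p, e1 l i p ≤ r p := by
    intro p; unfold e1; split_ifs with h
    · rw [h]; exact hr
    · exact Nat.zero_le _
  have h4 : ∀ q, e1 l a q ≤ c q := by
    intro q; unfold e1; split_ifs with h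
    · rw [h]; exact hc
    · exact Nat.zero_le _
  constructor
  · rintro ⟨u, v⟩
    refine ⟨fun p => ?_, fun q => ?_⟩
    · rw [h1, u p, Pi.sub_apply]; have := h3 p; omega
    · rw [h2, v q, Pi.sub_apply]; have := h4 q; omega
  · rintro ⟨u, v⟩
    refine ⟨fun p => ?_, fun q => ?_⟩
    · have := u p; rw [h1] at this; rw [Pi.sub_apply]; omega
    · have := v q; rw [h2] at this; rw [Pi.sub_apply]; omega

theorem unit_bij {r : Fin m → ℕ} {c : Fin n → ℕ} (i : Fin m) (a : Fin n) (l : ℕ) (hr : l ≤ r i)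
    (hc : l ≤ c a) (G : (Fin m → Fin n → ℕ) → ℝ) :
    ∑ x ∈ (Tb r c).filter (fun x => l ≤ x i a), G x =
      ∑ y ∈ Tb (r - e1 l i) (c - e1 l a), G (y + Et l i a) := by
  symm
  refine sum_bij' (fun y _ => y + Et l i a) (fun x _ => x - Et l i a) ?_ ?_ ?_ ?_ ?_
  · intro y hy
    rw [mem_filter]
    refine ⟨(Loc0_mem_add hr hc).mp hy, ?_⟩
    simp [Et]
  · intro x hx
    rw [mem_filter] at hx
    rw [Loc0_mem_add hr hc, tsub_add_cancel_of_le (Loc0_Et_le hx.2)]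
    exact hx.1
  · intro y _
    exact add_tsub_cancel_right y _
  · intro x hx
    rw [mem_filter] at hx
    exact tsub_add_cancel_of_le (Loc0_Et_le hx.2)
  · intro y _
    rfl

theorem unit_sum {r : Fin m → ℕ} {c : Fin n → ℕ} (G : Fin m → Fin n → ℕ → (Fin m → Fin n → ℕ) → ℝ) :
    ∑ x ∈ Tb r c, ∑ i, ∑ a, ∑ l ∈ Icc 1 (x i a), G i a l x =
      ∑ i, ∑ a, ∑ l ∈ Icc 1 (min (r i) (c a)),
        ∑ y ∈ Tb (r - e1 l i) (c - e1 l a), G i a l (y + Et l i a) := by
  rw [sum_comm]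
  refine sum_congr rfl fun i _ => ?_
  rw [sum_comm]
  refine sum_congr rfl fun a _ => ?_
  have h1 : ∀ l ∈ Icc 1 (min (r i) (c a)),
      ∑ y ∈ Tb (r - e1 l i) (c - e1 l a), G i a l (y + Et l i a) =
      ∑ x ∈ Tb r c, if l ≤ x i a then G i a l x else 0 := by
    intro l hl
    rw [mem_Icc, le_min_iff] at hl
    rw [← unit_bij i a l hl.2.1 hl.2.2, sum_filter]
  rw [sum_congr rfl h1, sum_comm]
  refine sum_congr rfl fun x hx => ?_
  rw [← sum_filter]
  refine sum_congr ?_ fun _ _ => rfl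
  ext l
  simp only [mem_Icc, mem_filter, le_min_iff]
  have h2 := le_row hx i a
  have h3 := le_col hx i a
  constructor
  · rintro ⟨u, v⟩; exact ⟨⟨u, v.trans h2, v.trans h3⟩, v⟩
  · rintro ⟨⟨u, _⟩, v⟩; exact ⟨u, v⟩

end Vale.Agent.P328B
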