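import Vale.Agent.Lib.P328B.Loc0
import Vale.Agent.Lib.P328B.Cm

/-!
P328 binary, module LOC1: the energy of the restricted table.
-/

namespace Vale.Agent.P328B

open Finset

theorem Loc1_best {α : Type} {S : Finset α} {R : α → α → Prop} [DecidableRel R]
    (hR : Equivalence R) (f t : α → ℝ) (ht : ∀ x ∈ S, ∀ y ∈ S, R x y → t y = t x) :
    ∑ x ∈ S, (f x - cm S R f x) ^ 2 ≤ ∑ x ∈ S, (f x - t x) ^ 2 := by
  have h1 : ∀ x ∈ S, f x - cm S R f x =
      (fun x => f x - t x) x - cm S R (fun x => f x - t x) x := by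
    intro x hx
    have e1 : cm S R (fun x => f x - t x) x = cm S R f x - cm S R t x := mean_sub _ _ _
    rw [e1, cm_of_const hR hx (fun y hy h => ht x hx y hy h)]
    ring
  rw [sum_congr rfl (fun x hx => by rw [h1 x hx])]
  have h2 := cm_pyth (S := S) hR (fun x => f x - t x)
  have h3 : 0 ≤ ∑ x ∈ S, cm S R (fun x => f x - t x) x ^ 2 := sum_nonneg fun _ _ => sq_nonneg _
  linarith

variable {m n : ℕ}

theorem En_restrict {r : Fin m → ℕ} {c : Fin n → ℕ} (i : Fin m) (a : Fin n) (l : ℕ) (hr : l ≤ r i)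
    (hc : l ≤ c a) (f : (Fin m → Fin n → ℕ) → ℝ) :
    En (r - e1 l i) (c - e1 l a) (fun y => f (y + Et l i a)) ≤
      ∑ i' : Fin m, ∑ k' : Fin m, ∑ a' : Fin n, ∑ b' : Fin n, if i' ≠ k' ∧ a' ≠ b' then
        ∑ x ∈ (Tb r c).filter (fun x => l ≤ x i a), (f x - lm r c i' k' a' b' f x) ^ 2 else 0 := by
  unfold En
  refine sum_le_sum fun i' _ => sum_le_sum fun k' _ => sum_le_sum fun a' _ => sum_le_sum fun b' _ => ?_
  split_ifs with h
  · rw [unit_bij i a l hr hc (fun x => (f x - lm r c i' k' a' b' f x) ^ 2)]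
    unfold EB
    rw [lm_eq_cm]
    refine Loc1_best (Off_equiv i' k' a' b') (fun y => f (y + Et l i a))
      (fun y => lm r c i' k' a' b' f (y + Et l i a)) ?_
    intro x _ y _ hxy
    rw [lm_eq_cm]
    refine (cm_const (Off_equiv i' k' a' b') f ?_).symm
    intro p q hpq
    have := hxy p q hpq
    simp only [Pi.add_apply]
    rw [this]
  · exact le_refl _

end Vale.Agent.P328B
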