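import Vale.Agent.Lib.P328B.Cm
import Vale.Agent.Lib.P328.Std

/-!
P328 BINARY, module MIX: the lazy 2x2 heat-bath chain; from the Poincaré inequality for the energy
`En` to mixing.
-/

namespace Vale.Agent.P328Mix

open Finset
open Vale.Agent.P328 (Tab card_Tab mixing_eps)
open Vale.Agent.P328B

variable {m n : ℕ} {r : Fin m → ℕ} {c : Fin n → ℕ}

theorem mx_sum (F : (Fin m → Fin n → ℕ) → ℝ) :
    ∑ T ∈ Tb r c, F T = ∑ X : Tab r c, F X.1 := by
  symm
  refine Finset.sum_bij (fun X _ => X.1) ?_ ?_ ?_ ?_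
  · intro X _
    exact mem_Tb.2 X.2
  · intro X _ Y _ h
    exact Subtype.ext h
  · intro T hT
    exact ⟨⟨T, mem_Tb.1 hT⟩, Finset.mem_univ _, rfl⟩
  · intro X _
    rfl

/-- extension by zero of a function on tables -/
noncomputable def mx_ext (f : Tab r c → ℝ) (T : Fin m → Fin n → ℕ) : ℝ :=
  if h : (∀ i, ∑ a, T i a = r i) ∧ ∀ a, ∑ i, T i a = c a then f ⟨T, h⟩ else 0

theorem mx_ext_val (f : Tab r c → ℝ) (X : Tab r c) : mx_ext f X.1 = f X := by
  unfold mx_ext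
  rw [dif_pos X.2]
  rfl

/-- the tables which agree with `X` outside the block -/
noncomputable def bl (q : (Fin m × Fin m) × (Fin n × Fin n)) (X : Tab r c) : Finset (Tab r c) :=
  univ.filter fun Y => ∀ p s, ¬ ((p = q.1.1 ∨ p = q.1.2) ∧ (s = q.2.1 ∨ s = q.2.2)) →
    X.1 p s = Y.1 p s

theorem mem_bl {q : (Fin m × Fin m) × (Fin n × Fin n)} {X Y : Tab r c} :
    Y ∈ bl q X ↔ Off q.1.1 q.1.2 q.2.1 q.2.2 X.1 Y.1 := by
  unfold bl Off
  simp only [mem_filter, mem_univ, true_and]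

theorem bl_sum (q : (Fin m × Fin m) × (Fin n × Fin n)) (X : Tab r c) (g : Tab r c → ℝ) :
    ∑ Y ∈ bl q X, g Y = ∑ T ∈ ln r c q.1.1 q.1.2 q.2.1 q.2.2 X.1, mx_ext g T := by
  unfold ln
  rw [sum_filter, mx_sum, ← sum_filter_add_sum_filter_not univ (fun Y => Y ∈ bl q X)]
  rw [← add_zero (∑ Y ∈ bl q X, g Y)]
  congr 1
  · have e : univ.filter (fun Y => Y ∈ bl q X) = bl q X := by
      ext Y; simp
    rw [e]
    apply sum_congr rfl
    intro Y hY
    rw [if_pos (mem_bl.1 hY), mx_ext_val]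
  · symm
    apply sum_eq_zero
    intro Y hY
    rw [if_neg]
    intro h
    exact (mem_filter.1 hY).2 (mem_bl.2 h)

theorem bl_card (q : (Fin m × Fin m) × (Fin n × Fin n)) (X : Tab r c) :
    (bl q X).card = (ln r c q.1.1 q.1.2 q.2.1 q.2.2 X.1).card := by
  have h := bl_sum q X (fun _ => 1)
  have e : ∑ T ∈ ln r c q.1.1 q.1.2 q.2.1 q.2.2 X.1, mx_ext (fun _ : Tab r c => (1 : ℝ)) T
      = ∑ T ∈ ln r c q.1.1 q.1.2 q.2.1 q.2.2 X.1, (1 : ℝ) := by
    apply sum_congr rfl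
    intro T hT
    have hT' : T ∈ Tb r c := (mem_filter.1 hT).1
    exact mx_ext_val (fun _ : Tab r c => (1 : ℝ)) ⟨T, mem_Tb.1 hT'⟩
  rw [e] at h
  simp only [sum_const, nsmul_eq_mul, mul_one] at h
  exact_mod_cast h

theorem self_mem_bl (q : (Fin m × Fin m) × (Fin n × Fin n)) (X : Tab r c) : X ∈ bl q X :=
  mem_bl.2 (fun _ _ _ => rfl)

theorem bl_card_pos (q : (Fin m × Fin m) × (Fin n × Fin n)) (X : Tab r c) :
    (0 : ℝ) < (bl q X).card := by
  exact_mod_cast card_pos.2 ⟨X, self_mem_bl q X⟩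

theorem bl_eq {q : (Fin m × Fin m) × (Fin n × Fin n)} {X Y : Tab r c} (h : Y ∈ bl q X) :
    bl q X = bl q Y := by
  rw [mem_bl] at h
  ext Z
  rw [mem_bl, mem_bl]
  constructor
  · intro hZ p s hps; rw [← h p s hps, hZ p s hps]
  · intro hZ p s hps; rw [h p s hps, hZ p s hps]

theorem bl_symm {q : (Fin m × Fin m) × (Fin n × Fin n)} {X Y : Tab r c} :
    Y ∈ bl q X ↔ X ∈ bl q Y := by
  rw [mem_bl, mem_bl]
  exact ⟨fun h p s hps => (h p s hps).symm, fun h p s hps => (h p s hps).symm⟩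

/-- resampling the block `q` -/
noncomputable def RB (q : (Fin m × Fin m) × (Fin n × Fin n)) (X Y : Tab r c) : ℝ :=
  if Y ∈ bl q X then 1 / ((bl q X).card : ℝ) else 0

/-- the lazy 2x2 heat-bath chain: with probability `1/2` nothing happens, otherwise two rows and two
columns are chosen uniformly and the table is replaced by a uniform table which agrees with it
outside these rows and columns -/
noncomputable def HB (r : Fin m → ℕ) (c : Fin n → ℕ) : Matrix (Tab r c) (Tab r c) ℝ :=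
  fun X Y => (if X = Y then 1 / 2 else 0) +
    (1 / 2) * (∑ q : (Fin m × Fin m) × (Fin n × Fin n), RB q X Y) / ((m : ℝ) ^ 2 * (n : ℝ) ^ 2)

theorem RB_nonneg (q : (Fin m × Fin m) × (Fin n × Fin n)) (X Y : Tab r c) : 0 ≤ RB q X Y := by
  unfold RB
  split_ifs
  · positivity
  · exact le_rfl

theorem RB_symm (q : (Fin m × Fin m) × (Fin n × Fin n)) (X Y : Tab r c) : RB q X Y = RB q Y X := by
  unfold RB
  by_cases h : Y ∈ bl q X
  · rw [if_pos h, if_pos (bl_symm.1 h), bl_eq h]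
  · rw [if_neg h, if_neg (fun h' => h (bl_symm.1 h'))]

theorem RB_sum (q : (Fin m × Fin m) × (Fin n × Fin n)) (X : Tab r c) (g : Tab r c → ℝ) :
    ∑ Y, RB q X Y * g Y = (∑ Y ∈ bl q X, g Y) / ((bl q X).card : ℝ) := by
  have e : ∀ Y, RB q X Y * g Y = if Y ∈ bl q X then g Y / ((bl q X).card : ℝ) else 0 := by
    intro Y
    unfold RB
    split_ifs
    · ring
    · ring
  simp only [e]
  rw [← sum_filter, sum_div]
  apply sum_congr _ (fun _ _ => rfl)
  ext Y; simp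

theorem RB_row (q : (Fin m × Fin m) × (Fin n × Fin n)) (X : Tab r c) : ∑ Y, RB q X Y = 1 := by
  have h := RB_sum q X (fun _ => 1)
  simp only [mul_one, sum_const, nsmul_eq_mul] at h
  rw [h, div_self (bl_card_pos q X).ne']

theorem HB_symm (X Y : Tab r c) : HB r c X Y = HB r c Y X := by
  unfold HB
  rw [sum_congr rfl (fun q _ => RB_symm q X Y)]
  by_cases h : X = Y
  · rw [if_pos h, if_pos h.symm]
  · rw [if_neg h, if_neg (Ne.symm h)]

theorem HB_nonneg (X Y : Tab r c) : 0 ≤ HB r c X Y := by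
  unfold HB
  have : 0 ≤ ∑ q : (Fin m × Fin m) × (Fin n × Fin n), RB q X Y :=
    sum_nonneg fun q _ => RB_nonneg q X Y
  split_ifs <;> positivity

theorem HB_lazy (X : Tab r c) : 1 / 2 ≤ HB r c X X := by
  unfold HB
  have : 0 ≤ ∑ q : (Fin m × Fin m) × (Fin n × Fin n), RB q X X :=
    sum_nonneg fun q _ => RB_nonneg q X X
  have h2 : 0 ≤ (1 / 2) * (∑ q : (Fin m × Fin m) × (Fin n × Fin n), RB q X X) /
    ((m : ℝ) ^ 2 * (n : ℝ) ^ 2) := by positivity
  rw [if_pos rfl]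
  linarith

/-- sums against the chain -/
theorem HB_sum (X : Tab r c) (g : Tab r c → ℝ) :
    ∑ Y, HB r c X Y * g Y = g X / 2 +
      (∑ q, (∑ Y ∈ bl q X, g Y) / ((bl q X).card : ℝ)) / (2 * ((m : ℝ) ^ 2 * (n : ℝ) ^ 2)) := by
  have h1 : ∀ Y, HB r c X Y * g Y = (if X = Y then g Y / 2 else 0)
      + (∑ q : (Fin m × Fin m) × (Fin n × Fin n), RB q X Y * g Y)
        / (2 * ((m : ℝ) ^ 2 * (n : ℝ) ^ 2)) := by
    intro Y
    unfold HB
    rw [← sum_mul]
    split_ifs <;> ring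
  simp only [h1]
  rw [sum_add_distrib, ← sum_div, sum_comm]
  simp only [RB_sum]
  simp

theorem HB_row (hm : 0 < m) (hn : 0 < n) (X : Tab r c) : ∑ Y, HB r c X Y = 1 := by
  have h := HB_sum X (fun _ => 1)
  simp only [mul_one, sum_const, nsmul_eq_mul] at h
  rw [h]
  have e : ∀ q ∈ (univ : Finset ((Fin m × Fin m) × (Fin n × Fin n))),
      ((bl q X).card : ℝ) / ((bl q X).card : ℝ) = 1 := fun q _ => div_self (bl_card_pos q X).ne'
  rw [sum_congr rfl e]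
  simp only [sum_const, card_univ, Fintype.card_prod, Fintype.card_fin, nsmul_eq_mul]
  have h1 : (0 : ℝ) < m := by exact_mod_cast hm
  have h2 : (0 : ℝ) < n := by exact_mod_cast hn
  push_cast
  field_simp
  norm_num

/-- the energy of a block as a sum over pairs -/
theorem EB_pairs (q : (Fin m × Fin m) × (Fin n × Fin n)) (f : Tab r c → ℝ) :
    ∑ X, (∑ Y ∈ bl q X, (f X - f Y) ^ 2) / (2 * ((bl q X).card : ℝ)) =
      EB r c q.1.1 q.1.2 q.2.1 q.2.2 (mx_ext f) := by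
  have hR := Off_equiv q.1.1 q.1.2 q.2.1 q.2.2
  unfold EB
  have e1 : ∀ X : Tab r c, (∑ Y ∈ bl q X, (f X - f Y) ^ 2) / (2 * ((bl q X).card : ℝ)) =
      mx_ext f X.1 ^ 2 / 2 - mx_ext f X.1 * lm r c q.1.1 q.1.2 q.2.1 q.2.2 (mx_ext f) X.1 +
        lm r c q.1.1 q.1.2 q.2.1 q.2.2 (fun T => mx_ext f T ^ 2) X.1 / 2 := by
    intro X
    have hc := bl_card_pos q X
    have h1 : ∑ Y ∈ bl q X, (f X - f Y) ^ 2 = ((bl q X).card : ℝ) * f X ^ 2 -
        2 * f X * ∑ Y ∈ bl q X, f Y + ∑ Y ∈ bl q X, f Y ^ 2 := by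
      have e : ∀ Y ∈ bl q X, (f X - f Y) ^ 2 = f X ^ 2 - 2 * f X * f Y + f Y ^ 2 := by
        intro Y _; ring
      rw [sum_congr rfl e, sum_add_distrib, sum_sub_distrib, sum_const, nsmul_eq_mul, ← mul_sum]
    have h2 : lm r c q.1.1 q.1.2 q.2.1 q.2.2 (mx_ext f) X.1 =
        (∑ Y ∈ bl q X, f Y) / ((bl q X).card : ℝ) := by
      unfold lm mean
      rw [bl_sum, bl_card]
    have h3 : lm r c q.1.1 q.1.2 q.2.1 q.2.2 (fun T => mx_ext f T ^ 2) X.1 =
        (∑ Y ∈ bl q X, f Y ^ 2) / ((bl q X).card : ℝ) := by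
      unfold lm mean
      rw [bl_sum q X (fun Y => f Y ^ 2), bl_card]
      congr 1
      apply sum_congr rfl
      intro T hT
      have hT' : T ∈ Tb r c := (mem_filter.1 hT).1
      have e4 := mx_ext_val f ⟨T, mem_Tb.1 hT'⟩
      have e5 := mx_ext_val (fun Y => f Y ^ 2) (⟨T, mem_Tb.1 hT'⟩ : Tab r c)
      change mx_ext f T = _ at e4
      change mx_ext _ T = _ at e5
      change mx_ext f T ^ 2 = mx_ext (fun Y => f Y ^ 2) T
      rw [e4, e5]
    rw [h1, h2, h3, mx_ext_val]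
    field_simp
  rw [sum_congr rfl (fun X _ => e1 X), ← mx_sum (fun T => mx_ext f T ^ 2 / 2 -
    mx_ext f T * lm r c q.1.1 q.1.2 q.2.1 q.2.2 (mx_ext f) T +
        lm r c q.1.1 q.1.2 q.2.1 q.2.2 (fun T => mx_ext f T ^ 2) T / 2)]
  rw [sum_add_distrib, sum_sub_distrib, ← sum_div, ← sum_div]
  have h4 : ∑ T ∈ Tb r c, lm r c q.1.1 q.1.2 q.2.1 q.2.2 (fun T => mx_ext f T ^ 2) T =
      ∑ T ∈ Tb r c, mx_ext f T ^ 2 := sum_cm (S := Tb r c) hR (fun T => mx_ext f T ^ 2)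
  have h5 := cm_mul_cm (S := Tb r c) hR (mx_ext f) (mx_ext f)
  change ∑ T ∈ Tb r c, lm r c q.1.1 q.1.2 q.2.1 q.2.2 (mx_ext f) T *
    lm r c q.1.1 q.1.2 q.2.1 q.2.2 (mx_ext f) T =
    ∑ T ∈ Tb r c, lm r c q.1.1 q.1.2 q.2.1 q.2.2 (mx_ext f) T * mx_ext f T at h5
  have e6 : ∀ T ∈ Tb r c, (mx_ext f T - lm r c q.1.1 q.1.2 q.2.1 q.2.2 (mx_ext f) T) ^ 2 =
      mx_ext f T ^ 2 - 2 * (mx_ext f T * lm r c q.1.1 q.1.2 q.2.1 q.2.2 (mx_ext f) T) +
      lm r c q.1.1 q.1.2 q.2.1 q.2.2 (mx_ext f) T *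
        lm r c q.1.1 q.1.2 q.2.1 q.2.2 (mx_ext f) T := by
    intro T _; ring
  rw [sum_congr rfl e6, sum_add_distrib, sum_sub_distrib, ← mul_sum, h5, h4]
  have e7 : ∑ T ∈ Tb r c, lm r c q.1.1 q.1.2 q.2.1 q.2.2 (mx_ext f) T * mx_ext f T =
      ∑ T ∈ Tb r c, mx_ext f T * lm r c q.1.1 q.1.2 q.2.1 q.2.2 (mx_ext f) T :=
    sum_congr rfl fun _ _ => mul_comm _ _
  rw [e7]
  ring

/-- Dirichlet form of the chain -/
theorem HB_dirichlet (hm : 0 < m) (hn : 0 < n) (f : Tab r c → ℝ) :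
    En r c (mx_ext f) ≤ (2 * ((m : ℝ) ^ 2 * (n : ℝ) ^ 2)) *
      ∑ X, ∑ Y, HB r c X Y * (f X - f Y) ^ 2 / 2 := by
  have h1 : (0 : ℝ) < m := by exact_mod_cast hm
  have h2 : (0 : ℝ) < n := by exact_mod_cast hn
  have e1 : ∀ X : Tab r c, ∑ Y, HB r c X Y * (f X - f Y) ^ 2 / 2 =
      (∑ q, (∑ Y ∈ bl q X, (f X - f Y) ^ 2) / (2 * ((bl q X).card : ℝ))) /
        (2 * ((m : ℝ) ^ 2 * (n : ℝ) ^ 2)) := by
    intro X
    rw [← sum_div, HB_sum X (fun Y => (f X - f Y) ^ 2)]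
    simp only [sub_self]
    have e : ∀ q ∈ (univ : Finset ((Fin m × Fin m) × (Fin n × Fin n))),
        (∑ Y ∈ bl q X, (f X - f Y) ^ 2) / (2 * ((bl q X).card : ℝ)) =
        ((∑ Y ∈ bl q X, (f X - f Y) ^ 2) / ((bl q X).card : ℝ)) / 2 := by
      intro q _
      rw [div_div, mul_comm]
    rw [sum_congr rfl e, ← sum_div]
    ring
  rw [sum_congr rfl (fun X _ => e1 X), ← sum_div, sum_comm]
  rw [sum_congr rfl (fun q _ => EB_pairs q f)]
  rw [mul_div_cancel₀ _ (by positivity)]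
  unfold En
  rw [Fintype.sum_prod_type, Fintype.sum_prod_type]
  apply sum_le_sum; intro i _
  apply sum_le_sum; intro k _
  rw [Fintype.sum_prod_type]
  apply sum_le_sum; intro a _
  apply sum_le_sum; intro b _
  split_ifs
  · exact le_rfl
  · exact EB_nonneg r c i k a b (mx_ext f)

/-- mixing from the Poincaré inequality -/
theorem HB_mix (r : Fin m → ℕ) (c : Fin n → ℕ) (hm : 0 < m) (hn : 0 < n) (K : ℝ) (hK : 0 < K)
    (hP : ∀ f : (Fin m → Fin n → ℕ) → ℝ, ∑ x ∈ Tb r c, f x = 0 → P328B.sq r c f ≤ K * En r c f)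
    (ε : ℝ) (hε : 0 < ε) (t : ℕ)
    (ht : 2 * (m : ℝ) ^ 2 * (n : ℝ) ^ 2 * K * ((m : ℝ) * n * Real.log ((∑ i, r i : ℕ) + 1)
      + 2 * Real.log (1 / ε)) ≤ t) (X : Tab r c) :
    (1 / 2) * ∑ Y, |((HB r c) ^ t) X Y - 1 / (Fintype.card (Tab r c) : ℝ)| ≤ ε := by
  have h1 : (0 : ℝ) < m := by exact_mod_cast hm
  have h2 : (0 : ℝ) < n := by exact_mod_cast hn
  have hcard : 0 < Fintype.card (Tab r c) := Fintype.card_pos_iff.2 ⟨X⟩
  refine mixing_eps (HB r c) HB_symm (HB_row hm hn) HB_nonneg HB_lazy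
    (2 * (m : ℝ) ^ 2 * (n : ℝ) ^ 2 * K) (by positivity) ?_ ε hε t ?_ X
  · intro f hf
    have h3 := hP (mx_ext f) (by rw [mx_sum]; simpa only [mx_ext_val] using hf)
    unfold Vale.Agent.P328B.sq at h3
    rw [mx_sum (fun T => mx_ext f T ^ 2)] at h3
    simp only [mx_ext_val] at h3
    refine h3.trans ?_
    have h4 := mul_le_mul_of_nonneg_left (HB_dirichlet hm hn f) hK.le
    refine h4.trans (le_of_eq (by ring))
  · refine le_trans ?_ ht
    refine mul_le_mul_of_nonneg_left ?_ (by positivity)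
    have h3 : Real.log (Fintype.card (Tab r c)) ≤ (m : ℝ) * n * Real.log ((∑ i, r i : ℕ) + 1) := by
      have h4 : (Fintype.card (Tab r c) : ℝ) ≤ (((∑ i, r i : ℕ) : ℝ) + 1) ^ (m * n) := by
        exact_mod_cast card_Tab r c
      calc Real.log (Fintype.card (Tab r c)) ≤ Real.log ((((∑ i, r i : ℕ) : ℝ) + 1) ^ (m * n)) :=
            Real.log_le_log (by exact_mod_cast hcard) h4
        _ = (m : ℝ) * n * Real.log ((∑ i, r i : ℕ) + 1) := by
            rw [Real.log_pow]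
            push_cast
            ring
    linarith

end Vale.Agent.P328Mix
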