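import Vale.Agent.Lib.P328B.Loc1

/-!
P328 binary, module REDU: removing the forced units.
-/

namespace Vale.Agent.P328B

open Finset

variable {m n : ℕ}

theorem Redu_le {r : Fin m → ℕ} {c : Fin n → ℕ} (p : Fin m) (q : Fin n) (L : ℕ)
    (hL : L + ∑ i, r i = r p + c q) {x : Fin m → Fin n → ℕ} (hx : x ∈ Tb r c) : L ≤ x p q := by
  have h1 : c q = x p q + ∑ i ∈ univ.erase p, x i q := by
    rw [← col_sum hx q, add_sum_erase univ (fun i => x i q) (mem_univ p)]
  have h2 : ∑ i, r i = r p + ∑ i ∈ univ.erase p, r i := by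
    rw [add_sum_erase univ r (mem_univ p)]
  have h3 : ∑ i ∈ univ.erase p, x i q ≤ ∑ i ∈ univ.erase p, r i :=
    sum_le_sum fun i _ => le_row hx i q
  omega

theorem forced {r : Fin m → ℕ} {c : Fin n → ℕ} (p : Fin m) (q : Fin n) (L : ℕ)
    (hL : L + ∑ i, r i = r p + c q) (hs : ∑ i, r i = ∑ a, c a) (f : (Fin m → Fin n → ℕ) → ℝ) :
    sq r c f = sq (r - e1 L p) (c - e1 L q) (fun y => f (y + Et L p q)) ∧
    ∑ x ∈ Tb r c, f x = ∑ y ∈ Tb (r - e1 L p) (c - e1 L q), f (y + Et L p q) ∧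
    En (r - e1 L p) (c - e1 L q) (fun y => f (y + Et L p q)) ≤ En r c f := by
  have hp : r p ≤ ∑ i, r i := single_le_sum (fun _ _ => Nat.zero_le _) (mem_univ p)
  have hq : c q ≤ ∑ a, c a := single_le_sum (fun _ _ => Nat.zero_le _) (mem_univ q)
  have hr : L ≤ r p := by omega
  have hc : L ≤ c q := by omega
  have hf : (Tb r c).filter (fun x => L ≤ x p q) = Tb r c :=
    filter_true_of_mem fun x hx => Redu_le p q L hL hx
  refine ⟨?_, ?_, ?_⟩
  · unfold sq
    rw [← unit_bij p q L hr hc (fun x => f x ^ 2), hf]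
  · rw [← unit_bij p q L hr hc f, hf]
  · have h := En_restrict p q L hr hc f
    rw [hf] at h
    exact h

end Vale.Agent.P328B
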